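import Vale.Agent.P329.MarkD

namespace Vale.Agent.P329

variable {α : Type}

theorem mark_win_take (z : List α) {n c L : ℕ} (h : c + L ≤ n) :
    win (z.take n) c L = win z c L := by
  rw [win, win, List.drop_take, List.take_take, min_eq_left (by omega)]

theorem mark_win_seg (ω : ℕ → α) (s : ℕ) {n c L : ℕ} (h : c + L ≤ n) :
    win (seg ω s n) c L = seg ω (s + c) L := by
  rw [win, seg_drop, seg_take _ _ _ _ (by omega)]

theorem mk_take (cd : List α → ℕ) (D : ℕ) (z : List α) :
    Mk cd D z ↔ Mk cd D (z.take (5 * D)) := by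
  unfold Mk
  rw [mark_win_take z (show D + 3 * D ≤ 5 * D by omega), List.length_take]
  refine and_congr (by omega) (and_congr_right fun _ => forall₂_congr fun c hc => ?_)
  rw [mark_win_take z (show c + 3 * D ≤ 5 * D by omega)]

theorem mk_seg (cd : List α → ℕ) (D : ℕ) (ω : ℕ → α) (s n : ℕ) :
    Mk cd D (seg ω s n) ↔ 5 * D ≤ n ∧ MkAt cd D ω s := by
  by_cases h : 5 * D ≤ n
  · rw [mk_take, seg_take _ _ _ _ h]
    exact ⟨fun k => ⟨h, k⟩, fun k => k.2⟩
  · refine ⟨fun k => absurd ?_ h, fun k => absurd k.1 h⟩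
    have := k.1
    rwa [seg_length] at this

theorem mark_at (cd : List α → ℕ) (D : ℕ) (ω : ℕ → α) (t : ℕ) :
    MkAt cd D ω t ↔ Good D (seg ω (t + D) (3 * D)) ∧ ∀ c, c ≤ 2 * D →
      Good D (seg ω (t + c) (3 * D)) → cd (seg ω (t + D) (3 * D)) ≤ cd (seg ω (t + c) (3 * D)) := by
  unfold MkAt Mk
  rw [mark_win_seg ω t (show D + 3 * D ≤ 5 * D by omega), seg_length]
  refine ⟨fun h => ⟨h.2.1, fun c hc => ?_⟩, fun h => ⟨le_rfl, h.1, fun c hc => ?_⟩⟩
  · rw [← mark_win_seg ω t (show c + 3 * D ≤ 5 * D by omega)]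
    exact h.2.2 c hc
  · rw [mark_win_seg ω t (show c + 3 * D ≤ 5 * D by omega)]
    exact h.2 c hc

theorem mark_good (D : ℕ) (ω : ℕ → α) (p L : ℕ) : Good D (seg ω p L) ↔
    ∀ d, 1 ≤ d → d ≤ D → ¬ ∀ i, i + d < L → ω (p + i) = ω (p + (i + d)) := by
  unfold Good
  rw [seg_length]
  refine forall₃_congr fun d _ _ => not_congr (forall₂_congr fun i hi => ?_)
  rw [seg_getElem?, seg_getElem?, if_pos hi, if_pos (by omega), Option.some_inj]

theorem mark_eq {ω : ℕ → α} {p q L : ℕ} (h : seg ω p L = seg ω q L) {i : ℕ} (hi : i < L) :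
    ω (p + i) = ω (q + i) := by
  have h1 := seg_getElem? ω p L i
  rw [h, seg_getElem?, if_pos hi, if_pos hi] at h1
  exact (Option.some_inj.1 h1).symm

theorem mkAt_sep {cd : List α → ℕ} (hcd : Function.Injective cd) {D : ℕ} {ω : ℕ → α}
    {t t' : ℕ} (h : MkAt cd D ω t) (h' : MkAt cd D ω t') (htt : t < t') : t + D < t' := by
  by_contra hc
  obtain ⟨g, m⟩ := (mark_at cd D ω t).1 h
  obtain ⟨g', m'⟩ := (mark_at cd D ω t').1 h'
  have e1 : t + (D + (t' - t)) = t' + D := by omega
  have e2 : t' + (D - (t' - t)) = t + D := by omega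
  have h1 := m (D + (t' - t)) (by omega)
  have h2 := m' (D - (t' - t)) (by omega)
  rw [e1] at h1
  rw [e2] at h2
  have h3 := hcd (le_antisymm (h1 g') (h2 g))
  refine (mark_good D ω _ _).1 g (t' - t) (by omega) (by omega) fun i hi => ?_
  rw [mark_eq h3 (show i < 3 * D by omega)]
  congr 1
  omega

theorem mark_ofFn (ω : ℕ → α) (p L : ℕ) : List.ofFn (fun i : Fin L => ω (p + i)) = seg ω p L := by
  apply List.ext_getElem
  · rw [seg_length, List.length_ofFn]
  · intro i h1 h2
    simp [seg]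

open Classical in
/-- Number of words of length `L` with a smaller code than the window at `p`. -/
noncomputable def markRk [Fintype α] (cd : List α → ℕ) (ω : ℕ → α) (L p : ℕ) : ℕ :=
  (Finset.univ.filter fun f : Fin L → α => cd (List.ofFn f) < cd (seg ω p L)).card

theorem mark_rk_lt [Fintype α] (cd : List α → ℕ) (ω : ℕ → α) (L p : ℕ) :
    markRk cd ω L p < Fintype.card α ^ L := by
  classical
  have h1 : Fintype.card α ^ L = (Finset.univ : Finset (Fin L → α)).card := by
    rw [Finset.card_univ, Fintype.card_fun, Fintype.card_fin]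
  rw [h1, markRk]
  refine Finset.card_lt_card ⟨fun f _ => Finset.mem_univ f, fun h => ?_⟩
  have h2 := (Finset.mem_filter.1 (h (Finset.mem_univ fun i : Fin L => ω (p + i)))).2
  rw [mark_ofFn] at h2
  exact lt_irrefl _ h2

theorem mark_rk_mono [Fintype α] (cd : List α → ℕ) (ω : ℕ → α) {L p q : ℕ}
    (h : cd (seg ω q L) < cd (seg ω p L)) : markRk cd ω L q < markRk cd ω L p := by
  classical
  unfold markRk
  refine Finset.card_lt_card ⟨fun f hf => Finset.mem_filter.2
    ⟨Finset.mem_univ f, (Finset.mem_filter.1 hf).2.trans h⟩, fun h' => ?_⟩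
  have h2 := (Finset.mem_filter.1 (h' (Finset.mem_filter.2
    ⟨Finset.mem_univ fun i : Fin L => ω (q + i), by rw [mark_ofFn]; exact h⟩))).2
  rw [mark_ofFn] at h2
  exact lt_irrefl _ h2

theorem mark_noGood [Fintype α] {cd : List α → ℕ} {D : ℕ} {ω : ℕ → α} {s t : ℕ}
    (h : ∀ μ, s ≤ μ → μ ≤ t → ¬ MkAt cd D ω μ) (k : ℕ) : ∀ p, markRk cd ω (3 * D) p < k →
      s + D + D * k ≤ p → p + D * k ≤ t + D → ¬ Good D (seg ω p (3 * D)) := by
  induction k with
  | zero => intro p hp; omega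
  | succ k ih =>
    intro p hp h1 h2 hg
    rw [mul_add, mul_one] at h1 h2
    have e : p - D + D = p := by omega
    refine h (p - D) (by omega) (by omega) ((mark_at cd D ω _).2 ?_)
    rw [e]
    refine ⟨hg, fun c hc hg' => ?_⟩
    by_contra hlt
    have h3 := mark_rk_mono cd ω (not_le.1 hlt)
    exact ih (p - D + c) (by omega) (by omega) (by omega) hg'

theorem mark_per [Fintype α] {cd : List α → ℕ} {D : ℕ} {ω : ℕ → α} {s t : ℕ}
    (h : ∀ μ, s ≤ μ → μ ≤ t → ¬ MkAt cd D ω μ) {p : ℕ} (h1 : s + Sg (Fintype.card α) D ≤ p)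
    (h2 : p + Sg (Fintype.card α) D ≤ t) :
    ∃ d, 1 ≤ d ∧ d ≤ D ∧ ∀ j, p ≤ j → j + d < p + 3 * D → ω j = ω (j + d) := by
  unfold Sg at h1 h2
  have h3 := mark_noGood h _ p (mark_rk_lt cd ω (3 * D) p) (by omega) (by omega)
  rw [mark_good] at h3
  by_contra hc
  refine h3 fun d hd hd' hp => hc ⟨d, hd, hd', fun j hj hj' => ?_⟩
  have h4 := hp (j - p) (by omega)
  rwa [show p + (j - p) = j by omega, show p + (j - p + d) = j + d by omega] at h4

theorem mark_exists [Fintype α] {cd : List α → ℕ} {D : ℕ} (hD : 1 ≤ D) {ω : ℕ → α} {s t : ℕ}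
    (h : ∀ μ, s ≤ μ → μ ≤ t → ¬ MkAt cd D ω μ) : ∃ d, 1 ≤ d ∧ d ≤ D ∧
      ∀ i, s + Sg (Fintype.card α) D ≤ i → i + d + Sg (Fintype.card α) D ≤ t →
        ω i = ω (i + d) := by
  by_cases hc : s + Sg (Fintype.card α) D + Sg (Fintype.card α) D ≤ t
  swap
  · exact ⟨1, le_rfl, hD, fun i h1 h2 => by omega⟩
  obtain ⟨d, hd, hd', hp⟩ := mark_per h le_rfl hc
  refine ⟨d, hd, hd', fun i => ?_⟩
  induction i using Nat.strong_induction_on with
  | _ i ih =>
    intro h1 h2
    by_cases h3 : i + d < s + Sg (Fintype.card α) D + 3 * D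
    · exact hp i h1 h3
    obtain ⟨e, he, he', hq⟩ := mark_per h (p := i + d + 1 - 3 * D) (by omega) (by omega)
    have a1 := hq (i - e) (by omega) (by omega)
    have a2 := ih (i - e) (by omega) (by omega) (by omega)
    have a3 := hq (i - e + d) (by omega) (by omega)
    rw [show i - e + e = i by omega] at a1
    rw [show i - e + d + e = i + d by omega] at a3
    rw [← a1, a2, a3]

theorem mark_shift {ω : ℕ → α} {a b D d d' i : ℕ} (hd : 1 ≤ d) (hdD : d ≤ D) (hd' : d' < d)
    (hp : ∀ j, a ≤ j → j + d ≤ b → ω j = ω (j + d)) (hi : a ≤ i) (hi' : i + 4 * D ≤ b)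
    (he : ∀ x < 3 * D, ω (i + x) = ω (i + d' + x)) :
    ∀ j, a ≤ j → j + d' ≤ b → ω j = ω (j + d') := by
  have up : ∀ n j, i ≤ j + n → a ≤ j → j < i + 3 * D → ω j = ω (j + d') := by
    intro n
    induction n with
    | zero =>
      intro j h1 _ h3
      have h4 := he (j - i) (by omega)
      rwa [show i + (j - i) = j by omega, show i + d' + (j - i) = j + d' by omega] at h4
    | succ n ih =>
      intro j h1 h2 h3
      by_cases h4 : i ≤ j + n
      · exact ih j h4 h2 h3
      have a1 := hp j h2 (by omega)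
      have a2 := hp (j + d') (by omega) (by omega)
      have a3 := ih (j + d) (by omega) (by omega) (by omega)
      rw [a1, a2, a3]
      congr 1
      omega
  intro j
  induction j using Nat.strong_induction_on with
  | _ j ih =>
    intro h1 h2
    by_cases h3 : j < i + 3 * D
    · exact up i j (by omega) h1 h3
    have a1 := hp (j - d) (by omega) (by omega)
    have a2 := hp (j - d + d') (by omega) (by omega)
    have a3 := ih (j - d) (by omega) (by omega) (by omega)
    rw [show j - d + d = j by omega] at a1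
    rw [show j - d + d' + d = j + d' by omega] at a2
    rw [← a1, a3, a2]

theorem per_of_noMk [Fintype α] {cd : List α → ℕ} (hcd : Function.Injective cd) {D : ℕ}
    (hD : 1 ≤ D) (ω : ℕ → α) (s t : ℕ) (h : ∀ μ, s ≤ μ → μ ≤ t → ¬ MkAt cd D ω μ) :
    ∃ d, 1 ≤ d ∧ d ≤ D ∧
      (∀ i, s + Sg (Fintype.card α) D ≤ i → i + d + Sg (Fintype.card α) D ≤ t →
        ω i = ω (i + d)) ∧
      (∀ i d', s + Sg (Fintype.card α) D ≤ i → i + 4 * D + Sg (Fintype.card α) D ≤ t →
        1 ≤ d' → d' < d → seg ω i (3 * D) ≠ seg ω (i + d') (3 * D)) := by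
  classical
  have _hcd := hcd
  have hex := mark_exists hD h
  obtain ⟨h1, h2, h3⟩ := Nat.find_spec hex
  refine ⟨Nat.find hex, h1, h2, h3, fun i d' hi hi' hd hd' he => ?_⟩
  refine Nat.find_min hex hd' ⟨hd, by omega, fun j hj hj' => ?_⟩
  exact mark_shift (b := t - Sg (Fintype.card α) D) h1 h2 hd'
    (fun j k1 k2 => h3 j k1 (by omega)) hi (by omega) (fun x hx => mark_eq he hx) j hj (by omega)

theorem ev_le (cd : List α → ℕ) (D Lh : ℕ) (z : List α) (hz : z.length = 2 * Lh)
    (hL : 2 * D ≤ Lh) : ev cd D Lh z + D ≤ 2 * Lh := by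
  classical
  unfold ev
  split_ifs with h h'
  · have h1 := (Nat.find_spec h).1
    rw [List.length_drop, hz] at h1
    rcases Nat.eq_zero_or_pos D with rfl | hD
    · have h2 : Nat.find h ≤ 0 := Nat.find_le ⟨Nat.zero_le _, fun d k1 k2 => by omega,
        fun c hc _ => by rw [show c = 0 by omega]⟩
      omega
    · omega
  · have h1 := (Nat.find_spec h').2.1
    omega
  · omega

end Vale.Agent.P329
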