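import Vale.Agent.P329.AutD
import Vale.Agent.P329.Mark

namespace Vale.Agent.P329

variable {α M H R : Type} [Monoid M] [AddCommGroup H]

theorem aut_pend_beg (P : Par α M H R) (e : ℕ) (h : H) (m : M) : P.pend (P.beg e h m) = m := by
  unfold Par.beg
  split_ifs <;> rfl

theorem aut_ph_seg (f : α → M) (ω : ℕ → α) {a b c : ℕ} (hab : a ≤ b) (hbc : b ≤ c) :
    ph f (seg ω a (b - a)) * ph f (seg ω b (c - b)) = ph f (seg ω a (c - a)) := by
  rw [← ph_append, show c - a = (b - a) + (c - b) by omega, seg_add,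
    show a + (b - a) = b by omega]

theorem aut_run_zero (P : Par α M H R) (q : Ctl α M H × VV M) (ω : ℕ → α) (s : ℕ) :
    P.run q ω s 0 = q := by
  simp [Par.run, seg_zero]

theorem aut_run_succ (P : Par α M H R) (q : Ctl α M H × VV M) (ω : ℕ → α) (s n : ℕ) :
    P.run q ω s (n + 1) = skew P.st (P.run q ω s n) (ω (s + n)) := by
  simp [Par.run, seg_succ, List.foldl_append, Par.δ]

theorem aut_ph_succ (f : α → M) (ω : ℕ → α) (s n : ℕ) :
    ph f (seg ω s (n + 1)) = ph f (seg ω s n) * f (ω (s + n)) := by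
  rw [seg_succ, ph_append, ph_single]

theorem Par.pend_st (P : Par α M H R) (c : Ctl α M H) (a : α) :
    (P.st c a).2.1 * P.pend (P.st c a).1 = P.pend c * P.f a := by
  cases c with
  | za e c h m =>
    simp only [Par.st]
    split_ifs <;> simp [Par.pend, ph_nil]
  | zb e h m z =>
    simp only [Par.st]
    split_ifs
    · simp [Par.pend, ph_append, ph_single, mul_assoc]
    · simp only [aut_pend_beg]
      rw [mul_assoc, ← ph_append, List.take_append_drop, ph_append, ph_single, Par.pend, mul_assoc]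
  | wt h m cl z =>
    simp only [Par.st]
    split_ifs <;> simp [Par.pend]
  | dl x =>
    simp only [Par.st]
    split_ifs <;> simp [Par.pend]

theorem Par.bd_st (P : Par α M H R) (hP : P.Ok) {W : ℕ} (hX : ∀ e, P.X e < W)
    (c : Ctl α M H) (hc : P.Bd W c) (a : α) : P.Bd W (P.st c a).1 := by
  have h1 := hP.hD1
  have h2 := hP.hLh
  have h3 := hP.hA
  have h4 := hP.hE
  have h5 := hP.hD2
  have h6 := hP.hQ
  cases c with
  | za e c h m =>
    simp only [Par.st]
    split_ifs with k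
    · exact ⟨hc.1, k⟩
    · exact ⟨hc.1, by simp only [List.length_nil]; omega⟩
  | zb e h m z =>
    simp only [Par.st]
    split_ifs with k
    · exact ⟨hc.1, by simpa using k⟩
    · simp only [Par.beg]
      split_ifs with k'
      · exact ⟨k', h3⟩
      · exact ⟨h6, by simp only [List.length_nil]; omega⟩
  | wt h m cl z =>
    simp only [Par.st]
    split_ifs with k k'
    · exact ⟨hc.1, by simpa using k⟩
    · exact hX _
    · exact ⟨Nat.mod_lt _ h6, by simpa using hc.2⟩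
  | dl x =>
    simp only [Par.st]
    split_ifs with k
    · exact ⟨h4, h3⟩
    · exact lt_of_le_of_lt (Nat.sub_le _ _) hc

theorem Par.bd_finite [Finite α] [Finite M] [Finite H] (P : Par α M H R) (W : ℕ) :
    {q : Ctl α M H × VV M | P.Bd W q.1}.Finite := by
  haveI := vv_finite M
  have h1 : {c : Ctl α M H | P.Bd W c}.Finite := by
    have a1 := ((Set.finite_lt_nat P.E).prod ((Set.finite_lt_nat P.A).prod
      (Set.finite_univ (α := H × M)))).image
      (fun p : ℕ × ℕ × H × M => (Ctl.za p.1 p.2.1 p.2.2.1 p.2.2.2 : Ctl α M H))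
    have a2 := ((Set.finite_lt_nat P.E).prod ((List.finite_length_lt α (2 * P.Lh)).prod
      (Set.finite_univ (α := H × M)))).image
      (fun p : ℕ × List α × H × M => (Ctl.zb p.1 p.2.2.1 p.2.2.2 p.2.1 : Ctl α M H))
    have a3 := ((Set.finite_lt_nat P.Q).prod ((List.finite_length_lt α (5 * P.D2)).prod
      (Set.finite_univ (α := H × M)))).image
      (fun p : ℕ × List α × H × M => (Ctl.wt p.2.2.1 p.2.2.2 p.1 p.2.1 : Ctl α M H))
    have a4 := (Set.finite_lt_nat W).image (fun x : ℕ => (Ctl.dl x : Ctl α M H))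
    refine (((a1.union a2).union a3).union a4).subset fun c hc => ?_
    cases c with
    | za e c h m =>
      exact Or.inl (Or.inl (Or.inl ⟨(e, c, h, m), ⟨hc.1, hc.2, trivial⟩, rfl⟩))
    | zb e h m z =>
      exact Or.inl (Or.inl (Or.inr ⟨(e, z, h, m), ⟨hc.1, hc.2, trivial⟩, rfl⟩))
    | wt h m cl z =>
      exact Or.inl (Or.inr ⟨(cl, z, h, m), ⟨hc.1, hc.2, trivial⟩, rfl⟩)
    | dl x => exact Or.inr ⟨x, hc, rfl⟩
  exact (h1.prod (Set.finite_univ (α := VV M))).subset fun q hq => ⟨hq, trivial⟩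

theorem Par.run_add (P : Par α M H R) (q : Ctl α M H × VV M) (ω : ℕ → α) (s m n : ℕ) :
    P.run q ω s (m + n) = P.run (P.run q ω s m) ω (s + m) n := by
  simp only [Par.run, seg_add, List.foldl_append]

theorem Par.run_za (P : Par α M H R) (ω : ℕ → α) (s e c n : ℕ) (h : H) (m : M) (v : VV M)
    (hc : c + n < P.A) :
    P.run (Ctl.za e c h m, v) ω s n = (Ctl.za e (c + n) h (m * ph P.f (seg ω s n)), v) := by
  induction n with
  | zero => simp [aut_run_zero, seg_zero, ph_nil]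
  | succ n ih =>
    have k : c + n + 1 < P.A := by omega
    rw [aut_run_succ, ih (by omega), aut_ph_succ]
    simp only [skew, Par.st, if_pos k, bv_one, mul_one, add_zero, mul_assoc]
    rfl

theorem aut_run_zaA (P : Par α M H R) (ω : ℕ → α) (s e c : ℕ) (h : H) (m : M) (v : VV M)
    (hc : c < P.A) :
    P.run (Ctl.za e c h m, v) ω s (P.A - c)
      = (Ctl.zb e h (m * ph P.f (seg ω s (P.A - c))) [], v) := by
  obtain ⟨n, hn⟩ : ∃ n, P.A - c = n + 1 := ⟨P.A - c - 1, by omega⟩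
  have k : ¬ (c + n + 1 < P.A) := by omega
  rw [hn, aut_run_succ, Par.run_za P ω s e c n h m v (by omega), aut_ph_succ]
  simp only [skew, Par.st, if_neg k, bv_one, mul_one, add_zero, mul_assoc]

theorem aut_run_zb (P : Par α M H R) (ω : ℕ → α) (s e n : ℕ) (h : H) (m : M) (v : VV M)
    (hn : n < 2 * P.Lh) :
    P.run (Ctl.zb e h m [], v) ω s n = (Ctl.zb e h m (seg ω s n), v) := by
  induction n with
  | zero => simp [aut_run_zero, seg_zero]
  | succ n ih =>
    rw [aut_run_succ, ih (by omega), seg_succ]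
    simp only [skew, Par.st, seg_length, if_pos hn, bv_one, mul_one, add_zero]

theorem aut_run_zbA (P : Par α M H R) (ω : ℕ → α) (s e : ℕ) (h : H) (m : M) (v : VV M)
    (hL : 1 ≤ P.Lh) :
    P.run (Ctl.zb e h m [], v) ω s (2 * P.Lh) =
      (P.beg (e + 1)
        (h + P.lam e (m * ph P.f ((seg ω s (2 * P.Lh)).take
          (ev P.cd P.D1 P.Lh (seg ω s (2 * P.Lh))))))
        (ph P.f ((seg ω s (2 * P.Lh)).drop (ev P.cd P.D1 P.Lh (seg ω s (2 * P.Lh))))),
       v * bv (m * ph P.f ((seg ω s (2 * P.Lh)).take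
          (ev P.cd P.D1 P.Lh (seg ω s (2 * P.Lh)))))) := by
  obtain ⟨n, hn⟩ : ∃ n, 2 * P.Lh = n + 1 := ⟨2 * P.Lh - 1, by omega⟩
  have k : ¬ (n + 1 < 2 * P.Lh) := by omega
  have e1 : seg ω s (2 * P.Lh) = seg ω s n ++ [ω (s + n)] := by rw [hn, seg_succ]
  have e2 : P.run (Ctl.zb e h m [], v) ω s (2 * P.Lh)
      = skew P.st (P.run (Ctl.zb e h m [], v) ω s n) (ω (s + n)) := by
    rw [hn, aut_run_succ]
  rw [e2, aut_run_zb P ω s e n h m v (by omega), e1]
  simp only [skew, Par.st, seg_length, if_neg k, add_zero]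

/-- One substep, started at clock `c`. -/
theorem Par.run_sub (P : Par α M H R) (hP : P.Ok) (ω : ℕ → α) (τ e c : ℕ) (h : H) (m : M)
    (v : VV M) (hc : c < P.A) :
    P.run (Ctl.za e c h m, v) ω (τ + e * P.C0 + c) (P.C0 - c) =
      (P.beg (e + 1)
        (h + P.lam e (m * ph P.f (seg ω (τ + e * P.C0 + c) (P.tev ω τ e - (τ + e * P.C0 + c)))))
        (ph P.f (seg ω (P.tev ω τ e) (τ + (e + 1) * P.C0 - P.tev ω τ e))),
       v * bv (m * ph P.f (seg ω (τ + e * P.C0 + c) (P.tev ω τ e - (τ + e * P.C0 + c))))) := by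
  have h1 := hP.hD1
  have h2 := hP.hLh
  have hev := ev_le P.cd P.D1 P.Lh (seg ω (τ + e * P.C0 + P.A) (2 * P.Lh)) (seg_length _ _ _) h2
  have e1 : P.C0 - c = (P.A - c) + 2 * P.Lh := by
    unfold Par.C0
    omega
  rw [e1, Par.run_add, aut_run_zaA P ω _ e c h m v hc,
    show τ + e * P.C0 + c + (P.A - c) = τ + e * P.C0 + P.A by omega,
    aut_run_zbA P ω _ e h _ v (by omega), seg_take _ _ _ _ (by omega), seg_drop]
  have e2 : m * ph P.f (seg ω (τ + e * P.C0 + c) (P.A - c)) *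
      ph P.f (seg ω (τ + e * P.C0 + P.A)
        (ev P.cd P.D1 P.Lh (seg ω (τ + e * P.C0 + P.A) (2 * P.Lh))))
      = m * ph P.f (seg ω (τ + e * P.C0 + c) (P.tev ω τ e - (τ + e * P.C0 + c))) := by
    rw [mul_assoc, ← aut_ph_seg P.f ω (a := τ + e * P.C0 + c) (b := τ + e * P.C0 + P.A)
      (c := P.tev ω τ e) (by omega) (by unfold Par.tev; omega),
      show τ + e * P.C0 + P.A - (τ + e * P.C0 + c) = P.A - c by omega, Par.tev,
      Nat.add_sub_cancel_left]
  have e3 : 2 * P.Lh - ev P.cd P.D1 P.Lh (seg ω (τ + e * P.C0 + P.A) (2 * P.Lh))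
      = τ + (e + 1) * P.C0 - P.tev ω τ e := by
    have : (e + 1) * P.C0 = e * P.C0 + P.A + 2 * P.Lh := by
      rw [add_mul, one_mul, add_assoc]
      rfl
    unfold Par.tev
    omega
  rw [e2, e3]
  rfl

theorem Par.tev_bounds (P : Par α M H R) (hP : P.Ok) (ω : ℕ → α) (τ e : ℕ) :
    τ + e * P.C0 + P.A ≤ P.tev ω τ e ∧ P.tev ω τ e + P.D1 ≤ τ + (e + 1) * P.C0 := by
  have hev := ev_le P.cd P.D1 P.Lh (seg ω (τ + e * P.C0 + P.A) (2 * P.Lh)) (seg_length _ _ _) hP.hLh
  have : (e + 1) * P.C0 = e * P.C0 + P.A + 2 * P.Lh := by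
    rw [add_mul, one_mul, add_assoc]
    rfl
  unfold Par.tev
  omega

theorem aut_tev_mono (P : Par α M H R) (hP : P.Ok) (ω : ℕ → α) (τ : ℕ) {a b : ℕ} (hab : a ≤ b) :
    P.tev ω τ a ≤ P.tev ω τ b := by
  induction b, hab using Nat.le_induction with
  | base => exact le_rfl
  | succ n _ ih =>
    have b1 := P.tev_bounds hP ω τ n
    have b2 := P.tev_bounds hP ω τ (n + 1)
    omega

/-- Several substeps. -/
theorem Par.run_subs (P : Par α M H R) (hP : P.Ok) (ω : ℕ → α) (τ e e' : ℕ) (he : 1 ≤ e)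
    (hee : e ≤ e') (he' : e' ≤ P.E) (h : H) (v : VV M) :
    P.run (P.beg e h (ph P.f (seg ω (P.tev ω τ (e - 1)) (τ + e * P.C0 - P.tev ω τ (e - 1)))), v)
        ω (τ + e * P.C0) ((e' - e) * P.C0) =
      (P.beg e' (h + P.hs ω τ e e')
          (ph P.f (seg ω (P.tev ω τ (e' - 1)) (τ + e' * P.C0 - P.tev ω τ (e' - 1)))),
        v * bv (ph P.f (seg ω (P.tev ω τ (e - 1)) (P.tev ω τ (e' - 1) - P.tev ω τ (e - 1))))) := by
  induction e', hee using Nat.le_induction with
  | base => simp [aut_run_zero, Par.hs, seg_zero, ph_nil, bv_one]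
  | succ n hn ih =>
    have k : n < P.E := he'
    have b1 := P.tev_bounds hP ω τ (n - 1)
    have b2 := P.tev_bounds hP ω τ n
    rw [show n - 1 + 1 = n by omega] at b1
    have b3 := aut_tev_mono P hP ω τ (show e - 1 ≤ n - 1 by omega)
    have e1 : (n + 1 - e) * P.C0 = (n - e) * P.C0 + (P.C0 - 0) := by
      rw [show n + 1 - e = (n - e) + 1 by omega, add_mul, one_mul, Nat.sub_zero]
    have e2 : τ + e * P.C0 + (n - e) * P.C0 = τ + n * P.C0 + 0 := by
      rw [add_assoc, ← add_mul, show e + (n - e) = n by omega, add_zero]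
    rw [e1, Par.run_add, ih k.le, e2, Par.beg, if_pos k, P.run_sub hP ω τ n 0 _ _ _ hP.hA, add_zero,
      aut_ph_seg P.f ω (by omega) (by omega), Nat.add_sub_cancel, mul_assoc, ← bv_mul,
      aut_ph_seg P.f ω b3 (by omega), add_assoc h, Par.hs, Par.hs, Finset.sum_Ico_succ_top hn]
    rfl

/-- From a visit to the beginning of substep `e`. -/
theorem Par.run_visit (P : Par α M H R) (hP : P.Ok) (ω : ℕ → α) (τ e : ℕ) (he : 1 ≤ e)
    (he' : e ≤ P.E) (v : VV M) :
    P.run (Ctl.za 0 0 0 1, v) ω τ (e * P.C0) =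
      (P.beg e (P.hs ω τ 1 e)
          (ph P.f (seg ω (P.tev ω τ (e - 1)) (τ + e * P.C0 - P.tev ω τ (e - 1)))),
        v * bv (ph P.f (seg ω τ (P.tev ω τ (e - 1) - τ)))) := by
  have e1 : e * P.C0 = (P.C0 - 0) + (e - 1) * P.C0 := by
    rw [Nat.sub_zero, add_comm, ← add_one_mul, show e - 1 + 1 = e by omega]
  have h1 := P.run_sub hP ω τ 0 0 0 1 v hP.hA
  have h2 := P.run_subs hP ω τ 1 e le_rfl he he' 0 (v * bv (ph P.f (seg ω τ (P.tev ω τ 0 - τ))))
  have b1 := P.tev_bounds hP ω τ 0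
  have b3 := aut_tev_mono P hP ω τ (show 0 ≤ e - 1 by omega)
  simp only [zero_mul, add_zero, zero_add, hP.lam0, one_mul, Nat.sub_zero, Nat.sub_self] at h1 h2 b1
  conv_lhs => rw [e1, Par.run_add, Nat.sub_zero, h1, h2]
  rw [mul_assoc, ← bv_mul, aut_ph_seg P.f ω (by omega) b3]

theorem aut_run_wt0 (P : Par α M H R) (ω : ℕ → α) (s n : ℕ) (h : H) (m : M) (v : VV M)
    (hn : n < 5 * P.D2) :
    P.run (Ctl.wt h m 0 [], v) ω s n = (Ctl.wt h (m * ph P.f (seg ω s n)) 0 (seg ω s n), v) := by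
  induction n with
  | zero => simp [aut_run_zero, seg_zero, ph_nil]
  | succ n ih =>
    rw [aut_run_succ, ih (by omega), aut_ph_succ, seg_succ]
    simp only [skew, Par.st, seg_length, if_pos hn, bv_one, mul_one, add_zero, mul_assoc]

/-- Waiting for the first big mark. -/
theorem Par.run_wt (P : Par α M H R) (hP : P.Ok) (ω : ℕ → α) (s μ : ℕ) (h : H) (m : M)
    (v : VV M) (hs : s ≤ μ) (hμ : MkAt P.cd P.D2 ω μ)
    (hfirst : ∀ t, s ≤ t → t < μ → ¬ MkAt P.cd P.D2 ω t) :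
    P.run (Ctl.wt h m 0 [], v) ω s (μ - s + 5 * P.D2) =
      (Ctl.dl (P.X (P.rd ((μ - s) % P.Q), h)),
        v * bv (m * ph P.f (seg ω s (μ - s + 5 * P.D2))) + P.Y (P.rd ((μ - s) % P.Q), h)) := by
  have h5 := hP.hD2
  obtain ⟨n, hn⟩ : ∃ n, 5 * P.D2 = n + 1 := ⟨5 * P.D2 - 1, by omega⟩
  have key : ∀ k, k ≤ μ - s → P.run (Ctl.wt h m 0 [], v) ω s (k + n)
      = (Ctl.wt h (m * ph P.f (seg ω s (k + n))) (k % P.Q) (seg ω (s + k) n), v) := by
    intro k
    induction k with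
    | zero =>
      intro _
      simpa using aut_run_wt0 P ω s n h m v (by omega)
    | succ k ih =>
      intro hk
      have k1 : ¬ (n + 1 < 5 * P.D2) := by omega
      have e1 : seg ω (s + k) n ++ [ω (s + (k + n))] = seg ω (s + k) (5 * P.D2) := by
        rw [hn, seg_succ, add_assoc]
      have k2 : ¬ Mk P.cd P.D2 (seg ω (s + k) (5 * P.D2)) := hfirst (s + k) (by omega) (by omega)
      have e2 : (seg ω (s + k) (5 * P.D2)).tail = seg ω (s + (k + 1)) n := by
        rw [← List.drop_one, seg_drop, hn, Nat.add_sub_cancel, add_assoc]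
      rw [show k + 1 + n = (k + n) + 1 by omega, aut_run_succ, ih (by omega), aut_ph_succ]
      rw [← e1] at k2 e2
      simp only [skew, Par.st, seg_length, if_neg k1, if_neg k2, e2, bv_one, mul_one, add_zero,
        mul_assoc, Nat.mod_add_mod]
  have k1 : ¬ (n + 1 < 5 * P.D2) := by omega
  have e1 : seg ω (s + (μ - s)) n ++ [ω (s + (μ - s + n))] = seg ω μ (5 * P.D2) := by
    rw [hn, seg_succ, ← add_assoc, show s + (μ - s) = μ by omega]
  have k2 : Mk P.cd P.D2 (seg ω μ (5 * P.D2)) := hμ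
  rw [show μ - s + 5 * P.D2 = (μ - s + n) + 1 by omega, aut_run_succ, key _ le_rfl, aut_ph_succ]
  rw [← e1] at k2
  simp only [skew, Par.st, seg_length, if_neg k1, if_pos k2, mul_assoc]

theorem Par.run_dl (P : Par α M H R) (ω : ℕ → α) (s x : ℕ) (v : VV M) :
    P.run (Ctl.dl x, v) ω s (x + 1) = (Ctl.za 0 0 0 1, v * bv (ph P.f (seg ω s (x + 1)))) := by
  have key : ∀ k, k ≤ x → P.run (Ctl.dl x, v) ω s k
      = (Ctl.dl (x - k), v * bv (ph P.f (seg ω s k))) := by
    intro k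
    induction k with
    | zero =>
      intro _
      simp [aut_run_zero, seg_zero, ph_nil, bv_one]
    | succ k ih =>
      intro hk
      have k1 : ¬ (x - k = 0) := by omega
      rw [aut_run_succ, ih (by omega), aut_ph_succ]
      simp only [skew, Par.st, if_neg k1, add_zero, bv_mul, mul_assoc, Nat.sub_sub]
  rw [aut_run_succ, key x le_rfl, aut_ph_succ]
  simp only [skew, Par.st, Nat.sub_self, if_true, add_zero, bv_mul, mul_assoc]

/-- From a visit to the next reading. -/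
theorem Par.run_phase (P : Par α M H R) (hP : P.Ok) (ω : ℕ → α) (τ μ : ℕ) (v : VV M)
    (hs : τ + P.F ≤ μ) (hμ : MkAt P.cd P.D2 ω μ)
    (hfirst : ∀ t, τ + P.F ≤ t → t < μ → ¬ MkAt P.cd P.D2 ω t) :
    P.run (Ctl.za 0 0 0 1, v) ω τ (μ - τ + 5 * P.D2) =
      (Ctl.dl (P.X (P.rd ((μ - (τ + P.F)) % P.Q), P.hs ω τ 1 P.E)),
        v * bv (ph P.f (seg ω τ (μ - τ + 5 * P.D2))) +
          P.Y (P.rd ((μ - (τ + P.F)) % P.Q), P.hs ω τ 1 P.E)) := by
  have b1 := P.tev_bounds hP ω τ (P.E - 1)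
  have hE := hP.hE
  rw [show P.E - 1 + 1 = P.E by omega] at b1
  have hF : P.F = P.E * P.C0 := rfl
  have e1 : μ - τ + 5 * P.D2 = P.E * P.C0 + (μ - (τ + P.F) + 5 * P.D2) := by omega
  have e2 : μ - (τ + P.F) + 5 * P.D2 = μ + 5 * P.D2 - (τ + P.E * P.C0) := by omega
  have e3 : μ - τ + 5 * P.D2 = μ + 5 * P.D2 - τ := by omega
  conv_lhs => rw [e1, Par.run_add, P.run_visit hP ω τ P.E hE le_rfl, Par.beg, if_neg (lt_irrefl _),
    ← hF, P.run_wt hP ω (τ + P.F) μ _ _ _ hs hμ hfirst]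
  rw [mul_assoc, ← bv_mul, e2, e3, hF, aut_ph_seg P.f ω (by omega) (by omega),
    aut_ph_seg P.f ω (by omega) (by omega)]

end Vale.Agent.P329
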