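import Vale.Agent.P329.SH

namespace Vale.Agent.P329

variable {α : Type}

/-- The run from `q` on `w` avoids `κ` at all positive times. -/
def Alive {Q : Type} (δ : Q → α → Q) (κ q : Q) (w : List α) : Prop :=
  ∀ u v, w = u ++ v → u ≠ [] → u.foldl δ q ≠ κ

end Vale.Agent.P329
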