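import Vale.Agent.P329.MarkD
import Vale.Agent.P329.Two

namespace Vale.Agent.P329

open Classical

/-- Parameters of the automaton. -/
structure Par (α M H R : Type) [Monoid M] where
  f : α → M
  cd : List α → ℕ
  D1 : ℕ
  Lh : ℕ
  A : ℕ
  E : ℕ
  D2 : ℕ
  Q : ℕ
  lam : ℕ → M → H
  rd : ℕ → R
  X : R × H → ℕ
  Y : R × H → VV M

/-- Control states. -/
inductive Ctl (α M H : Type) : Type
  | za : ℕ → ℕ → H → M → Ctl α M H
  | zb : ℕ → H → M → List α → Ctl α M H
  | wt : H → M → ℕ → List α → Ctl α M H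
  | dl : ℕ → Ctl α M H

variable {α M H R : Type} [Monoid M] [AddCommGroup H]

/-- Control state at the beginning of substep `e`, or of the waiting period if `e = E`. -/
def Par.beg (P : Par α M H R) (e : ℕ) (h : H) (m : M) : Ctl α M H :=
  if e < P.E then Ctl.za e 0 h m else Ctl.wt h m 0 []

/-- One step of the control: new control state, multiplier and translation. -/
noncomputable def Par.st (P : Par α M H R) : Ctl α M H → α → Ctl α M H × M × VV M
  | Ctl.za e c h m, a =>
      if c + 1 < P.A then (Ctl.za e (c + 1) h (m * P.f a), 1, 0)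
      else (Ctl.zb e h (m * P.f a) [], 1, 0)
  | Ctl.zb e h m z, a =>
      if z.length + 1 < 2 * P.Lh then (Ctl.zb e h m (z ++ [a]), 1, 0)
      else
        (P.beg (e + 1)
            (h + P.lam e (m * ph P.f ((z ++ [a]).take (ev P.cd P.D1 P.Lh (z ++ [a])))))
            (ph P.f ((z ++ [a]).drop (ev P.cd P.D1 P.Lh (z ++ [a])))),
          m * ph P.f ((z ++ [a]).take (ev P.cd P.D1 P.Lh (z ++ [a]))), 0)
  | Ctl.wt h m cl z, a =>
      if z.length + 1 < 5 * P.D2 then (Ctl.wt h (m * P.f a) cl (z ++ [a]), 1, 0)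
      else if Mk P.cd P.D2 (z ++ [a]) then
        (Ctl.dl (P.X (P.rd cl, h)), m * P.f a, P.Y (P.rd cl, h))
      else (Ctl.wt h (m * P.f a) ((cl + 1) % P.Q) (z ++ [a]).tail, 1, 0)
  | Ctl.dl x, a => if x = 0 then (Ctl.za 0 0 0 1, P.f a, 0) else (Ctl.dl (x - 1), P.f a, 0)

/-- The pending product of a control state. -/
def Par.pend (P : Par α M H R) : Ctl α M H → M
  | Ctl.za _ _ _ m => m
  | Ctl.zb _ _ m z => m * ph P.f z
  | Ctl.wt _ m _ _ => m
  | Ctl.dl _ => 1

/-- The transition function of the automaton. -/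
noncomputable def Par.δ (P : Par α M H R) : Ctl α M H × VV M → α → Ctl α M H × VV M :=
  skew P.st

/-- State after reading `n` letters of `ω` from position `s`. -/
noncomputable def Par.run (P : Par α M H R) (q : Ctl α M H × VV M) (ω : ℕ → α) (s n : ℕ) :
    Ctl α M H × VV M := (seg ω s n).foldl P.δ q

/-- Bounded control states. -/
def Par.Bd (P : Par α M H R) (W : ℕ) : Ctl α M H → Prop
  | Ctl.za e c _ _ => e < P.E ∧ c < P.A
  | Ctl.zb e _ _ z => e < P.E ∧ z.length < 2 * P.Lh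
  | Ctl.wt _ _ cl z => cl < P.Q ∧ z.length < 5 * P.D2
  | Ctl.dl x => x < W

/-- Length of a substep. -/
def Par.C0 (P : Par α M H R) : ℕ := P.A + 2 * P.Lh

/-- Length of the fixed part of a phase. -/
def Par.F (P : Par α M H R) : ℕ := P.E * P.C0

/-- Event time of substep `e` in the phase starting at `τ`. -/
noncomputable def Par.tev (P : Par α M H R) (ω : ℕ → α) (τ e : ℕ) : ℕ :=
  τ + e * P.C0 + P.A + ev P.cd P.D1 P.Lh (seg ω (τ + e * P.C0 + P.A) (2 * P.Lh))

/-- Product between the events `e - 1` and `e`. -/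
noncomputable def Par.aev (P : Par α M H R) (ω : ℕ → α) (τ e : ℕ) : M :=
  ph P.f (seg ω (P.tev ω τ (e - 1)) (P.tev ω τ e - P.tev ω τ (e - 1)))

/-- History hash of the events in `[e, e')`. -/
noncomputable def Par.hs (P : Par α M H R) (ω : ℕ → α) (τ e e' : ℕ) : H :=
  ∑ i ∈ Finset.Ico e e', P.lam i (P.aev ω τ i)

/-- Basic size conditions. -/
structure Par.Ok (P : Par α M H R) : Prop where
  hcd : Function.Injective P.cd
  hD1 : 1 ≤ P.D1
  hLh : 2 * P.D1 ≤ P.Lh
  hA : 1 ≤ P.A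
  hE : 1 ≤ P.E
  hD2 : 1 ≤ P.D2
  hQ : 1 ≤ P.Q
  lam0 : ∀ m, P.lam 0 m = 0

/-- The catch state. -/
noncomputable def kap (α M H : Type) [Monoid M] [AddCommGroup H] : Ctl α M H × VV M :=
  (Ctl.za 0 0 0 1, 0)

/-- The candidate states for cuts, given the offset function `dl`. -/
def Par.Cand (P : Par α M H R) (dl : ℕ → H → VV M → ℕ) : Set (Ctl α M H × VV M) :=
  {q | ∃ e h v m, 1 ≤ e ∧ e < P.E ∧ q = (Ctl.za e (dl e h v) h m, v)}

end Vale.Agent.P329
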