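import Vale.Agent.P329.FitD
import Vale.Agent.P329.Aut

namespace Vale.Agent.P329

open Classical

variable {α M H : Type} [Monoid M] [AddCommGroup H]

/-- From a state of zone A to the start of the waiting period. -/
theorem Par.run_to_wt {R : Type} (P : Par α M H R) (hP : P.Ok) (ω : ℕ → α) (τ e c : ℕ)
    (he : e < P.E) (hc : c < P.A) (h : H) (m : M) (v : VV M) :
    ∃ m' v', P.run (Ctl.za e c h m, v) ω (τ + e * P.C0 + c) (P.F - (e * P.C0 + c)) =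
      (Ctl.wt (h + P.lam e (m * ph P.f (seg ω (τ + e * P.C0 + c)
        (P.tev ω τ e - (τ + e * P.C0 + c)))) + P.hs ω τ (e + 1) P.E) m' 0 [], v') := by
  have h0 : P.A ≤ P.C0 := Nat.le_add_right _ _
  have h1 : (e + 1) * P.C0 ≤ P.E * P.C0 := Nat.mul_le_mul_right _ he
  have h2 : P.F - (e * P.C0 + c) = (P.C0 - c) + (P.E - (e + 1)) * P.C0 := by
    rw [Par.F, Nat.sub_mul]
    rw [Nat.succ_mul] at h1 ⊢
    omega
  have h3 : τ + e * P.C0 + c + (P.C0 - c) = τ + (e + 1) * P.C0 := by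
    rw [Nat.succ_mul]
    omega
  have h4 := P.run_subs hP ω τ (e + 1) P.E (Nat.le_add_left _ _) he le_rfl
  simp only [Nat.add_sub_cancel] at h4
  rw [h2, P.run_add, P.run_sub hP ω τ e c h m v hc, h3, h4, Par.beg, if_neg (lt_irrefl _)]
  exact ⟨_, _, rfl⟩

theorem birth_hs {R : Type} (P : Par α M H R) (ω : ℕ → α) (τ : ℕ) {e : ℕ} (h1 : 1 ≤ e)
    (he : e < P.E) :
    P.hs ω τ 1 P.E = P.hs ω τ 1 e + P.lam e (P.aev ω τ e) + P.hs ω τ (e + 1) P.E := by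
  unfold Par.hs
  rw [← Finset.sum_Ico_succ_top h1, Finset.sum_Ico_consecutive _ (by omega) he]

theorem birth_one {u J : ℕ} {P : Par α M H (Rd u J)} {om : ℕ} {tb : Rd u J × H → Sx u J × VV M}
    {dl : ℕ → H → VV M → ℕ} {Dm : ℕ} (hF : Fit P om tb dl Dm) (ω : ℕ → α) (τ t : ℕ)
    (v0 : VV M) (hτ : P.F ≤ τ) (ht : τ + P.F ≤ t)
    (hno : ∀ n, n ≤ P.F → P.run (Ctl.za 0 0 0 1, v0) ω τ n ∈ P.Cand dl →
      ∃ c ∈ P.Cand dl, Alive P.δ (kap α M H) c (seg ω (τ + n) (t - (τ + n))) ∧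
        P.run c ω (τ + n) (t - (τ + n)) ≠ P.run (Ctl.za 0 0 0 1, v0) ω τ (t - τ))
    (e : ℕ) (h1 : 1 ≤ e) (he : e < P.E) :
    ∃ (c : Ctl α M H × VV M) (s s' kk jj : ℕ) (h' : H) (m' : M) (v' : VV M) (h0 : H) (w0 : VV M)
      (e1 : ℕ) (h1 : H) (w1 : VV M) (m1 : M),
      (τ ≤ s ∧ s ≤ s' ∧ s ≤ t ∧ s' < τ + 2 * P.F ∧
        Alive P.δ (kap α M H) c (seg ω s (t - s)) ∧
        P.run c ω s (s' - s) = (Ctl.wt h' m' 0 [], v') ∧
        kk < 2 * P.E ∧ jj < 2 * Dm ∧ s' + Dm = τ + kk * P.C0 + jj) ∧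
      e1 < P.E ∧ jj + dl e1 h1 w1 = dl e h0 w0 + Dm ∧
      ((e, h0, w0) = (e1, h1, w1) → m1 ≠ P.aev ω τ e ∧
        h' = P.hs ω τ 1 P.E + (P.lam e m1 - P.lam e (P.aev ω τ e))) := by
  have hA : P.A ≤ P.C0 := Nat.le_add_right _ _
  have hDA := hF.hDA
  have hv := P.run_visit hF.ok ω τ e h1 he.le v0
  rw [Par.beg, if_pos he] at hv
  generalize v0 * bv (ph P.f (seg ω τ (P.tev ω τ (e - 1) - τ))) = w0 at hv
  obtain ⟨d, hd⟩ : ∃ d, d = dl e (P.hs ω τ 1 e) w0 := ⟨_, rfl⟩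
  have hdD : d < Dm := hd ▸ hF.hdl _ _ _ he
  have hs := P.run_add (Ctl.za 0 0 0 1, v0) ω τ (e * P.C0) d
  rw [hv, P.run_za ω _ e 0 d _ _ _ (by omega), zero_add] at hs
  have b1 : (e + 1) * P.C0 ≤ P.F := Nat.mul_le_mul_right _ he
  rw [Nat.succ_mul] at b1
  obtain ⟨c, ⟨e1, g1, w1, m1, k1, k2, rfl⟩, hal, hne⟩ := hno (e * P.C0 + d) (by omega)
    ⟨e, _, w0, _, h1, he, by rw [hs, hd]⟩
  have hd1 := hF.hdl e1 g1 w1 k2
  have b2 : (e1 + 1) * P.C0 ≤ P.F := Nat.mul_le_mul_right _ k2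
  rw [Nat.succ_mul] at b2
  obtain ⟨τ', hτ'⟩ : ∃ τ', τ' + e1 * P.C0 + dl e1 g1 w1 = τ + (e * P.C0 + d) :=
    ⟨τ + (e * P.C0 + d) - (e1 * P.C0 + dl e1 g1 w1), by omega⟩
  obtain ⟨m', v', hr⟩ := P.run_to_wt hF.ok ω τ' e1 (dl e1 g1 w1) k2 (by omega) g1 m1 w1
  refine ⟨_, τ + (e * P.C0 + d), τ' + P.F, P.E + e - e1, d + Dm - dl e1 g1 w1, _, m', v', _, w0,
    e1, g1, w1, m1 * ph P.f (seg ω (τ + e * P.C0 + d) (P.tev ω τ e - (τ + e * P.C0 + d))),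
    ⟨by omega, by omega, by omega, by omega, hal, Eq.trans ?_ hr, by omega, by omega, ?_⟩, k2,
    by rw [← hd]; omega, fun hl => ?_⟩
  · rw [← hτ']
    congr 1
    omega
  · have : e1 * P.C0 ≤ (P.E + e) * P.C0 := Nat.mul_le_mul_right _ (by omega)
    rw [Nat.sub_mul]
    rw [Nat.add_mul] at this ⊢
    unfold Par.F at *
    omega
  · simp only [Prod.mk.injEq] at hl
    obtain ⟨rfl, rfl, rfl⟩ := hl
    rw [← hd] at hτ' hne ⊢
    obtain rfl : τ' = τ := by omega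
    refine ⟨fun hm => hne ?_, ?_⟩
    · have t1 := P.tev_bounds hF.ok ω τ' (e - 1)
      have t2 := P.tev_bounds hF.ok ω τ' e
      rw [Nat.sub_add_cancel h1] at t1
      have e2 : ph P.f (seg ω (P.tev ω τ' (e - 1)) (τ' + e * P.C0 - P.tev ω τ' (e - 1))) *
          ph P.f (seg ω (τ' + e * P.C0) d) * ph P.f (seg ω (τ' + e * P.C0 + d)
            (P.tev ω τ' e - (τ' + e * P.C0 + d))) = P.aev ω τ' e := by
        rw [← ph_append, ← ph_append, Par.aev]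
        have a1 : P.tev ω τ' e - P.tev ω τ' (e - 1) = (τ' + e * P.C0 - P.tev ω τ' (e - 1)) + d +
            (P.tev ω τ' e - (τ' + e * P.C0 + d)) := by omega
        have a4 : P.tev ω τ' (e - 1) + (τ' + e * P.C0 - P.tev ω τ' (e - 1)) = τ' + e * P.C0 := by
          omega
        rw [a1, seg_add, seg_add, ← add_assoc, a4]
      have a2 : t - τ' = e * P.C0 + d + (t - (τ' + (e * P.C0 + d))) := by omega
      have a3 : t - (τ' + (e * P.C0 + d)) = (P.C0 - d) + (t - (τ' + (e * P.C0 + P.C0))) := by omega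
      rw [a2, P.run_add, hs, a3, P.run_add, P.run_add, ← add_assoc,
        P.run_sub hF.ok ω τ' e d _ _ _ (by omega), P.run_sub hF.ok ω τ' e d _ _ _ (by omega),
        e2, hm]
    · rw [birth_hs P ω τ' h1 he]
      abel

/-- If no cut of a phase is good then there are many distinct surviving candidates. -/
theorem births {u J : ℕ} {P : Par α M H (Rd u J)} {om : ℕ} {tb : Rd u J × H → Sx u J × VV M}
    {dl : ℕ → H → VV M → ℕ} {Dm : ℕ} (hF : Fit P om tb dl Dm) (ω : ℕ → α) (τ t : ℕ)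
    (v0 : VV M) (hτ : P.F ≤ τ) (ht : τ + P.F ≤ t)
    (hno : ∀ n, n ≤ P.F → P.run (Ctl.za 0 0 0 1, v0) ω τ n ∈ P.Cand dl →
      ∃ c ∈ P.Cand dl, Alive P.δ (kap α M H) c (seg ω (τ + n) (t - (τ + n))) ∧
        P.run c ω (τ + n) (t - (τ + n)) ≠ P.run (Ctl.za 0 0 0 1, v0) ω τ (t - τ)) :
    ∃ (c : ℕ → Ctl α M H × VV M) (s s' kk jj : ℕ → ℕ) (h' : ℕ → H) (m' : ℕ → M)
      (v' : ℕ → VV M),
      (∀ e, 1 ≤ e → e < P.E → τ ≤ s e ∧ s e ≤ s' e ∧ s e ≤ t ∧ s' e < τ + 2 * P.F ∧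
        Alive P.δ (kap α M H) (c e) (seg ω (s e) (t - s e)) ∧
        P.run (c e) ω (s e) (s' e - s e) = (Ctl.wt (h' e) (m' e) 0 [], v' e) ∧
        kk e < 2 * P.E ∧ jj e < 2 * Dm ∧ s' e + Dm = τ + kk e * P.C0 + jj e) ∧
      ∀ e1 e2, 1 ≤ e1 → e1 < P.E → 1 ≤ e2 → e2 < P.E →
        (2 : ℤ) ^ (u + 2) ∣ (s' e1 : ℤ) - s' e2 → h' e1 = h' e2 → e1 = e2 := by
  have : Nonempty (Ctl α M H × VV M) := ⟨kap α M H⟩
  choose! c s s' kk jj h' m' v' h0 w0 f1 g1 w1 m1 hA hB hC hD using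
    birth_one hF ω τ t v0 hτ ht hno
  refine ⟨c, s, s', kk, jj, h', m', v', hA, fun e1 e2 a1 a2 a3 a4 hdv hh => ?_⟩
  obtain ⟨-, -, -, -, -, -, -, j1, q1⟩ := hA e1 a1 a2
  obtain ⟨-, -, -, -, -, -, -, j2, q2⟩ := hA e2 a3 a4
  have hj : jj e1 = jj e2 := by
    have d1 : (2 : ℤ) ^ (u + 2) ∣ (P.C0 : ℤ) := by exact_mod_cast hF.hC0
    have e : (jj e1 : ℤ) - jj e2 = ((s' e1 : ℤ) - s' e2) - ((kk e1 : ℤ) - kk e2) * P.C0 := by
      zify at q1 q2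
      linarith
    have d2 : (2 : ℤ) ^ (u + 2) ∣ (jj e1 : ℤ) - jj e2 := e ▸ hdv.sub (d1.mul_left _)
    have d3 : (2 : ℤ) * Dm ≤ 2 ^ (u + 2) := by exact_mod_cast hF.hDm
    have := Int.eq_zero_of_abs_lt_dvd d2 (by rw [abs_lt]; constructor <;> omega)
    omega
  have c1 := hC e1 a1 a2
  have c2 := hC e2 a3 a4
  rcases hF.sidon e1 (h0 e1) (w0 e1) (f1 e1) (g1 e1) (w1 e1) e2 (h0 e2) (w0 e2) (f1 e2) (g1 e2)
    (w1 e2) a2 (hB e1 a1 a2) a4 (hB e2 a3 a4) (by omega) with r1 | r1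
  · rcases hF.sidon e2 (h0 e2) (w0 e2) (f1 e2) (g1 e2) (w1 e2) e1 (h0 e1) (w0 e1) (f1 e1) (g1 e1)
      (w1 e1) a4 (hB e2 a3 a4) a2 (hB e1 a1 a2) (by omega) with r2 | r2
    · obtain ⟨n1, p1⟩ := hD e1 a1 a2 r1
      rw [p1, (hD e2 a3 a4 r2).2] at hh
      exact hF.hlam e1 e2 _ _ _ _ a1 a2 a3 a4 n1 (add_left_cancel hh)
    · exact (congrArg Prod.fst r2).symm
  · exact congrArg Prod.fst r1

end Vale.Agent.P329
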