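import Vale.Agent.P329.Skel
import Vale.Agent.P329.Aut

namespace Vale.Agent.P329

open Classical

variable {α M H : Type} [Monoid M] [AddCommGroup H]

theorem chain_rd {u J : ℕ} {P : Par α M H (Rd u J)} {om : ℕ} {tb : Rd u J × H → Sx u J × VV M}
    {dl : ℕ → H → VV M → ℕ} {Dm : ℕ} (hF : Fit P om tb dl Dm) (s μ : ℕ) (hs : s ≤ μ) :
    P.rd ((μ - s) % P.Q) = rdZ u om J P.D2 ((μ : ℤ) - (s : ℕ)) := by
  rw [hF.hrd, hF.hQ, rdZ_mod u hF.hom J hF.ok.hD2, Nat.cast_sub hs]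

theorem chain_val {u J : ℕ} {P : Par α M H (Rd u J)} {om : ℕ} {tb : Rd u J × H → Sx u J × VV M}
    {dl : ℕ → H → VV M → ℕ} {Dm : ℕ} (hF : Fit P om tb dl Dm) (x : Sx u J) :
    val u om x + 2 * P.F + 2 ≤ P.D2 := by
  have h1 := val_lt u hF.hom x
  have h2 := hF.hD2
  rw [hF.hD1] at h2
  omega

theorem chain_cont {R : Type} (P : Par α M H R) (c q q' : Ctl α M H × VV M) (ω : ℕ → α)
    (s a b n : ℕ) (hsa : s ≤ a) (hb : b = a + n) (h1 : P.run c ω s (a - s) = q)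
    (h2 : P.run q ω a n = q') : P.run c ω s (b - s) = q' := by
  have e : b - s = (a - s) + n := by omega
  have e' : s + (a - s) = a := by omega
  rw [e, P.run_add, h1, e', h2]

/-- One step of the trajectory. -/
theorem chain_step {u J K : ℕ} {P : Par α M H (Rd u J)} {om : ℕ}
    {tb : Rd u J × H → Sx u J × VV M} {dl : ℕ → H → VV M → ℕ} {Dm : ℕ} (hF : Fit P om tb dl Dm)
    (ω : ℕ → α) {mu : Fin K → ℕ} (hmu : Enum P.cd P.D2 ω mu) (t : ℕ) (ht : ∀ i, mu i ≤ t)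
    (c : Ctl α M H × VV M) (s : ℕ) (hal : Alive P.δ (kap α M H) c (seg ω s (t - s)))
    (i : Fin K) (e : Rd u J × H) (w : VV M) (hi : (i : ℕ) + 6 < K) (hs : s ≤ mu i)
    (hrun : P.run c ω s (mu i + 5 * P.D2 - s) = (Ctl.dl (val u om (tb e).1), w + (tb e).2)) :
    ∃ (i' : Fin K) (e' : Rd u J × H) (w' : VV M), (i' : ℕ) ≤ i + 6 ∧ s ≤ mu i' ∧
      P.run c ω s (mu i' + 5 * P.D2 - s) = (Ctl.dl (val u om (tb e').1), w' + (tb e').2) ∧
      (∃ g, skf P om ω mu i (tb e).1 = some (i', e'.1, g) ∧ w' = vact g (w + (tb e).2)) ∧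
      e'.2 = P.hs ω (mu i + 5 * P.D2 + 1 + val u om (tb e).1) 1 P.E ∧ w + (tb e).2 ≠ 0 := by
  have hx := chain_val hF (tb e).1
  set x := val u om (tb e).1 with hxd
  have hg := hmu.gap hF.ok.hcd i ⟨i + 6, hi⟩ 6 le_rfl
  have hn : P.nxt (mu i) x = mu i + 5 * P.D2 + x + 1 + P.F := rfl
  obtain ⟨l, -, hl2, hl⟩ := hmu.first i ⟨i + 6, hi⟩ (P.nxt (mu i) x) (by omega) (by omega)
  have hl1 := hl.1
  have hτ : mu i + 5 * P.D2 + 1 + x + P.F = P.nxt (mu i) x := by omega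
  have r1 := chain_cont P c _ _ ω s (mu i + 5 * P.D2) (mu i + 5 * P.D2 + 1 + x) (x + 1)
    (by omega) (by omega) hrun (P.run_dl ω _ x _)
  have r2 := P.run_phase hF.ok ω (mu i + 5 * P.D2 + 1 + x) (mu l)
    ((w + (tb e).2) * bv (ph P.f (seg ω (mu i + 5 * P.D2) (x + 1)))) (by omega) hl.2.1
    (by rw [hτ]; exact hl.2.2)
  have r3 := chain_cont P c _ _ ω s (mu i + 5 * P.D2 + 1 + x) (mu l + 5 * P.D2) _
    (by omega) (by omega) r1 r2
  rw [hτ, chain_rd hF _ _ hl1, hF.hX, hF.hY] at r3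
  refine ⟨l, (rdZ u om J P.D2 ((mu l : ℤ) - (P.nxt (mu i) x : ℕ)),
    P.hs ω (mu i + 5 * P.D2 + 1 + x) 1 P.E), _, hl2, by omega, r3,
    ⟨_, skf_eq P om ω hmu i l _ hl, ?_⟩, rfl, fun h0 => ?_⟩
  · have e1 : mu l - mu i = (x + 1) + (mu l - (mu i + 5 * P.D2 + 1 + x) + 5 * P.D2) := by omega
    have e2 : mu i + 5 * P.D2 + (x + 1) = mu i + 5 * P.D2 + 1 + x := by omega
    rw [vact, e1, seg_add ω _ (x + 1), ph_append, bv_mul, e2, mul_assoc]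
  · have h1 := ht l
    have e1 : t - s = (mu i + 5 * P.D2 + 1 + x - s) + (t - (mu i + 5 * P.D2 + 1 + x)) := by omega
    refine hal _ _ (by rw [e1, seg_add]) (fun h2 => ?_) ?_
    · have h3 := congrArg List.length h2
      rw [seg_length, List.length_nil] at h3
      omega
    · rw [h0, zero_mul] at r1
      exact r1

/-- The trajectory of a surviving candidate. -/
theorem chain {u J K : ℕ} {P : Par α M H (Rd u J)} {om : ℕ} {tb : Rd u J × H → Sx u J × VV M}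
    {dl : ℕ → H → VV M → ℕ} {Dm : ℕ} (hF : Fit P om tb dl Dm) (ω : ℕ → α) {mu : Fin K → ℕ}
    (hmu : Enum P.cd P.D2 ω mu) (t : ℕ) (ht : ∀ i, mu i ≤ t) (c : Ctl α M H × VV M)
    (s s' : ℕ) (hs : s ≤ s') (hal : Alive P.δ (kap α M H) c (seg ω s (t - s)))
    (h : H) (m : M) (v : VV M) (hrun : P.run c ω s (s' - s) = (Ctl.wt h m 0 [], v))
    (i0 : Fin K) (hi0 : First P.cd P.D2 ω s' (mu i0)) (T : ℕ) (hT : (i0 : ℕ) + 6 * T < K) :
    ∃ (sl : ℕ → Fin K) (ent : ℕ → Rd u J × H) (uu : ℕ → VV M), sl 0 = i0 ∧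
      ent 0 = (rdZ u om J P.D2 ((mu i0 : ℤ) - (s' : ℕ)), h) ∧
      ∀ n, n < T →
        (∃ g, skf P om ω mu (sl n) (tb (ent n)).1 = some (sl (n + 1), (ent (n + 1)).1, g) ∧
          uu (n + 1) = vact g (uu n + (tb (ent n)).2)) ∧
        (ent (n + 1)).2 = P.hs ω (mu (sl n) + 5 * P.D2 + 1 + val u om (tb (ent n)).1) 1 P.E ∧
        uu n + (tb (ent n)).2 ≠ 0 := by
  have key : ∀ a : Fin K × (Rd u J × H) × VV M, ∃ b : Fin K × (Rd u J × H) × VV M,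
      (a.1 : ℕ) + 6 < K → s ≤ mu a.1 → P.run c ω s (mu a.1 + 5 * P.D2 - s) =
        (Ctl.dl (val u om (tb a.2.1).1), a.2.2 + (tb a.2.1).2) →
      (b.1 : ℕ) ≤ a.1 + 6 ∧ s ≤ mu b.1 ∧ P.run c ω s (mu b.1 + 5 * P.D2 - s) =
        (Ctl.dl (val u om (tb b.2.1).1), b.2.2 + (tb b.2.1).2) ∧
      (∃ g, skf P om ω mu a.1 (tb a.2.1).1 = some (b.1, b.2.1.1, g) ∧
        b.2.2 = vact g (a.2.2 + (tb a.2.1).2)) ∧
      b.2.1.2 = P.hs ω (mu a.1 + 5 * P.D2 + 1 + val u om (tb a.2.1).1) 1 P.E ∧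
      a.2.2 + (tb a.2.1).2 ≠ 0 := fun a => by
    by_cases hc : (a.1 : ℕ) + 6 < K ∧ s ≤ mu a.1 ∧ P.run c ω s (mu a.1 + 5 * P.D2 - s) =
        (Ctl.dl (val u om (tb a.2.1).1), a.2.2 + (tb a.2.1).2)
    · obtain ⟨i', e', w', h1⟩ := chain_step hF ω hmu t ht c s hal a.1 a.2.1 a.2.2 hc.1 hc.2.1 hc.2.2
      exact ⟨(i', e', w'), fun _ _ _ => h1⟩
    · exact ⟨a, fun h1 h2 h3 => absurd ⟨h1, h2, h3⟩ hc⟩
  choose nx hnx using key
  have h0 := hi0.1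
  have r1 := chain_cont P c _ _ ω s s' (mu i0 + 5 * P.D2) _ hs (by omega) hrun
    (P.run_wt hF.ok ω s' (mu i0) h m v h0 hi0.2.1 hi0.2.2)
  rw [chain_rd hF _ _ h0, hF.hX, hF.hY] at r1
  let a0 : Fin K × (Rd u J × H) × VV M := (i0, (rdZ u om J P.D2 ((mu i0 : ℤ) - (s' : ℕ)), h),
    v * bv (m * ph P.f (seg ω s' (mu i0 - s' + 5 * P.D2))))
  let sq : ℕ → Fin K × (Rd u J × H) × VV M := fun n => nx^[n] a0
  have hsq : ∀ n, sq (n + 1) = nx (sq n) := fun n => Function.iterate_succ_apply' nx n a0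
  have inv : ∀ n, n ≤ T → ((sq n).1 : ℕ) ≤ i0 + 6 * n ∧ s ≤ mu (sq n).1 ∧
      P.run c ω s (mu (sq n).1 + 5 * P.D2 - s) =
        (Ctl.dl (val u om (tb (sq n).2.1).1), (sq n).2.2 + (tb (sq n).2.1).2) := by
    intro n
    induction n with
    | zero => exact fun _ => ⟨le_rfl, hs.trans h0, r1⟩
    | succ n ih =>
      intro hn
      obtain ⟨h1, h2, h3⟩ := ih (by omega)
      obtain ⟨h4, h5, h6, -⟩ := hnx (sq n) (by omega) h2 h3
      rw [hsq]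
      exact ⟨by omega, h5, h6⟩
  refine ⟨fun n => (sq n).1, fun n => (sq n).2.1, fun n => (sq n).2.2, rfl, rfl, fun n hn => ?_⟩
  obtain ⟨h1, h2, h3⟩ := inv n hn.le
  obtain ⟨-, -, -, h7⟩ := hnx (sq n) (by omega) h2 h3
  simp only [hsq]
  exact h7

/-- The true run visits between any two marks which are seven steps apart. -/
theorem visits {u J K : ℕ} {P : Par α M H (Rd u J)} {om : ℕ} {tb : Rd u J × H → Sx u J × VV M}
    {dl : ℕ → H → VV M → ℕ} {Dm : ℕ} (hF : Fit P om tb dl Dm) (ω : ℕ → α) {mu : Fin K → ℕ}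
    (hmu : Enum P.cd P.D2 ω mu) (v0 : VV M) (i j : Fin K) (hij : (i : ℕ) + 7 ≤ j) :
    ∃ τ v, mu i ≤ τ ∧ τ ≤ mu j ∧ P.run (Ctl.za 0 0 0 1, v0) ω 0 τ = (Ctl.za 0 0 0 1, v) := by
  have hK : (i : ℕ) + 1 < K := by have := j.2; omega
  have g1 := hmu.gap hF.ok.hcd i ⟨i + 1, hK⟩ 1 le_rfl
  have g2 := hmu.gap hF.ok.hcd ⟨i + 1, hK⟩ j 6 (by simp only; omega)
  have key : ∀ k τ v, mu i - τ ≤ k → τ ≤ mu j →
      P.run (Ctl.za 0 0 0 1, v0) ω 0 τ = (Ctl.za 0 0 0 1, v) →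
      ∃ τ v, mu i ≤ τ ∧ τ ≤ mu j ∧ P.run (Ctl.za 0 0 0 1, v0) ω 0 τ = (Ctl.za 0 0 0 1, v) := by
    intro k
    induction k with
    | zero => exact fun τ v h1 h2 h3 => ⟨τ, v, by omega, h2, h3⟩
    | succ k ih =>
      intro τ v h1 h2 h3
      by_cases h4 : mu i ≤ τ
      · exact ⟨τ, v, h4, h2, h3⟩
      have hD := hF.hD2
      have hex : ∃ μ, τ + P.F ≤ μ ∧ MkAt P.cd P.D2 ω μ := ⟨mu ⟨i + 1, hK⟩, by omega, hmu.mark _⟩
      have f1 := Nat.find_spec hex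
      have f2 : Nat.find hex ≤ mu ⟨i + 1, hK⟩ := Nat.find_min' hex ⟨by omega, hmu.mark _⟩
      have r2 := P.run_phase hF.ok ω τ (Nat.find hex) v f1.1 f1.2
        fun t h5 h6 h7 => Nat.find_min hex h6 ⟨h5, h7⟩
      rw [hF.hX] at r2
      generalize Nat.find hex = μ at f1 f2 r2
      have f3 := f1.1
      have r3 := chain_cont P (Ctl.za 0 0 0 1, v0) _ _ ω 0 τ (μ + 5 * P.D2) _ (Nat.zero_le _)
        (by omega) h3 r2
      have hx := chain_val hF (tb (P.rd ((μ - (τ + P.F)) % P.Q), P.hs ω τ 1 P.E)).1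
      have r4 := chain_cont P (Ctl.za 0 0 0 1, v0) _ _ ω 0 (μ + 5 * P.D2) _ _ (Nat.zero_le _)
        rfl r3 (P.run_dl ω _ _ _)
      exact ih _ _ (by omega) (by omega) r4
  exact key _ 0 v0 le_rfl (Nat.zero_le _) (by simp [Par.run, seg_zero])

end Vale.Agent.P329
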