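import Vale.Agent.P329.ProbD

namespace Vale.Agent.P329

open Classical

variable {S V G R H Dl : Type} [AddCommGroup V] {act : G → V → V} {K M E' T : ℕ}
  {SkF : Finset (S → Option (Fin K × R × G))} {EnF : Finset (S → Option H)}
  {RtF : Finset (Dl → R)} {tb : R × H → S × V}

/-- Trajectories with the same entries which meet are equal. -/
theorem Sys.twin_eq (Y : Sys act K M E' T SkF EnF RtF tb) (k k' : Fin M) (a a' : Fin E')
    (t : ℕ) (ht : t ≤ T) (he : ∀ s, s ≤ t → Y.ent k a s = Y.ent k' a' s)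
    (hs : Y.sl k a t = Y.sl k' a' t) : k = k' ∧ a = a' := by
  induction t with
  | zero =>
    rw [Y.sl0, Y.sl0] at hs
    have hk := Y.rs_inj hs
    subst hk
    exact ⟨rfl, Y.ent0_inj _ _ _ (he 0 le_rfl)⟩
  | succ t ih =>
    obtain ⟨g, h1, -⟩ := Y.step k a t ht
    obtain ⟨g', h2, -⟩ := Y.step k' a' t ht
    rw [← he t (Nat.le_succ t), ← he (t + 1) le_rfl, ← hs] at h2
    exact ih (Nat.le_of_succ_le ht) (fun s hs => he s (Nat.le_succ_of_le hs))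
      (Y.cross _ _ _ _ _ _ _ h1 h2)

/-- Equal entries on trajectories without earlier bad entries have equal histories. -/
theorem Sys.clean_eq (Y : Sys act K M E' T SkF EnF RtF tb) (dic : Fin K → Option (S → Option H))
    (Q Bd : Finset (R × H)) (hG : (Y.dat dic).Gd tb Q Bd) (L : ℕ) (hL : L ≤ T)
    (hQ : ∀ k a t, t ≤ L → Y.ent k a t ∈ Q) (k k' : Fin M) (a a' : Fin E') (t t' : ℕ)
    (ht : t ≤ L) (ht' : t' ≤ L) (hc : ∀ s, s < t → Y.ent k a s ∉ Bd)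
    (hc' : ∀ s, s < t' → Y.ent k' a' s ∉ Bd) (he : Y.ent k a t = Y.ent k' a' t') :
    t = t' ∧ ∀ s, s ≤ t → Y.ent k a s = Y.ent k' a' s := by
  have hroot : ∀ (k k' : Fin M) (a a' : Fin E') (t : ℕ), t + 1 ≤ L → Y.ent k a t ∉ Bd →
      Y.ent k a (t + 1) ≠ Y.ent k' a' 0 := by
    intro k k' a a' t ht hb he
    obtain ⟨g, h1, -⟩ := Y.step k a t (le_trans ht hL)
    obtain ⟨δ, hδ⟩ := Y.ent0 k' a'
    refine hG.root _ (hQ k a t (Nat.le_of_succ_le ht)) hb _ _ _ _ h1 ⟨k', δ, ?_⟩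
    rw [he]
    exact hδ.symm
  induction t generalizing t' with
  | zero =>
    cases t' with
    | zero => exact ⟨rfl, fun s hs => by rw [Nat.le_zero.1 hs]; exact he⟩
    | succ t' => exact absurd he.symm (hroot k' k a' a t' ht' (hc' t' (Nat.lt_succ_self _)))
  | succ t ih =>
    cases t' with
    | zero => exact absurd he (hroot k k' a a' t ht (hc t (Nat.lt_succ_self _)))
    | succ t' =>
      obtain ⟨g, h1, -⟩ := Y.step k a t (le_trans ht hL)
      obtain ⟨g', h2, -⟩ := Y.step k' a' t' (le_trans ht' hL)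
      rw [← he] at h2
      have h3 := hG.uniq _ (hQ k a t (Nat.le_of_succ_le ht)) _ (hQ k' a' t' (Nat.le_of_succ_le ht'))
        (hc t (Nat.lt_succ_self _)) (hc' t' (Nat.lt_succ_self _)) _ _ _ _ _ _ _ h1 h2
      obtain ⟨h4, h5⟩ := ih t' (Nat.le_of_succ_le ht) (Nat.le_of_succ_le ht')
        (fun s hs => hc s (Nat.lt_succ_of_lt hs)) (fun s hs => hc' s (Nat.lt_succ_of_lt hs)) h3
      subst h4
      refine ⟨rfl, fun s hs => ?_⟩
      rcases Nat.le_succ_iff.1 hs with h | h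
      · exact h5 s h
      · rw [h]; exact he

theorem Sys.cls_unclean (Y : Sys act K M E' T SkF EnF RtF tb)
    (dic : Fin K → Option (S → Option H)) (Q Bd : Finset (R × H)) (hG : (Y.dat dic).Gd tb Q Bd)
    (L : ℕ) (hL : L ≤ T) (hQ : ∀ k a t, t ≤ L → Y.ent k a t ∈ Q) (C : Finset (Fin M × Fin E'))
    (hC : ∀ w, w ∈ C ↔ ∀ s, s ≤ L → Y.ent w.1 w.2 s ∉ Bd) : Cᶜ.card ≤ K * Bd.card := by
  have hτ : ∀ w : Fin M × Fin E', ∃ t, w ∈ Cᶜ → t ≤ L ∧ Y.ent w.1 w.2 t ∈ Bd ∧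
      ∀ s, s < t → Y.ent w.1 w.2 s ∉ Bd := by
    intro w
    by_cases hw : w ∈ C
    · exact ⟨0, fun h => absurd hw (Finset.mem_compl.1 h)⟩
    · have hex : ∃ s, s ≤ L ∧ Y.ent w.1 w.2 s ∈ Bd := by
        by_contra hn
        exact hw ((hC w).2 fun s hs hb => hn ⟨s, hs, hb⟩)
      refine ⟨Nat.find hex, fun _ => ⟨(Nat.find_spec hex).1, (Nat.find_spec hex).2,
        fun s hs hb => Nat.find_min hex hs ⟨hs.le.trans (Nat.find_spec hex).1, hb⟩⟩⟩
  choose τ hτ using hτ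
  have h := Finset.card_le_card_of_injOn (s := Cᶜ) (t := (Finset.univ : Finset (Fin K)) ×ˢ Bd)
    (fun w => (Y.sl w.1 w.2 (τ w), Y.ent w.1 w.2 (τ w)))
    (fun w hw => Finset.mem_coe.2 (Finset.mem_product.2 ⟨Finset.mem_univ _, (hτ w hw).2.1⟩))
    (fun w hw w' hw' h => by
      obtain ⟨a1, -, a3⟩ := hτ w hw
      obtain ⟨b1, -, b3⟩ := hτ w' hw'
      obtain ⟨c1, c2⟩ := Prod.ext_iff.1 h
      obtain ⟨d1, d2⟩ := Y.clean_eq dic Q Bd hG L hL hQ _ _ _ _ _ _ a1 b1 a3 b3 c2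
      simp only at c1
      rw [← d1] at c1
      obtain ⟨e1, e2⟩ := Y.twin_eq _ _ _ _ _ (a1.trans hL) d2 c1
      exact Prod.ext e1 e2)
  rwa [Finset.card_product, Finset.card_univ, Fintype.card_fin] at h

theorem Sys.cls_count (Y : Sys act K M E' T SkF EnF RtF tb)
    (dic : Fin K → Option (S → Option H)) (Q Bd : Finset (R × H)) (hG : (Y.dat dic).Gd tb Q Bd)
    (L' ρ0 : ℕ) (hT : 2 * L' ≤ T) (hQ : ∀ k a t, t ≤ 2 * L' → Y.ent k a t ∈ Q)
    (hcard : Q.card ≤ ρ0 * (2 * L')) (C : Finset (Fin M × Fin E'))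
    (hC : ∀ w, w ∈ C ↔ ∀ s, s ≤ 2 * L' → Y.ent w.1 w.2 s ∉ Bd) :
    (C.image fun w => Y.ent w.1 w.2 L').card ≤ 2 * ρ0 := by
  have hφ : ∀ c : R × H, ∃ φ : ℕ → R × H, c ∈ (C.image fun w => Y.ent w.1 w.2 L') →
      ∃ w ∈ C, Y.ent w.1 w.2 L' = c ∧ φ = Y.ent w.1 w.2 := by
    intro c
    by_cases hc : c ∈ (C.image fun w => Y.ent w.1 w.2 L')
    · obtain ⟨w, hw, h⟩ := Finset.mem_image.1 hc
      exact ⟨_, fun _ => ⟨w, hw, h, rfl⟩⟩
    · exact ⟨fun _ => c, fun h => absurd h hc⟩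
  choose φ hφ using hφ
  have h := Finset.card_le_card_of_injOn
    (s := (C.image fun w => Y.ent w.1 w.2 L') ×ˢ Finset.Icc L' (2 * L')) (t := Q)
    (fun p => φ p.1 p.2)
    (fun p hp => by
      obtain ⟨a1, a2⟩ := Finset.mem_product.1 (Finset.mem_coe.1 hp)
      obtain ⟨w, -, -, h⟩ := hφ _ a1
      simp only [h]
      exact hQ _ _ _ (Finset.mem_Icc.1 a2).2)
    (fun p hp p' hp' h => by
      obtain ⟨a1, a2⟩ := Finset.mem_product.1 (Finset.mem_coe.1 hp)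
      obtain ⟨b1, b2⟩ := Finset.mem_product.1 (Finset.mem_coe.1 hp')
      obtain ⟨w, a3, a4, a5⟩ := hφ _ a1
      obtain ⟨w', b3, b4, b5⟩ := hφ _ b1
      obtain ⟨a6, a7⟩ := Finset.mem_Icc.1 a2
      obtain ⟨b6, b7⟩ := Finset.mem_Icc.1 b2
      simp only [a5, b5] at h
      obtain ⟨d1, d2⟩ := Y.clean_eq dic Q Bd hG (2 * L') hT hQ _ _ _ _ _ _ a7 b7
        (fun s hs => (hC _).1 a3 s (hs.le.trans a7)) (fun s hs => (hC _).1 b3 s (hs.le.trans b7)) h
      exact Prod.ext (by rw [← a4, ← b4]; exact d2 _ a6) d1)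
  rw [Finset.card_product, Nat.card_Icc, show 2 * L' + 1 - L' = L' + 1 by omega] at h
  by_contra hn
  have h1 : (2 * ρ0 + 1) * (L' + 1) ≤ (C.image fun w => Y.ent w.1 w.2 L').card * (L' + 1) :=
    Nat.mul_le_mul_right _ (not_le.1 hn)
  have h2 : (2 * ρ0 + 1) * (L' + 1) = ρ0 * (2 * L') + (2 * ρ0 + L' + 1) := by ring
  omega

/-- A generation with many trajectories having many twins. -/
theorem Sys.classes (Y : Sys act K M E' T SkF EnF RtF tb) (dic : Fin K → Option (S → Option H))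
    (Q Bd : Finset (R × H)) (hG : (Y.dat dic).Gd tb Q Bd) (L' ρ0 β0 s1 E'' : ℕ)
    (hT : 2 * L' ≤ T) (hQ : ∀ k a t, t ≤ 2 * L' → Y.ent k a t ∈ Q)
    (hcard : Q.card ≤ ρ0 * (2 * L')) (hB : Bd.card ≤ β0) (hM : 1 ≤ M)
    (h1 : 4 * K * β0 ≤ E' * M) (h2 : 8 * ρ0 * s1 ≤ E' * M) (h3 : 2 * E'' ≤ E') :
    ∃ (k : Fin M) (ι : Fin E'' → Fin E') (mem : Fin E'' → Fin s1 → Fin M × Fin E'),
      Function.Injective ι ∧
      (∀ a j t, t ≤ L' → Y.ent (mem a j).1 (mem a j).2 t = Y.ent k (ι a) t) ∧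
      ∀ a t, t ≤ L' → Function.Injective fun j => Y.sl (mem a j).1 (mem a j).2 t := by
  obtain ⟨C, hC⟩ : ∃ C : Finset (Fin M × Fin E'),
      ∀ w, w ∈ C ↔ ∀ s, s ≤ 2 * L' → Y.ent w.1 w.2 s ∉ Bd :=
    ⟨Finset.univ.filter fun w => ∀ s, s ≤ 2 * L' → Y.ent w.1 w.2 s ∉ Bd, fun w => by simp⟩
  have hU := Y.cls_unclean dic Q Bd hG (2 * L') hT hQ C hC
  have hI := Y.cls_count dic Q Bd hG L' ρ0 hT hQ hcard C hC
  obtain ⟨Gd, hGd⟩ : ∃ Gd : Finset (Fin M × Fin E'), ∀ w, w ∈ Gd ↔ w ∈ C ∧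
      s1 ≤ (C.filter fun w' => Y.ent w'.1 w'.2 L' = Y.ent w.1 w.2 L').card :=
    ⟨C.filter fun w => s1 ≤ (C.filter fun w' => Y.ent w'.1 w'.2 L' = Y.ent w.1 w.2 L').card,
      fun w => Finset.mem_filter⟩
  have hS : (C \ Gd).card ≤ s1 * (C.image fun w => Y.ent w.1 w.2 L').card := by
    refine Finset.card_le_mul_card_image_of_maps_to
      (f := fun w : Fin M × Fin E' => Y.ent w.1 w.2 L')
      (fun w hw => Finset.mem_image_of_mem _ (Finset.mem_sdiff.1 hw).1) s1 fun c _ => ?_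
    rcases ((C \ Gd).filter fun w => Y.ent w.1 w.2 L' = c).eq_empty_or_nonempty with h | ⟨w, hw⟩
    · rw [h]; exact Nat.zero_le _
    · obtain ⟨h4, h5⟩ := Finset.mem_filter.1 hw
      obtain ⟨h6, h7⟩ := Finset.mem_sdiff.1 h4
      have h8 : (C.filter fun w' => Y.ent w'.1 w'.2 L' = Y.ent w.1 w.2 L').card < s1 :=
        not_le.1 fun h => h7 ((hGd w).2 ⟨h6, h⟩)
      rw [h5] at h8
      exact (Finset.card_le_card (Finset.filter_subset_filter _ Finset.sdiff_subset)).trans h8.le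
  have hsum : M * E' ≤ Cᶜ.card + (C \ Gd).card + Gd.card := by
    have a1 := Finset.card_add_card_compl C
    have a2 := Finset.card_le_card_sdiff_add_card (s := C) (t := Gd)
    rw [Fintype.card_prod, Fintype.card_fin, Fintype.card_fin] at a1
    omega
  have hG2 : E' * M ≤ 2 * Gd.card := by
    have a1 : K * Bd.card ≤ K * β0 := Nat.mul_le_mul_left _ hB
    have a2 : s1 * (C.image fun w => Y.ent w.1 w.2 L').card ≤ s1 * (2 * ρ0) :=
      Nat.mul_le_mul_left _ hI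
    have a3 : 4 * K * β0 = 4 * (K * β0) := by ring
    have a4 : 8 * ρ0 * s1 = 4 * (s1 * (2 * ρ0)) := by ring
    rw [mul_comm M] at hsum
    omega
  obtain ⟨k, hk⟩ : ∃ k, E'' ≤ (Gd.filter fun w => w.1 = k).card := by
    by_contra hn
    have hlt : ∀ k, (Gd.filter fun w => w.1 = k).card < E'' := fun k =>
      not_le.1 fun h => hn ⟨k, h⟩
    have a0 := hlt ⟨0, hM⟩
    have a1 := Finset.card_le_mul_card_image_of_maps_to (s := Gd) (t := Finset.univ)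
      (f := fun w => w.1) (fun _ _ => Finset.mem_univ _) (E'' - 1)
      (fun k _ => Nat.le_sub_one_of_lt (hlt k))
    rw [Finset.card_univ, Fintype.card_fin] at a1
    have a2 : 2 * E'' * M ≤ E' * M := Nat.mul_le_mul_right _ h3
    obtain ⟨n, rfl⟩ : ∃ n, E'' = n + 1 := ⟨E'' - 1, by omega⟩
    rw [Nat.add_sub_cancel] at a1
    have a3 : 2 * (n + 1) * M = 2 * (n * M) + 2 * M := by ring
    omega
  obtain ⟨f, hf⟩ := Function.Embedding.exists_of_card_le_finset (α := Fin E'')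
    (s := Gd.filter fun w => w.1 = k) (by rw [Fintype.card_fin]; exact hk)
  have hf' : ∀ a, f a ∈ Gd ∧ (f a).1 = k := fun a => Finset.mem_filter.1 (hf ⟨a, rfl⟩)
  have hm : ∀ a, ∃ m : Fin s1 ↪ Fin M × Fin E', ∀ j, m j ∈ C ∧
      Y.ent (m j).1 (m j).2 L' = Y.ent (f a).1 (f a).2 L' := by
    intro a
    obtain ⟨m, hm⟩ := Function.Embedding.exists_of_card_le_finset (α := Fin s1)
      (s := C.filter fun w' => Y.ent w'.1 w'.2 L' = Y.ent (f a).1 (f a).2 L')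
      (by rw [Fintype.card_fin]; exact ((hGd _).1 (hf' a).1).2)
    exact ⟨m, fun j => Finset.mem_filter.1 (hm ⟨j, rfl⟩)⟩
  choose m hm using hm
  have hL : L' ≤ 2 * L' := by omega
  have he : ∀ a j t, t ≤ L' → Y.ent (m a j).1 (m a j).2 t = Y.ent k (f a).2 t := by
    intro a j t ht
    rw [← (hf' a).2]
    exact (Y.clean_eq dic Q Bd hG (2 * L') hT hQ _ _ _ _ L' L' hL hL
      (fun s hs => (hC _).1 (hm a j).1 s (by omega))
      (fun s hs => (hC _).1 ((hGd _).1 (hf' a).1).1 s (by omega)) (hm a j).2).2 t ht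
  refine ⟨k, fun a => (f a).2, fun a j => m a j, fun a a' h => ?_, he, fun a t ht j j' h => ?_⟩
  · exact f.injective (Prod.ext ((hf' a).2.trans (hf' a').2.symm) h)
  · obtain ⟨b1, b2⟩ := Y.twin_eq _ _ _ _ t (by omega)
      (fun s hs => (he a j s (hs.trans ht)).trans (he a j' s (hs.trans ht)).symm) h
    exact (m a).injective (Prod.ext b1 b2)

end Vale.Agent.P329
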