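import Vale.Agent.P329.Mark

namespace Vale.Agent.P329

open Classical

variable {α : Type}

theorem cnt_mk_append (cd : List α → ℕ) (D : ℕ) (u v : List α) (h : 5 * D ≤ u.length) :
    Mk cd D (u ++ v) ↔ Mk cd D u := by
  rw [mk_take cd D (u ++ v), mk_take cd D u, List.take_append_of_le_length h]

theorem cnt_nil (cd : List α → ℕ) (D : ℕ) : cnt cd D [] = 0 := by
  simp [cnt]

theorem cnt_snoc (cd : List α → ℕ) {D : ℕ} (hD : 1 ≤ D) (u : List α) (a : α) :
    cnt cd D (u ++ [a]) ≤ cnt cd D u + 1 := by
  unfold cnt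
  refine le_trans (Finset.card_le_card (t := insert (u.length + 1 - 5 * D)
    ((Finset.range u.length).filter fun t => Mk cd D (u.drop t))) ?_) (Finset.card_insert_le _ _)
  intro t ht
  rw [Finset.mem_filter, Finset.mem_range] at ht
  obtain ⟨h1, h2⟩ := ht
  have h3 := h2.1
  rw [List.length_drop, List.length_append, List.length_singleton] at h3
  rw [Finset.mem_insert, Finset.mem_filter, Finset.mem_range]
  by_cases h4 : t = u.length + 1 - 5 * D
  · exact Or.inl h4
  · right
    have h5 : t < u.length := by omega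
    refine ⟨h5, ?_⟩
    rw [List.drop_append_of_le_length h5.le] at h2
    exact (cnt_mk_append cd D _ _ (by rw [List.length_drop]; omega)).1 h2

theorem cnt_append (cd : List α → ℕ) (D : ℕ) (u v : List α) :
    cnt cd D (u ++ v) ≤ cnt cd D u + cnt cd D v + 5 * D := by
  unfold cnt
  refine le_trans (Finset.card_le_card (t :=
    (((Finset.range u.length).filter fun t => Mk cd D (u.drop t)) ∪
      ((Finset.range v.length).filter fun t => Mk cd D (v.drop t)).image (u.length + ·)) ∪
        Finset.Ico (u.length - 5 * D) u.length) ?_) ?_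
  · intro t ht
    rw [Finset.mem_filter, Finset.mem_range] at ht
    obtain ⟨h1, h2⟩ := ht
    rw [List.length_append] at h1
    rw [Finset.mem_union, Finset.mem_union, Finset.mem_filter, Finset.mem_range, Finset.mem_Ico,
      Finset.mem_image]
    by_cases h3 : u.length ≤ t
    · left; right
      obtain ⟨m, rfl⟩ := Nat.exists_eq_add_of_le h3
      refine ⟨m, ?_, rfl⟩
      rw [Finset.mem_filter, Finset.mem_range]
      refine ⟨by omega, ?_⟩
      rwa [List.drop_length_add_append] at h2
    · by_cases h4 : u.length - 5 * D ≤ t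
      · exact Or.inr ⟨h4, by omega⟩
      · left; left
        refine ⟨by omega, ?_⟩
        rw [List.drop_append_of_le_length (by omega)] at h2
        exact (cnt_mk_append cd D _ _ (by rw [List.length_drop]; omega)).1 h2
  · refine le_trans (Finset.card_union_le _ _) (add_le_add (le_trans (Finset.card_union_le _ _)
      (add_le_add le_rfl Finset.card_image_le)) ?_)
    rw [Nat.card_Ico]
    omega

theorem cnt_right (cd : List α → ℕ) (D : ℕ) (u v : List α) :
    cnt cd D v ≤ cnt cd D (u ++ v) := by
  unfold cnt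
  refine Finset.card_le_card_of_injOn (u.length + ·) ?_ ?_
  · intro t ht
    rw [Finset.mem_coe, Finset.mem_filter, Finset.mem_range] at ht ⊢
    refine ⟨by rw [List.length_append]; exact Nat.add_lt_add_left ht.1 _, ?_⟩
    rw [List.drop_length_add_append]
    exact ht.2
  · intro a _ b _ h
    exact Nat.add_left_cancel h

theorem cnt_left (cd : List α → ℕ) (D : ℕ) (u v : List α) :
    cnt cd D u ≤ cnt cd D (u ++ v) := by
  unfold cnt
  refine Finset.card_le_card ?_
  intro t ht
  rw [Finset.mem_filter, Finset.mem_range] at ht ⊢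
  refine ⟨by rw [List.length_append]; omega, ?_⟩
  rw [List.drop_append_of_le_length ht.1.le]
  exact (cnt_mk_append cd D _ _ ht.2.1).2 ht.2

theorem cnt_seg_pow (ω : ℕ → α) (S d T : ℕ)
    (h : ∀ i, S ≤ i → i + d ≤ T → ω i = ω (i + d)) (k : ℕ) (hk : S + k * d ≤ T) :
    seg ω S (k * d) = (List.replicate k (seg ω S d)).flatten := by
  induction k with
  | zero => simp [seg_zero]
  | succ k ih =>
    have e : (k + 1) * d = d + k * d := by ring
    rw [e] at hk
    rw [e, seg_add, List.replicate_succ, List.flatten_cons, ← ih (by omega)]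
    congr 1
    apply List.ext_getElem?
    intro i
    rw [seg_getElem?, seg_getElem?]
    split_ifs with hi
    · rw [h (S + i) (by omega) (by omega), show S + i + d = S + d + i by omega]
    · rfl

theorem cnt_simple_zero [Fintype α] {cd : List α → ℕ} (hcd : Function.Injective cd) {D : ℕ}
    (hD : 1 ≤ D) (u : List α) (hu : ∀ t, t < u.length → ¬ Mk cd D (u.drop t)) :
    Simple D (2 * Sg (Fintype.card α) D + 6 * D + 1) u := by
  by_cases hL : u.length ≤ 2 * Sg (Fintype.card α) D + 5 * D
  · exact (Simple.of_length hD u).mono (by omega)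
  have hne : u ≠ [] := by
    rintro rfl
    exact hL (Nat.zero_le _)
  obtain ⟨ω, hω⟩ := exists_seg (u.head hne) u
  generalize hS : Sg (Fintype.card α) D = S at *
  generalize hLL : u.length = L at *
  subst hω
  obtain ⟨d, hd1, hd2, hper, -⟩ := per_of_noMk hcd hD ω 0 (L - 5 * D) (fun μ _ hμ hm => by
    refine hu μ (by omega) ?_
    rw [seg_drop, zero_add, mk_seg]
    exact ⟨by omega, hm⟩)
  rw [hS] at hper
  have hdm := Nat.div_add_mod (L - 5 * D - 2 * S) d
  have hlt := Nat.mod_lt (L - 5 * D - 2 * S) (show 0 < d by omega)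
  generalize (L - 5 * D - 2 * S) / d = k at hdm
  generalize (L - 5 * D - 2 * S) % d = r at hdm hlt
  rw [mul_comm] at hdm
  have e : L = S + (k * d + (S + 5 * D + r)) := by omega
  have hp := cnt_seg_pow ω S d (L - 5 * D - S)
    (fun i h1 h2 => hper i (by omega) (by omega)) k (by omega)
  rw [e, seg_add, seg_add, zero_add, hp]
  have h1 := Simple.of_length hD (seg ω 0 S)
  have h2 := Simple.pow (D := D) (y := seg ω S d) (by rw [seg_length]; exact hd2) k
  have h3 := Simple.of_length hD (seg ω (S + k * d) (S + 5 * D + r))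
  rw [seg_length] at h1 h3
  exact (h1.append (h2.append h3)).mono (by omega)

theorem cnt_drop_lt (cd : List α → ℕ) (D : ℕ) (u : List α) (t : ℕ) (ht : t < u.length)
    (hm : Mk cd D (u.drop t)) : cnt cd D (u.drop (t + 1)) + 1 ≤ cnt cd D u := by
  unfold cnt
  have hinj : Function.Injective fun x : ℕ => t + 1 + x := fun a b h => Nat.add_left_cancel h
  rw [← Finset.card_image_of_injective _ hinj, ← Finset.card_insert_of_notMem (a := t)]
  · refine Finset.card_le_card ?_
    intro x hx
    rw [Finset.mem_insert, Finset.mem_image] at hx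
    rw [Finset.mem_filter, Finset.mem_range]
    rcases hx with rfl | ⟨y, hy, rfl⟩
    · exact ⟨ht, hm⟩
    · rw [Finset.mem_filter, Finset.mem_range, List.length_drop, List.drop_drop] at hy
      exact ⟨by omega, hy.2⟩
  · rw [Finset.mem_image]
    rintro ⟨y, -, hy⟩
    omega

theorem simple_of_cnt [Fintype α] {cd : List α → ℕ} (hcd : Function.Injective cd) {D : ℕ}
    (hD : 1 ≤ D) (n : ℕ) : ∃ N, ∀ u : List α, cnt cd D u ≤ n → Simple D N u := by
  induction n with
  | zero =>
    refine ⟨_, fun u hu => cnt_simple_zero hcd hD u fun t ht hm => ?_⟩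
    have := cnt_drop_lt cd D u t ht hm
    omega
  | succ n ih =>
    obtain ⟨N, hN⟩ := ih
    refine ⟨2 * Sg (Fintype.card α) D + 6 * D + 1 + N, fun u hu => ?_⟩
    by_cases hex : ∃ t, t < u.length ∧ Mk cd D (u.drop t)
    · have ht := Nat.find_spec hex
      have hmin := fun s => Nat.find_min hex (m := s)
      generalize Nat.find hex = t at ht hmin
      have h2 := cnt_drop_lt cd D u t ht.1 ht.2
      have h3 := hN (u.drop (t + 1)) (by omega)
      have h4 := cnt_simple_zero hcd hD (u.take (t + 1)) fun s hs hm => by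
        have h5 := hm.1
        rw [List.length_drop, List.length_take] at h5
        rw [List.length_take] at hs
        refine hmin s (by omega) ⟨by omega, ?_⟩
        rw [← List.take_append_drop (t + 1) u,
          List.drop_append_of_le_length (by rw [List.length_take]; omega)]
        exact (cnt_mk_append cd D _ _ hm.1).2 hm
      have h5 := h4.append h3
      rwa [List.take_append_drop] at h5
    · exact (cnt_simple_zero hcd hD u fun t ht hm => hex ⟨t, ht, hm⟩).mono (by omega)

/-- The first `K` marks of a factor with at least `K` marks, in increasing order. -/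
theorem marks_enum (cd : List α → ℕ) {D : ℕ} (hD : 1 ≤ D) (ω : ℕ → α) (s n K : ℕ)
    (h : K ≤ cnt cd D (seg ω s n)) :
    ∃ mu : Fin K → ℕ, StrictMono mu ∧ (∀ i, MkAt cd D ω (mu i)) ∧ (∀ i, s ≤ mu i) ∧
      (∀ i, mu i + 5 * D ≤ s + n) ∧
      ∀ t, MkAt cd D ω t → s ≤ t → ∀ j, t ≤ mu j → ∃ i, mu i = t := by
  unfold cnt at h
  have hS : ∀ x, x ∈ ((Finset.range (seg ω s n).length).filter
      fun t => Mk cd D ((seg ω s n).drop t)) ↔ x + 5 * D ≤ n ∧ MkAt cd D ω (s + x) := by
    intro x
    rw [Finset.mem_filter, Finset.mem_range, seg_length, seg_drop, mk_seg]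
    constructor
    · rintro ⟨h1, h2, h3⟩
      exact ⟨by omega, h3⟩
    · rintro ⟨h1, h2⟩
      exact ⟨by omega, by omega, h2⟩
  generalize ((Finset.range (seg ω s n).length).filter
      fun t => Mk cd D ((seg ω s n).drop t)) = S at h hS
  have hmem : ∀ j, S.orderEmbOfFin rfl j ∈ S := fun j => S.orderEmbOfFin_mem rfl j
  refine ⟨fun i => s + S.orderEmbOfFin rfl (Fin.castLE h i), ?_, ?_, ?_, ?_, ?_⟩
  · intro a b hab
    exact Nat.add_lt_add_left ((S.orderEmbOfFin rfl).strictMono
      ((Fin.strictMono_castLE h) hab)) s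
  · exact fun i => ((hS _).1 (hmem _)).2
  · exact fun i => Nat.le_add_right _ _
  · intro i
    have := ((hS _).1 (hmem (Fin.castLE h i))).1
    show s + _ + 5 * D ≤ s + n
    omega
  · intro t ht hst j hj
    obtain ⟨x, rfl⟩ := Nat.exists_eq_add_of_le hst
    have h1 := ((hS _).1 (hmem (Fin.castLE h j))).1
    have h2 : x ≤ S.orderEmbOfFin rfl (Fin.castLE h j) := Nat.le_of_add_le_add_left hj
    have h3 : x ∈ S := (hS x).2 ⟨by omega, ht⟩
    have h4 : x ∈ Set.range (S.orderEmbOfFin rfl) := by
      rw [Finset.range_orderEmbOfFin]; exact h3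
    obtain ⟨i, rfl⟩ := h4
    have h5 : i ≤ Fin.castLE h j := (S.orderEmbOfFin rfl).le_iff_le.1 h2
    have h6 : i.val ≤ j.val := h5
    exact ⟨⟨i.val, lt_of_le_of_lt h6 j.isLt⟩, rfl⟩

end Vale.Agent.P329
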