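import Vale.Agent.P329.Mark

namespace Vale.Agent.P329

open Classical

variable {α : Type}

/-- The values of the two parts into which the event of the buffer starting at `b + x` cuts
the factor of length `A + 2 * Lh` starting at `b`. -/
noncomputable def tyv {M : Type} [Monoid M] (f : α → M) (cd : List α → ℕ) (D Lh A : ℕ)
    (ω : ℕ → α) (b x : ℕ) : M × M :=
  (ph f (seg ω b (x + ev cd D Lh (seg ω (b + x) (2 * Lh)))),
    ph f (seg ω (b + x + ev cd D Lh (seg ω (b + x) (2 * Lh)))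
      (A + 2 * Lh - (x + ev cd D Lh (seg ω (b + x) (2 * Lh))))))

theorem famA_win (ω : ℕ → α) (s n c L : ℕ) (h : c + L ≤ n) :
    win (seg ω s n) c L = seg ω (s + c) L := by
  unfold win
  rw [seg_drop, seg_take _ _ _ _ (by omega)]

theorem famA_ev_mark (cd : List α → ℕ) (D Lh : ℕ) (ω : ℕ → α) (σ μ : ℕ) (h1 : σ ≤ μ)
    (h2 : μ + 5 * D ≤ σ + 2 * Lh) (hm : MkAt cd D ω μ)
    (hf : ∀ t, σ ≤ t → t < μ → ¬ MkAt cd D ω t) :
    ev cd D Lh (seg ω σ (2 * Lh)) = μ - σ := by
  have hex : Mk cd D ((seg ω σ (2 * Lh)).drop (μ - σ)) := by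
    rw [seg_drop, mk_seg]
    refine ⟨by omega, ?_⟩
    have : σ + (μ - σ) = μ := by omega
    rw [this]; exact hm
  unfold ev
  rw [dif_pos ⟨_, hex⟩, Nat.find_eq_iff]
  refine ⟨hex, fun k hk h => ?_⟩
  rw [seg_drop, mk_seg] at h
  exact hf _ (by omega) (by omega) h.2

theorem famA_ev_min (cd : List α → ℕ) (D Lh : ℕ) (ω : ℕ → α) (σ k : ℕ)
    (hn : ∀ t, σ ≤ t → t + 5 * D ≤ σ + 2 * Lh → ¬ MkAt cd D ω t) (hD : 1 ≤ D)
    (hk : IsMin cd D Lh (seg ω σ (2 * Lh)) k)
    (hf : ∀ k', k' < k → ¬ IsMin cd D Lh (seg ω σ (2 * Lh)) k') :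
    ev cd D Lh (seg ω σ (2 * Lh)) = k := by
  have hno : ¬ ∃ t, Mk cd D ((seg ω σ (2 * Lh)).drop t) := by
    rintro ⟨t, ht⟩
    rw [seg_drop, mk_seg] at ht
    exact hn _ (by omega) (by omega) ht.2
  unfold ev
  rw [dif_neg hno, dif_pos ⟨_, hk⟩, Nat.find_eq_iff]
  exact ⟨hk, hf⟩

theorem famA_shift (ω : ℕ → α) (a e d : ℕ) (hp : ∀ i, a ≤ i → i + d ≤ e → ω i = ω (i + d))
    (r j m : ℕ) (hr : a ≤ r) (he : r + j * d + m ≤ e + 1) : seg ω (r + j * d) m = seg ω r m := by
  have key : ∀ j i, a ≤ i → i + j * d ≤ e → ω i = ω (i + j * d) := by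
    intro j
    induction j with
    | zero => intro i _ _; simp
    | succ j ih =>
      intro i hi hj
      have e1 : i + (j + 1) * d = i + j * d + d := by ring
      rw [e1] at hj ⊢
      rw [ih i hi (by omega)]
      exact hp _ (by omega) hj
  unfold seg
  apply List.map_congr_left
  intro i hi
  have hi' : i < m := List.mem_range.mp hi
  have e1 : r + j * d + i = r + i + j * d := by ring
  rw [e1]
  exact (key j (r + i) (by omega) (by omega)).symm

theorem famA_pow {M : Type} [Monoid M] (f : α → M) (ω : ℕ → α) (a e d : ℕ)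
    (hp : ∀ i, a ≤ i → i + d ≤ e → ω i = ω (i + d)) (r : ℕ) (hr : a ≤ r) (k : ℕ)
    (he : r + k * d ≤ e + 1) : ph f (seg ω r (k * d)) = ph f (seg ω r d) ^ k := by
  induction k with
  | zero => simp [seg_zero, ph_nil]
  | succ k ih =>
    have e1 : (k + 1) * d = k * d + d := by ring
    rw [e1] at he ⊢
    rw [seg_add, ph_append, ih (by omega), famA_shift ω a e d hp r k d hr (by omega), pow_succ]

theorem famA_pow_mod {M : Type} [Monoid M] [Fintype M] (g : M) (k : ℕ) :
    g ^ (Fintype.card M + k) = g ^ (Fintype.card M + k % (Fintype.card M).factorial) := by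
  have key : ∀ j r : ℕ, g ^ (Fintype.card M + (r + j * (Fintype.card M).factorial)) =
      g ^ (Fintype.card M + r) := by
    intro j r
    induction j with
    | zero => simp
    | succ j ih =>
      have e1 : Fintype.card M + (r + (j + 1) * (Fintype.card M).factorial) =
          Fintype.card M + (r + j * (Fintype.card M).factorial) + (Fintype.card M).factorial := by
        ring
      rw [e1, pow_period g _ (by omega), ih]
  conv_lhs => rw [← Nat.mod_add_div' k (Fintype.card M).factorial]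
  exact key _ _

/-- The periodic regime. -/
theorem famA_per [Fintype α] {M : Type} [Monoid M] [Fintype M] (f : α → M)
    {cd : List α → ℕ} (hcd : Function.Injective cd) {D Lh : ℕ} (A : ℕ) (hD : 1 ≤ D)
    (hL : Sg (Fintype.card α) D + (Fintype.card M + 11) * D ≤ Lh) (ω : ℕ → α) (b : ℕ) :
    ∃ (d β : ℕ) (G : ZMod (Fintype.card M).factorial → M × M), 1 ≤ d ∧
      ∀ x, x < D → (∀ t, b + x ≤ t → t + 5 * D ≤ b + x + 2 * Lh → ¬ MkAt cd D ω t) →
        tyv f cd D Lh A ω b x =
          G (((x + β) / d : ℕ) : ZMod (Fintype.card M).factorial) := by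
  by_cases hex : ∃ x, x < D ∧ ∀ t, b + x ≤ t → t + 5 * D ≤ b + x + 2 * Lh → ¬ MkAt cd D ω t
  swap
  · exact ⟨1, 0, fun _ => (1, 1), le_refl _, fun x hx h => absurd ⟨x, hx, h⟩ hex⟩
  obtain ⟨x0, hx0, hno⟩ := hex
  set n := Fintype.card M with hn
  set S := Sg (Fintype.card α) D with hS
  have hL' : S + n * D + 11 * D ≤ Lh := by
    have : (n + 11) * D = n * D + 11 * D := by ring
    omega
  obtain ⟨d, hd1, hdD, hper, hdist⟩ := per_of_noMk hcd hD ω (b + D) (b + 2 * Lh - 5 * D)
    (fun μ h1 h2 => hno μ (by omega) (by omega))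
  rw [← hS] at hper hdist
  have hp : ∀ i, b + D + S ≤ i → i + d ≤ b + 2 * Lh - 5 * D - S → ω i = ω (i + d) :=
    fun i h1 h2 => hper i h1 (by omega)
  obtain ⟨k0, hk0, hmin⟩ := Finset.exists_min_image (Finset.range d)
    (fun k => cd (seg ω (b + Lh + k) (3 * D))) ⟨0, Finset.mem_range.mpr hd1⟩
  have hk0d : k0 < d := Finset.mem_range.mp hk0
  have hstrict : ∀ k, k < d → k ≠ k0 →
      cd (seg ω (b + Lh + k0) (3 * D)) < cd (seg ω (b + Lh + k) (3 * D)) := by
    intro k hk hne
    refine lt_of_le_of_ne (hmin k (Finset.mem_range.mpr hk)) (fun h => ?_)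
    have h' := hcd h
    rcases lt_or_gt_of_ne hne with h1 | h1
    · apply hdist (b + Lh + k) (k0 - k) (by omega) (by omega) (by omega) (by omega)
      have : b + Lh + k + (k0 - k) = b + Lh + k0 := by omega
      rw [this]; exact h'.symm
    · apply hdist (b + Lh + k0) (k - k0) (by omega) (by omega) (by omega) (by omega)
      have : b + Lh + k0 + (k - k0) = b + Lh + k := by omega
      rw [this]; exact h'
  have hred : ∀ s, s ≤ 2 * D →
      seg ω (b + Lh + s) (3 * D) = seg ω (b + Lh + s % d) (3 * D) := by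
    intro s hs
    have e1 : b + Lh + s = b + Lh + s % d + s / d * d := by
      have := Nat.mod_add_div' s d
      omega
    rw [e1]
    exact famA_shift ω _ _ d hp _ _ _ (by omega) (by omega)
  have hnd : n * d ≤ n * D := Nat.mul_le_mul_left _ hdD
  set c := (D + d) / d with hc
  have hcd' : c * d ≤ D + d := Nat.div_mul_le_self _ _
  set r1 := b + Lh + k0 - n * d with hr1
  set g := ph f (seg ω r1 d) with hg
  have : NeZero n.factorial := ⟨(Nat.factorial_pos n).ne'⟩
  refine ⟨d, d - 1 - k0, fun κ => (ph f (seg ω b (r1 - b)) * g ^ (n + κ.val),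
    g ^ (n + ((c : ZMod n.factorial) - κ).val) *
      ph f (seg ω (r1 + (n + (n + c)) * d) (b + A + 2 * Lh - (r1 + (n + (n + c)) * d)))),
    hd1, fun x hx hnx => ?_⟩
  set k := (x + (d - 1 - k0)) / d with hk
  have hk1 : k * d ≤ x + (d - 1 - k0) := Nat.div_mul_le_self _ _
  have hk2 : x + (d - 1 - k0) < k * d + d := by
    have h1 := Nat.mod_add_div' (x + (d - 1 - k0)) d
    have h2 := Nat.mod_lt (x + (d - 1 - k0)) (show d > 0 by omega)
    rw [← hk] at h1
    omega
  have hkc : k ≤ c := Nat.div_le_div_right (by omega)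
  have hmod : (k0 + k * d) % d = k0 := by
    rw [Nat.add_mul_mod_self_right, Nat.mod_eq_of_lt hk0d]
  have hw : ∀ t', Lh ≤ t' → t' < Lh + D → win (seg ω (b + x) (2 * Lh)) t' (3 * D) =
      seg ω (b + Lh + (x + t' - Lh) % d) (3 * D) := by
    intro t' h1 h2
    rw [famA_win _ _ _ _ _ (by omega), ← hred _ (by omega)]
    have : b + x + t' = b + Lh + (x + t' - Lh) := by omega
    rw [this]
  have hk1' : x + (Lh + k0 + k * d - x) - Lh = k0 + k * d := by omega
  have hev : ev cd D Lh (seg ω (b + x) (2 * Lh)) = Lh + k0 + k * d - x := by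
    apply famA_ev_min cd D Lh ω (b + x) _ hnx hD
    · refine ⟨by omega, by omega, fun t' h1 h2 => ?_⟩
      rw [hw _ (by omega) (by omega), hw _ h1 h2, hk1', hmod]
      exact hmin _ (Finset.mem_range.mpr (Nat.mod_lt _ (by omega)))
    · rintro k' hk' ⟨h1, h2, h3⟩
      have h4 := h3 (Lh + k0 + k * d - x) (by omega) (by omega)
      rw [hw _ h1 h2, hw _ (by omega) (by omega), hk1', hmod] at h4
      have h5 : (x + k' - Lh) % d ≠ k0 := by
        intro h5
        have h6 := Nat.mod_add_div' (x + k' - Lh) d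
        rw [h5] at h6
        have h7 : (x + k' - Lh) / d < k := by
          by_contra h7
          have := Nat.mul_le_mul_right d (not_lt.mp h7)
          omega
        have h8 := Nat.mul_le_mul_right d (Nat.succ_le_of_lt h7)
        rw [Nat.succ_mul] at h8
        omega
      exact absurd (hstrict _ (Nat.mod_lt _ (by omega)) h5) (not_lt.mpr h4)
  have e1 : (n + k) * d = n * d + k * d := by ring
  have e2 : (n + (n + c)) * d = n * d + n * d + c * d := by ring
  have e3 : (n + (c - k)) * d + k * d = n * d + c * d := by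
    rw [← add_mul, ← add_mul]
    congr 1
    omega
  unfold tyv
  rw [hev]
  refine Prod.ext ?_ ?_
  · have e4 : x + (Lh + k0 + k * d - x) = (r1 - b) + (n + k) * d := by omega
    have e5 : b + (r1 - b) = r1 := by omega
    simp only
    rw [e4, seg_add, ph_append, e5, famA_pow f ω _ _ d hp r1 (by omega) _ (by omega),
      ZMod.val_natCast, ← hg, famA_pow_mod g k]
  · have e4 : A + 2 * Lh - (x + (Lh + k0 + k * d - x)) =
        (n + (c - k)) * d + (b + A + 2 * Lh - (r1 + (n + (n + c)) * d)) := by omega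
    have e5 : b + x + (Lh + k0 + k * d - x) = r1 + (n + k) * d := by omega
    have e6 : r1 + (n + k) * d + (n + (c - k)) * d = r1 + (n + (n + c)) * d := by omega
    simp only
    rw [e4, e5, seg_add, ph_append, e6,
      famA_shift ω _ _ d hp r1 (n + k) _ (by omega) (by omega),
      famA_pow f ω _ _ d hp r1 (by omega) _ (by omega), ← Nat.cast_sub hkc,
      ZMod.val_natCast, ← hg, famA_pow_mod g (c - k)]

/-- Behaviour for the offsets whose first mark is the first mark after `s0`. -/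
theorem famA_first (cd : List α → ℕ) (D Lh : ℕ) (ω : ℕ → α) {M : Type} [Monoid M]
    (f : α → M) (A b s0 : ℕ) :
    ∃ (θ : ℕ) (τ : M × M), ∀ x, x < D →
      (∀ t, b + x ≤ t → t < s0 → ¬ MkAt cd D ω t) →
      (∀ t, s0 ≤ t → t < b + x → ¬ MkAt cd D ω t) →
      (x < θ → ∀ t, b + x ≤ t → t + 5 * D ≤ b + x + 2 * Lh → ¬ MkAt cd D ω t) ∧
      (¬ x < θ → tyv f cd D Lh A ω b x = τ) := by
  by_cases hex : ∃ t, s0 ≤ t ∧ MkAt cd D ω t
  · set μ := Nat.find hex with hμ
    have h1 : s0 ≤ μ ∧ MkAt cd D ω μ := Nat.find_spec hex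
    have h2 : ∀ t, t < μ → ¬ (s0 ≤ t ∧ MkAt cd D ω t) := fun t ht => Nat.find_min hex ht
    refine ⟨μ + 5 * D - 2 * Lh - b,
      (ph f (seg ω b (μ - b)), ph f (seg ω μ (A + 2 * Lh - (μ - b)))), fun x hx h3 h4 => ?_⟩
    have h5 : b + x ≤ μ := by
      by_contra h
      exact h4 μ h1.1 (by omega) h1.2
    have h6 : ∀ t, b + x ≤ t → t < μ → ¬ MkAt cd D ω t := by
      intro t ht ht' hm
      by_cases h : s0 ≤ t
      · exact h2 t ht' ⟨h, hm⟩
      · exact h3 t ht (by omega) hm
    refine ⟨fun hθ t ht ht' => h6 t ht (by omega), fun hθ => ?_⟩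
    unfold tyv
    rw [famA_ev_mark cd D Lh ω (b + x) μ h5 (by omega) h1.2 h6]
    have e1 : x + (μ - (b + x)) = μ - b := by omega
    have e2 : b + x + (μ - (b + x)) = μ := by omega
    rw [e1, e2]
  · refine ⟨D, (1, 1), fun x hx h3 _ => ⟨fun _ t ht _ hm => ?_, fun h => absurd hx h⟩⟩
    by_cases h : s0 ≤ t
    · exact hex ⟨t, h, hm⟩
    · exact h3 t ht (by omega) hm

theorem ev_types [Fintype α] {M : Type} [Monoid M] [Fintype M] (f : α → M)
    {cd : List α → ℕ} (hcd : Function.Injective cd) {D Lh : ℕ} (A : ℕ) (hD : 1 ≤ D)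
    (hL : Sg (Fintype.card α) D + (Fintype.card M + 11) * D ≤ Lh) (ω : ℕ → α) (b : ℕ) :
    ∃ (θ : Fin 3 → ℕ) (d β : ℕ)
      (G : (Fin 3 → Bool) → ZMod (Fintype.card M).factorial → M × M), 1 ≤ d ∧
      ∀ x, x < D → tyv f cd D Lh A ω b x =
        G (fun i => decide (x < θ i)) (((x + β) / d : ℕ) : ZMod (Fintype.card M).factorial) := by
  obtain ⟨d, β, Gp, hd, hGp⟩ := famA_per f hcd A hD hL ω b
  obtain ⟨θ1, τ1, h1⟩ := famA_first cd D Lh ω f A b b
  have h0 : ∃ θ0 s0 : ℕ, ∀ x, x < D →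
      (x < θ0 → ∀ t, b ≤ t → t < b + x → ¬ MkAt cd D ω t) ∧
      (¬ x < θ0 → s0 ≤ b + x ∧ ∀ t, s0 ≤ t → t < b + x → ¬ MkAt cd D ω t) := by
    by_cases hex : ∃ t, b ≤ t ∧ MkAt cd D ω t
    · have h1 : b ≤ Nat.find hex ∧ MkAt cd D ω (Nat.find hex) := Nat.find_spec hex
      refine ⟨Nat.find hex - b + 1, Nat.find hex + 1, fun x hx => ⟨fun h t ht ht' hm => ?_,
        fun h => ⟨by omega, fun t ht ht' hm => ?_⟩⟩⟩
      · exact Nat.find_min hex (show t < Nat.find hex by omega) ⟨ht, hm⟩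
      · have := mkAt_sep hcd h1.2 hm (by omega)
        omega
    · exact ⟨D, 0, fun x hx => ⟨fun _ t ht _ hm => hex ⟨t, ht, hm⟩, fun h => absurd hx h⟩⟩
  obtain ⟨θ0, s0, h0⟩ := h0
  obtain ⟨θ2, τ2, h2⟩ := famA_first cd D Lh ω f A b s0
  refine ⟨![θ0, θ1, θ2], d, β, fun bits κ =>
    if bits 0 = true then (if bits 1 = true then Gp κ else τ1)
    else (if bits 2 = true then Gp κ else τ2), hd, fun x hx => ?_⟩
  show _ = if decide (x < θ0) = true then (if decide (x < θ1) = true then _ else τ1)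
    else (if decide (x < θ2) = true then _ else τ2)
  simp only [decide_eq_true_eq]
  by_cases c0 : x < θ0
  · have h3 := h1 x hx (fun t ht ht' => by omega) ((h0 x hx).1 c0)
    rw [if_pos c0]
    by_cases c1 : x < θ1
    · rw [if_pos c1]; exact hGp x hx (h3.1 c1)
    · rw [if_neg c1]; exact h3.2 c1
  · have h4 := (h0 x hx).2 c0
    have h3 := h2 x hx (fun t ht ht' => by omega) h4.2
    rw [if_neg c0]
    by_cases c2 : x < θ2
    · rw [if_pos c2]; exact hGp x hx (h3.1 c2)
    · rw [if_neg c2]; exact h3.2 c2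

end Vale.Agent.P329
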