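import Mathlib

namespace Vale.Agent.P329

open Classical in
/-- the sets cut out by planes -/
noncomputable def vcFam (n1 n2 Kv : ℕ) : Finset (Finset (Fin n1 × Fin n2 × Fin Kv)) :=
  Finset.univ.filter fun S => ∃ θ q β d : ℕ, ∀ x : Fin n1 × Fin n2 × Fin Kv,
    x ∈ S ↔ x.2.2 * d ≤ x.1 * θ + x.2.1 * q + β

theorem vc_shatter {n1 n2 Kv : ℕ} {s : Finset (Fin n1 × Fin n2 × Fin Kv)}
    (h : (vcFam n1 n2 Kv).Shatters s) : s.card ≤ 4 := by
  classical
  by_contra hlt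
  have hdep : ¬ LinearIndependent ℚ fun x : s =>
      (![(x.1.1 : ℕ), (x.1.2.1 : ℕ), (x.1.2.2 : ℕ), 1] : Fin 4 → ℚ) := by
    intro hi
    have := hi.fintype_card_le_finrank
    simp at this
    omega
  obtain ⟨l, hl, i0, hi0⟩ := Fintype.not_linearIndependent_iff.1 hdep
  have e0 : ∑ x : s, l x * ((x.1.1 : ℕ) : ℚ) = 0 := by simpa using congrFun hl 0
  have e1 : ∑ x : s, l x * ((x.1.2.1 : ℕ) : ℚ) = 0 := by simpa using congrFun hl 1
  have e2 : ∑ x : s, l x * ((x.1.2.2 : ℕ) : ℚ) = 0 := by simpa using congrFun hl 2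
  have e3 : ∑ x : s, l x = 0 := by simpa using congrFun hl 3
  have hneg : ∃ i, l i < 0 := by
    by_contra hn
    push Not at hn
    exact hi0 ((Finset.sum_eq_zero_iff_of_nonneg fun i _ => hn i).1 e3 i0 (Finset.mem_univ _))
  obtain ⟨S, hS, hcut⟩ := h (Finset.filter_subset (fun x => ∃ hx : x ∈ s, 0 < l ⟨x, hx⟩) s)
  obtain ⟨θ, q, β, d, hθ⟩ := (Finset.mem_filter.1 hS).2
  have key : ∀ x : s, 0 < l x ↔
      (0 : ℚ) ≤ (x.1.1 : ℕ) * θ + (x.1.2.1 : ℕ) * q + β - (x.1.2.2 : ℕ) * d := by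
    intro x
    have h1 : x.1 ∈ s ∩ S ↔ x.1 ∈ s.filter fun x => ∃ hx : x ∈ s, 0 < l ⟨x, hx⟩ := by rw [hcut]
    rw [Finset.mem_inter, Finset.mem_filter, hθ] at h1
    rw [sub_nonneg]
    constructor
    · intro h2
      exact_mod_cast (h1.2 ⟨x.2, x.2, h2⟩).2
    · intro h2
      obtain ⟨-, _, h3⟩ := h1.1 ⟨x.2, by exact_mod_cast h2⟩
      exact h3
  have hsum : ∑ x : s, l x *
      (((x.1.1 : ℕ) * θ + (x.1.2.1 : ℕ) * q + β - (x.1.2.2 : ℕ) * d : ℚ)) = 0 := by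
    have : ∀ x : s, l x * (((x.1.1 : ℕ) * θ + (x.1.2.1 : ℕ) * q + β - (x.1.2.2 : ℕ) * d : ℚ)) =
        l x * (x.1.1 : ℕ) * θ + l x * (x.1.2.1 : ℕ) * q + l x * β - l x * (x.1.2.2 : ℕ) * d :=
      fun x => by ring
    simp only [this, Finset.sum_sub_distrib, Finset.sum_add_distrib, ← Finset.sum_mul, e0, e1, e2,
      e3, zero_mul, add_zero, sub_zero]
  refine absurd hsum (ne_of_gt (Finset.sum_pos' (fun x _ => ?_) ?_))
  · rcases lt_or_ge 0 (l x) with h1 | h1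
    · exact mul_nonneg h1.le ((key x).1 h1)
    · exact mul_nonneg_of_nonpos_of_nonpos h1
        (not_le.1 fun h2 => absurd ((key x).2 h2) (not_lt.2 h1)).le
  · obtain ⟨i, hi⟩ := hneg
    exact ⟨i, Finset.mem_univ _, mul_pos_of_neg_of_neg hi
      (not_le.1 fun h2 => absurd ((key i).2 h2) (not_lt.2 hi.le))⟩

theorem vc_card (n1 n2 Kv : ℕ) : (vcFam n1 n2 Kv).card ≤ (n1 * n2 * Kv + 1) ^ 4 := by
  have h1 : (vcFam n1 n2 Kv).vcDim ≤ 4 :=
    Finset.sup_le fun s hs => vc_shatter (Finset.mem_shatterer.1 hs)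
  refine (Finset.card_le_card_shatterer _).trans (Finset.card_shatterer_le_sum_vcDim.trans
    ((Finset.sum_le_sum_of_subset (Finset.Iic_subset_Iic.2 h1)).trans ?_))
  have h2 : Fintype.card (Fin n1 × Fin n2 × Fin Kv) = n1 * n2 * Kv := by simp [mul_assoc]
  rw [h2]
  generalize n1 * n2 * Kv = N
  refine (Finset.sum_le_sum fun k _ => Nat.choose_le_pow N k).trans ?_
  have h3 : Finset.Iic 4 = Finset.range 5 := by decide
  rw [h3]
  simp only [Finset.sum_range_succ, Finset.sum_range_zero]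
  nlinarith [Nat.zero_le N, Nat.zero_le (N ^ 2), Nat.zero_le (N ^ 3)]

/-- There are few digital planes. -/
theorem floor_fam (n1 n2 Kv : ℕ) :
    ∃ F : Finset (Fin n1 → Fin n2 → ℕ), F.card ≤ (n1 * n2 * Kv + 1) ^ 4 ∧
      ∀ θ q β d : ℕ, 1 ≤ d → (∀ (a : Fin n1) (b : Fin n2), (a * θ + b * q + β) / d < Kv) →
        (fun (a : Fin n1) (b : Fin n2) => (a * θ + b * q + β) / d) ∈ F := by
  classical
  refine ⟨(vcFam n1 n2 Kv).image fun S a b =>
    (Finset.univ.filter fun k : Fin Kv => (a, b, k) ∈ S).sup fun k => k.1,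
    Finset.card_image_le.trans (vc_card n1 n2 Kv), fun θ q β d hd hK => ?_⟩
  refine Finset.mem_image.2 ⟨Finset.univ.filter fun x : Fin n1 × Fin n2 × Fin Kv =>
    x.2.2 * d ≤ x.1 * θ + x.2.1 * q + β,
    Finset.mem_filter.2 ⟨Finset.mem_univ _, θ, q, β, d, fun x => by simp⟩, ?_⟩
  funext a b
  refine le_antisymm (Finset.sup_le fun k hk => ?_) ?_
  · rw [Nat.le_div_iff_mul_le hd]
    simpa using hk
  · refine Finset.le_sup (f := fun k : Fin Kv => k.1) (b := ⟨_, hK a b⟩) ?_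
    simpa using Nat.div_mul_le_self _ _

end Vale.Agent.P329
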