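import Vale.Agent.P329.Read
import Vale.Agent.P329.VC

namespace Vale.Agent.P329

/-- The part of the value below the scale `k`. -/
def fambLow (u om : ℕ) {J : ℕ} (x : Sx u J) (k : ℕ) : ℕ :=
  ∑ j : Fin J, if (j : ℕ) < k then 2 * (x j : ℕ) * Qs u om j else 0

theorem famb_low_zero (u om : ℕ) {J : ℕ} (x : Sx u J) : fambLow u om x 0 = 0 := by
  simp [fambLow]

theorem famb_low_succ (u om : ℕ) {J : ℕ} (x : Sx u J) (j0 : Fin J) :
    fambLow u om x (j0 + 1) = fambLow u om x j0 + 2 * (x j0 : ℕ) * Qs u om j0 := by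
  have h : 2 * (x j0 : ℕ) * Qs u om j0 =
      ∑ j : Fin J, if j = j0 then 2 * (x j : ℕ) * Qs u om j else 0 := by
    rw [Finset.sum_ite_eq' Finset.univ j0, if_pos (Finset.mem_univ _)]
  rw [h, fambLow, fambLow, ← Finset.sum_add_distrib]
  refine Finset.sum_congr rfl fun j _ => ?_
  rcases lt_trichotomy j j0 with h | h | h
  · have h' : (j : ℕ) < j0 := h
    rw [if_pos (by omega), if_pos h', if_neg h.ne, add_zero]
  · subst h
    rw [if_pos (by omega), if_neg (by omega), if_pos rfl, zero_add]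
  · have h' : (j0 : ℕ) < j := h
    rw [if_neg (by omega), if_neg (by omega), if_neg h.ne', add_zero]

theorem famb_low_top (u om : ℕ) {J : ℕ} (x : Sx u J) : fambLow u om x J = val u om x :=
  Finset.sum_congr rfl fun j _ => if_pos j.2

theorem famb_modEq (u om : ℕ) {J : ℕ} (x : Sx u J) {k m : ℕ}
    (h : ∀ j : Fin J, k ≤ j → m ∣ Qs u om j) : val u om x ≡ fambLow u om x k [MOD m] := by
  have e : val u om x = fambLow u om x k +
      ∑ j : Fin J, if (j : ℕ) < k then 0 else 2 * (x j : ℕ) * Qs u om j := by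
    rw [val, fambLow, ← Finset.sum_add_distrib]
    refine Finset.sum_congr rfl fun j _ => ?_
    split_ifs <;> simp
  have hd : m ∣ ∑ j : Fin J, if (j : ℕ) < k then 0 else 2 * (x j : ℕ) * Qs u om j := by
    refine Finset.dvd_sum fun j _ => ?_
    split_ifs with hj
    · exact dvd_zero _
    · exact (h j (by omega)).mul_left _
  rw [e]
  exact (Nat.ModEq.refl _).add ((Nat.modEq_zero_iff_dvd).2 hd)

theorem famb_real (u J om : ℕ) (hom : 1 ≤ om) (hJ : 1 ≤ J) (d β : ℕ) (hd : 1 ≤ d) :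
    ∃ (j1 j2 : Fin J) (θ q β' : ℕ), θ < d * om ∧ β' < d * om ∧ 2 ^ u * q ≤ d ∧
      (q = 0 ∨ j1 ≠ j2) ∧ ∀ x : Sx u J, ∃ r ≤ q,
        val u om x + β ≡ (x j1 : ℕ) * θ + (x j2 : ℕ) * q + β' + r [MOD d * om] := by
  classical
  have hm : 0 < d * om := Nat.mul_pos hd hom
  have hex : ∃ k : ℕ, ∀ j : Fin J, k ≤ j → d * om ∣ Qs u om j :=
    ⟨J, fun j hj => absurd j.2 (by omega)⟩
  have hk := Nat.find_spec hex
  have hβ : β ≡ β % (d * om) [MOD d * om] := (Nat.mod_modEq _ _).symm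
  rcases h0 : Nat.find hex with _ | k
  · rw [h0] at hk
    refine ⟨⟨0, hJ⟩, ⟨0, hJ⟩, 0, 0, β % (d * om), hm, Nat.mod_lt _ hm, by simp, Or.inl rfl,
      fun x => ⟨0, le_rfl, ?_⟩⟩
    have := (famb_modEq u om x hk).add hβ
    rw [famb_low_zero] at this
    simpa using this
  have hmin := Nat.find_min hex (m := k) (by omega)
  rw [h0] at hk
  push Not at hmin
  obtain ⟨j1, hj1, hnd⟩ := hmin
  have hjk : (j1 : ℕ) = k := by
    by_contra hne
    exact hnd (hk j1 (by omega))
  subst hjk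
  have hθ : ∀ x : Sx u J, 2 * (x j1 : ℕ) * Qs u om j1 ≡
      (x j1 : ℕ) * (2 * Qs u om j1 % (d * om)) [MOD d * om] := fun x => by
    rw [mul_comm 2, mul_assoc]
    exact (Nat.mod_modEq _ _).symm.mul_left _
  rcases h1 : (j1 : ℕ) with _ | k
  · refine ⟨j1, j1, 2 * Qs u om j1 % (d * om), 0, β % (d * om), Nat.mod_lt _ hm, Nat.mod_lt _ hm,
      by simp, Or.inl rfl, fun x => ⟨0, le_rfl, ?_⟩⟩
    have e := famb_modEq u om x hk
    rw [famb_low_succ, show fambLow u om x j1 = 0 by rw [h1, famb_low_zero], zero_add] at e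
    simpa using (e.trans (hθ x)).add hβ
  · have hlt : k < J := by have := j1.2; omega
    have hbig : 2 ^ (u + 2) * Qs u om k < d := by
      by_contra hc
      rw [h1] at hnd
      exact hnd (dvd_Qs u om k d hd (by omega))
    refine ⟨j1, ⟨k, hlt⟩, 2 * Qs u om j1 % (d * om), 2 * Qs u om k, β % (d * om),
      Nat.mod_lt _ hm, Nat.mod_lt _ hm, ?_, Or.inr fun h => ?_,
      fun x => ⟨fambLow u om x k, ?_, ?_⟩⟩
    · have : 2 ^ (u + 2) * Qs u om k = 2 * (2 ^ u * (2 * Qs u om k)) := by ring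
      omega
    · rw [h] at h1
      simp at h1
    · have := low_lt u hom x k
      unfold fambLow
      omega
    · have e := famb_modEq u om x hk
      have e2 : fambLow u om x j1 =
          fambLow u om x k + 2 * (x ⟨k, hlt⟩ : ℕ) * Qs u om k := by
        rw [h1]
        exact famb_low_succ u om x ⟨k, hlt⟩
      rw [famb_low_succ, e2] at e
      have e3 := (e.trans ((Nat.ModEq.refl _).add (hθ x))).add hβ
      refine e3.trans (by rw [show fambLow u om x k + 2 * (x ⟨k, hlt⟩ : ℕ) * Qs u om k +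
        (x j1 : ℕ) * (2 * Qs u om j1 % (d * om)) + β % (d * om) =
        (x j1 : ℕ) * (2 * Qs u om j1 % (d * om)) + (x ⟨k, hlt⟩ : ℕ) * (2 * Qs u om k) +
          β % (d * om) + fambLow u om x k by ring])

theorem famb_count {u J : ℕ} (j : Fin J) (A : Set (Sx u J))
    (h : ∀ x ∈ A, ∀ y ∈ A, (∀ i, i ≠ j → x i = y i) → x j = y j) :
    2 ^ u * A.ncard ≤ 2 ^ (u * J) := by
  classical
  have hinj : Function.Injective
      (fun p : Fin (2 ^ u) × A => (Function.update p.2.1 j p.1 : Sx u J)) := by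
    rintro ⟨s, x, hx⟩ ⟨t, y, hy⟩ e
    have e1 : s = t := by simpa using congrFun e j
    have e2 : ∀ i, i ≠ j → x i = y i := fun i hi => by simpa [hi] using congrFun e i
    have e3 : x = y := funext fun i => by
      by_cases hi : i = j
      · rw [hi]; exact h x hx y hy e2
      · exact e2 i hi
    subst e1 e3
    rfl
  have := Nat.card_le_card_of_injective _ hinj
  rw [Nat.card_prod, Nat.card_coe_set_eq] at this
  simpa [pow_mul] using this

theorem famb_div {d om A B : ℕ} (h : A ≡ B [MOD d * om]) :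
    ((A / d : ℕ) : ZMod om) = ((B / d : ℕ) : ZMod om) := by
  rw [ZMod.natCast_eq_natCast_iff, Nat.ModEq, ← Nat.mod_mul_right_div_self,
    ← Nat.mod_mul_right_div_self, h]

theorem famb_jump {A q d N b b' : ℕ} (hd : 1 ≤ d) (hq : N * q ≤ d) (hb : b < b') (hN : b' < N)
    (β : ℕ) (h1 : (A + b * q + β) / d ≠ (A + (b + 1) * q + β) / d)
    (h2 : (A + b' * q + β) / d ≠ (A + (b' + 1) * q + β) / d) : False := by
  have mono : ∀ s t, s ≤ t → (A + s * q + β) / d ≤ (A + t * q + β) / d := fun s t hst =>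
    Nat.div_le_div_right (by have := Nat.mul_le_mul_right q hst; omega)
  have a1 := mono b (b + 1) (by omega)
  have a2 := mono (b + 1) b' (by omega)
  have a3 := mono b' (b' + 1) (by omega)
  have a4 : (A + (b' + 1) * q + β) / d ≤ (A + b * q + β + d) / d :=
    Nat.div_le_div_right (by have := Nat.mul_le_mul_right q (show b' + 1 ≤ N by omega); omega)
  rw [Nat.add_div_right _ hd] at a4
  omega

theorem famb_thr {u J om : ℕ} (hom : 1 ≤ om) (top : Fin J) (htop : (top : ℕ) + 1 = J)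
    (x : Sx u J) (θ : ℕ) (h : (x top : ℕ) ≠ min (θ / (2 * Qs u om top)) (2 ^ u)) :
    (x top : ℕ) < min (θ / (2 * Qs u om top)) (2 ^ u) ↔ val u om x < θ := by
  have hQ := Qs_pos u hom top
  have e : val u om x = fambLow u om x top + 2 * (x top : ℕ) * Qs u om top := by
    rw [← famb_low_succ, htop, famb_low_top]
  have hl : fambLow u om x top < Qs u om top := low_lt u hom x top
  have hx := (x top).2
  have e2 : 2 * (x top : ℕ) * Qs u om top = (x top : ℕ) * (2 * Qs u om top) := by ring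
  constructor
  · intro h1
    have h2 : (x top : ℕ) + 1 ≤ θ / (2 * Qs u om top) := by omega
    rw [Nat.le_div_iff_mul_le (by omega), add_mul] at h2
    omega
  · intro h1
    have h2 : (x top : ℕ) ≤ θ / (2 * Qs u om top) := by
      rw [Nat.le_div_iff_mul_le (by omega)]
      omega
    omega

open Classical in
/-- A member of the family. -/
noncomputable def fambP {u J om : ℕ} {Tp : Type} (top : Fin J)
    (p : (Fin (2 ^ u) → Fin (2 ^ u + 1) → ℕ) × (Fin 3 → Fin (2 ^ u + 1)) × Fin J × Fin J ×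
      ((Fin 3 → Bool) → ZMod om → Tp)) (x : Sx u J) : Option Tp :=
  if (∃ i, (x top : ℕ) = p.2.1 i) ∨
      p.1 (x p.2.2.1) (x p.2.2.2.1).castSucc ≠ p.1 (x p.2.2.1) (x p.2.2.2.1).succ then none
  else some (p.2.2.2.2 (fun i => decide ((x top : ℕ) < p.2.1 i))
    ((p.1 (x p.2.2.1) (x p.2.2.2.1).castSucc : ℕ) : ZMod om))

theorem famb_size (u om : ℕ) (hom : 1 ≤ om) :
    (2 ^ u * (2 ^ u + 1) * (2 ^ u * om + 2) + 1) ^ 4 * (2 ^ u + 1) ^ 3 ≤
      om ^ 4 * 2 ^ (15 * u + 19) := by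
  have hN : 1 ≤ 2 ^ u := Nat.one_le_two_pow
  have e : 2 ^ (15 * u + 19) = (2 ^ u) ^ 15 * 2 ^ 19 := by ring
  rw [e]
  generalize 2 ^ u = N at hN
  have h0 : 1 ≤ N * om := Nat.mul_pos hN hom
  have h1 : N * (N + 1) * (N * om + 2) ≤ N * (2 * N) * (4 * (N * om)) :=
    Nat.mul_le_mul (Nat.mul_le_mul_left _ (by omega)) (by omega)
  have h2 : 1 ≤ N * (2 * N) * (4 * (N * om)) :=
    Nat.mul_pos (Nat.mul_pos hN (by omega)) (by omega)
  calc _ ≤ (2 * (N * (2 * N) * (4 * (N * om)))) ^ 4 * (2 * N) ^ 3 :=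
        Nat.mul_le_mul (Nat.pow_le_pow_left (by omega) _) (Nat.pow_le_pow_left (by omega) _)
    _ = _ := by ring

theorem type_family (u J om : ℕ) (hom : 1 ≤ om) (hJ : 1 ≤ J) (Tp : Type) [Fintype Tp] :
    ∃ F : Finset (Sx u J → Option Tp),
      F.card ≤ J ^ 2 * Fintype.card Tp ^ (8 * om) * om ^ 4 * 2 ^ (15 * u + 19) ∧
      (∀ P ∈ F, 2 ^ u * {x | P x = none}.ncard ≤ 4 * 2 ^ (u * J)) ∧
      ∀ (θ : Fin 3 → ℕ) (d β : ℕ) (G : (Fin 3 → Bool) → ZMod om → Tp), 1 ≤ d →
        ∃ P ∈ F, ∀ x τ, P x = some τ →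
          G (fun i => decide (val u om x < θ i))
            (((val u om x + β) / d : ℕ) : ZMod om) = τ := by
  classical
  have : NeZero om := ⟨by omega⟩
  obtain ⟨F0, hF0, hF0'⟩ := floor_fam (2 ^ u) (2 ^ u + 1) (2 ^ u * om + 2)
  let top : Fin J := ⟨J - 1, by omega⟩
  have htop : (top : ℕ) + 1 = J := Nat.sub_add_cancel hJ
  refine ⟨((F0 ×ˢ Finset.univ).image (fambP (om := om) (Tp := Tp) top)).filter
    (fun P => 2 ^ u * {x | P x = none}.ncard ≤ 4 * 2 ^ (u * J)), ?_,
    fun P hP => (Finset.mem_filter.1 hP).2, fun θ d β G hd => ?_⟩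
  · refine (Finset.card_filter_le _ _).trans (Finset.card_image_le.trans ?_)
    rw [Finset.card_product, Finset.card_univ]
    simp only [Fintype.card_prod, Fintype.card_fun, Fintype.card_fin, Fintype.card_bool,
      ZMod.card]
    calc _ ≤ (2 ^ u * (2 ^ u + 1) * (2 ^ u * om + 2) + 1) ^ 4 *
          ((2 ^ u + 1) ^ 3 * (J * (J * (Fintype.card Tp ^ om) ^ 2 ^ 3))) :=
          Nat.mul_le_mul_right _ hF0
      _ = J ^ 2 * Fintype.card Tp ^ (8 * om) *
          ((2 ^ u * (2 ^ u + 1) * (2 ^ u * om + 2) + 1) ^ 4 * (2 ^ u + 1) ^ 3) := by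
          rw [← pow_mul, show om * 2 ^ 3 = 8 * om by ring]
          generalize Fintype.card Tp ^ (8 * om) = T
          generalize (2 ^ u * (2 ^ u + 1) * (2 ^ u * om + 2) + 1) ^ 4 = X
          generalize (2 ^ u + 1) ^ 3 = Y
          ring
      _ ≤ J ^ 2 * Fintype.card Tp ^ (8 * om) * (om ^ 4 * 2 ^ (15 * u + 19)) :=
          Nat.mul_le_mul_left _ (famb_size u om hom)
      _ = _ := (mul_assoc _ _ _).symm
  obtain ⟨j1, j2, θ', q, β', h1, h2, h3, h4, h5⟩ := famb_real u J om hom hJ d β hd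
  have hf := hF0' θ' q β' d hd fun a b => by
    rw [Nat.div_lt_iff_lt_mul hd]
    have a1 : ((a : ℕ) + 1) * (d * om) ≤ 2 ^ u * (d * om) := Nat.mul_le_mul_right _ a.2
    have a2 : (a : ℕ) * θ' ≤ a * (d * om) := Nat.mul_le_mul_left _ h1.le
    have a3 : (b : ℕ) * q ≤ 2 ^ u * q := Nat.mul_le_mul_right _ (Nat.lt_succ_iff.1 b.2)
    have a4 : (2 ^ u * om + 2) * d = 2 ^ u * (d * om) + 2 * d := by ring
    rw [add_mul, one_mul] at a1
    omega
  let c : Fin 3 → Fin (2 ^ u + 1) := fun i =>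
    ⟨min (θ i / (2 * Qs u om top)) (2 ^ u), Nat.lt_succ_of_le (min_le_right _ _)⟩
  refine ⟨fambP top (fun (a : Fin (2 ^ u)) (b : Fin (2 ^ u + 1)) => (a * θ' + b * q + β') / d,
    c, j1, j2, G), Finset.mem_filter.2 ⟨Finset.mem_image_of_mem _
      (Finset.mem_product.2 ⟨hf, Finset.mem_univ _⟩), ?_⟩, fun x τ hx => ?_⟩
  · let A : Fin 3 → Set (Sx u J) := fun i => {x | (x top : ℕ) = c i}
    let B : Set (Sx u J) := {x | ((x j1 : ℕ) * θ' + (x j2 : ℕ) * q + β') / d ≠
      ((x j1 : ℕ) * θ' + ((x j2 : ℕ) + 1) * q + β') / d}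
    have hA : ∀ i, 2 ^ u * (A i).ncard ≤ 2 ^ (u * J) := fun i =>
      famb_count top _ fun x hx y hy _ => Fin.ext (hx.trans hy.symm)
    have hB : 2 ^ u * B.ncard ≤ 2 ^ (u * J) := by
      refine famb_count j2 _ fun x hx y hy hxy => ?_
      rcases h4 with h4 | h4
      · exact absurd (by rw [h4]; simp) hx
      · have e := hxy j1 h4
        have hx' : _ ≠ _ := hx
        have hy' : _ ≠ _ := hy
        rw [e] at hx'
        rcases lt_trichotomy (x j2) (y j2) with h | h | h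
        · exact (famb_jump hd h3 h (y j2).2 β' hx' hy').elim
        · exact h
        · exact (famb_jump hd h3 h (x j2).2 β' hy' hx').elim
    have hsub : {x | fambP top (fun (a : Fin (2 ^ u)) (b : Fin (2 ^ u + 1)) =>
        (a * θ' + b * q + β') / d, c, j1, j2, G) x = none} ⊆ A 0 ∪ A 1 ∪ A 2 ∪ B := by
      intro x hx
      have hx' : fambP top _ x = none := hx
      unfold fambP at hx'
      split_ifs at hx' with hc
      rcases hc with ⟨i, hi⟩ | hc
      · fin_cases i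
        · exact Or.inl (Or.inl (Or.inl hi))
        · exact Or.inl (Or.inl (Or.inr hi))
        · exact Or.inl (Or.inr hi)
      · exact Or.inr hc
    have c1 := Set.ncard_le_ncard hsub (Set.toFinite _)
    have c2 := Set.ncard_union_le (A 0 ∪ A 1 ∪ A 2) B
    have c3 := Set.ncard_union_le (A 0 ∪ A 1) (A 2)
    have c4 := Set.ncard_union_le (A 0) (A 1)
    have c5 := Nat.mul_le_mul_left (2 ^ u) (c1.trans (c2.trans (Nat.add_le_add_right
      (c3.trans (Nat.add_le_add_right c4 _)) _)))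
    rw [mul_add, mul_add, mul_add] at c5
    have := hA 0
    have := hA 1
    have := hA 2
    omega
  · unfold fambP at hx
    split_ifs at hx with hc
    rw [not_or, not_exists, not_not] at hc
    obtain ⟨r, hr, hv⟩ := h5 x
    have e1 : (fun i => decide (val u om x < θ i)) = fun i => decide ((x top : ℕ) < c i) :=
      funext fun i => decide_eq_decide.2 (famb_thr hom top htop x (θ i) (hc.1 i)).symm
    have e2 : ((x j1 : ℕ) * θ' + (x j2 : ℕ) * q + β') / d =
        ((x j1 : ℕ) * θ' + ((x j2 : ℕ) + 1) * q + β') / d := hc.2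
    have e3 : ((x j1 : ℕ) * θ' + (x j2 : ℕ) * q + β' + r) / d =
        ((x j1 : ℕ) * θ' + (x j2 : ℕ) * q + β') / d := by
      refine le_antisymm ?_ (Nat.div_le_div_right (by omega))
      rw [e2]
      exact Nat.div_le_div_right (by rw [add_mul, one_mul]; omega)
    rw [e1, famb_div hv, e3]
    exact Option.some.inj hx

end Vale.Agent.P329
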