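import Vale.Agent.P329.Aut
import Vale.Agent.P329.FamA
import Vale.Agent.P329.FamB

namespace Vale.Agent.P329

open Classical

variable {α M H R : Type} [Monoid M] [AddCommGroup H]

theorem Par.aev_eq (P : Par α M H R) (hP : P.Ok) (ω : ℕ → α) (τ x e : ℕ) (he : 1 ≤ e)
    (hx : x < P.D1) :
    P.aev ω (τ + x) e =
      (tyv P.f P.cd P.D1 P.Lh P.A ω (τ + (e - 1) * P.C0 + P.A) x).2 *
        (tyv P.f P.cd P.D1 P.Lh P.A ω (τ + e * P.C0 + P.A) x).1 := by
  obtain ⟨e, rfl⟩ := Nat.exists_eq_add_of_le' he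
  unfold Par.aev Par.tev tyv
  rw [Nat.add_sub_cancel, show τ + x + e * P.C0 + P.A = τ + e * P.C0 + P.A + x by omega,
    show τ + x + (e + 1) * P.C0 + P.A = τ + (e + 1) * P.C0 + P.A + x by omega]
  have h1 := ev_le P.cd P.D1 P.Lh (seg ω (τ + e * P.C0 + P.A + x) (2 * P.Lh)) (seg_length _ _ _)
    hP.hLh
  generalize ev P.cd P.D1 P.Lh (seg ω (τ + e * P.C0 + P.A + x) (2 * P.Lh)) = ε at h1
  generalize ev P.cd P.D1 P.Lh (seg ω (τ + (e + 1) * P.C0 + P.A + x) (2 * P.Lh)) = ε'
  have h2 : (e + 1) * P.C0 = e * P.C0 + (P.A + 2 * P.Lh) := add_one_mul _ _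
  rw [← ph_append, show τ + (e + 1) * P.C0 + P.A + x + ε' - (τ + e * P.C0 + P.A + x + ε) =
    (P.A + 2 * P.Lh - (x + ε)) + (x + ε') by omega, seg_add,
    show τ + e * P.C0 + P.A + x + ε + (P.A + 2 * P.Lh - (x + ε)) = τ + (e + 1) * P.C0 + P.A by
      omega]

/-- The type with index `e` read from a tuple of type functions. -/
noncomputable def env_t {X : Type} {E : ℕ} (T : Fin E → X → Option (M × M)) (x : X) (e : ℕ) :
    M × M := if h : e < E then (T ⟨e, h⟩ x).getD 1 else 1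

/-- The hash computed from a tuple of type functions. -/
noncomputable def env_g {X : Type} {E : ℕ} (lam : ℕ → M → H) (T : Fin E → X → Option (M × M))
    (x : X) : Option H :=
  if ∃ e, T e x = none then none
  else some (∑ i ∈ Finset.Ico 1 E, lam i ((env_t T x (i - 1)).2 * (env_t T x i).1))

theorem env_none {X : Type} [Finite X] {E : ℕ} (lam : ℕ → M → H)
    (T : Fin E → X → Option (M × M)) :
    {x | env_g lam T x = none}.ncard ≤ ∑ e, {x | T e x = none}.ncard := by
  refine le_trans (Set.ncard_le_ncard (t := ⋃ e, {x | T e x = none}) ?_ (Set.toFinite _))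
    (Set.ncard_iUnion_le_of_fintype _)
  intro x hx
  by_contra h
  have h1 : ¬ ∃ e, T e x = none := by simpa using h
  simp [env_g, h1] at hx

theorem env_family [Fintype α] [Fintype M] (u J E : ℕ) (hJ : 1 ≤ J) (lam : ℕ → M → H) :
    ∃ F : Finset (Sx u J → Option H),
      F.card ≤ (J ^ 2 * (Fintype.card M ^ 2) ^ (8 * (Fintype.card M).factorial) *
        (Fintype.card M).factorial ^ 4 * 2 ^ (15 * u + 19)) ^ E ∧
      (∀ en ∈ F, 2 ^ u * {x | en x = none}.ncard ≤ 4 * E * 2 ^ (u * J)) ∧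
      ∀ (P : Par α M H R), P.Ok → P.E = E → P.lam = lam →
        P.D1 = Qs u (Fintype.card M).factorial J →
        Sg (Fintype.card α) P.D1 + (Fintype.card M + 11) * P.D1 ≤ P.Lh →
        ∀ (ω : ℕ → α) (τ : ℕ), ∃ en ∈ F, ∀ x h, en x = some h →
          P.hs ω (τ + val u (Fintype.card M).factorial x) 1 P.E = h := by
  have hom : 1 ≤ (Fintype.card M).factorial := Nat.factorial_pos _
  obtain ⟨F, h1, h2, h3⟩ := type_family u J _ hom hJ (M × M)
  rw [Fintype.card_prod, ← sq] at h1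
  refine ⟨(Fintype.piFinset fun _ : Fin E => F).image (env_g lam), ?_, ?_, ?_⟩
  · refine Finset.card_image_le.trans ?_
    rw [Fintype.card_piFinset_const]
    exact Nat.pow_le_pow_left h1 E
  · intro en hen
    obtain ⟨T, hT, rfl⟩ := Finset.mem_image.1 hen
    refine (Nat.mul_le_mul_left _ (env_none lam T)).trans ?_
    rw [Finset.mul_sum]
    refine (Finset.sum_le_sum fun e _ => h2 _ (Fintype.mem_piFinset.1 hT e)).trans (le_of_eq ?_)
    rw [Finset.sum_const, Finset.card_univ, Fintype.card_fin, smul_eq_mul]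
    ring
  · intro P hP hE hl hD hL ω τ
    have key : ∀ e : Fin E, ∃ T ∈ F, ∀ x t, T x = some t →
        tyv P.f P.cd P.D1 P.Lh P.A ω (τ + e * P.C0 + P.A)
          (val u (Fintype.card M).factorial x) = t := by
      intro e
      obtain ⟨θ, d, β, G, hd, hG⟩ := ev_types P.f hP.hcd P.A hP.hD1 hL ω (τ + e * P.C0 + P.A)
      obtain ⟨T, hT, h4⟩ := h3 θ d β G hd
      exact ⟨T, hT, fun x t ht => (hG _ (hD ▸ val_lt u hom x)).trans (h4 x t ht)⟩
    choose T hT h4 using key
    refine ⟨env_g lam T, Finset.mem_image_of_mem _ (Fintype.mem_piFinset.2 hT), fun x h hx => ?_⟩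
    unfold env_g at hx
    split_ifs at hx with h5
    have h6 : ∀ e < E, env_t T x e = tyv P.f P.cd P.D1 P.Lh P.A ω (τ + e * P.C0 + P.A)
        (val u (Fintype.card M).factorial x) := by
      intro e he
      obtain ⟨t, ht⟩ := Option.ne_none_iff_exists'.1 fun h => h5 ⟨⟨e, he⟩, h⟩
      rw [h4 ⟨e, he⟩ x t ht, env_t, dif_pos he, ht]
      rfl
    rw [← Option.some.inj hx, Par.hs, hE, hl]
    refine Finset.sum_congr rfl fun i hi => ?_
    obtain ⟨h7, h8⟩ := Finset.mem_Ico.1 hi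
    rw [P.aev_eq hP ω τ _ i h7 (hD ▸ val_lt u hom x), h6 i h8, h6 (i - 1) (by omega)]

end Vale.Agent.P329
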