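import Vale.Agent.P329.Prob

namespace Vale.Agent.P329

open Classical

theorem poly_le_two_pow (C k : ℕ) : ∃ u0 : ℕ, ∀ u, u0 ≤ u → C * u ^ k ≤ 2 ^ u := by
  have h := (tendsto_pow_const_div_const_pow_of_one_lt k (one_lt_two (α := ℝ))).const_mul (C : ℝ)
  rw [mul_zero] at h
  obtain ⟨u0, h0⟩ := Filter.eventually_atTop.1 (h.eventually (gt_mem_nhds one_pos))
  refine ⟨u0, fun u hu => ?_⟩
  have h1 := h0 u hu
  rw [← mul_div_assoc, div_lt_one (by positivity)] at h1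
  exact_mod_cast h1.le

theorem num_half {m : ℕ} (hm : 1 ≤ m) : (1 - 1 / (m : ℝ)) ^ m ≤ 1 / 2 :=
  (Real.one_sub_div_pow_le_exp_neg (by exact_mod_cast hm)).trans Real.exp_neg_one_lt_half.le

theorem num_le {A i j k : ℕ} (hA : A ≤ 2 ^ i) (h : i + k ≤ j) :
    (A : ℝ) * (1 / 2) ^ j ≤ (1 / 2) ^ k := by
  have h1 : (A : ℝ) ≤ 2 ^ i := by exact_mod_cast hA
  have h2 : ((1 : ℝ) / 2) ^ j ≤ (1 / 2) ^ (i + k) :=
    pow_le_pow_of_le_one (by norm_num) (by norm_num) h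
  refine (mul_le_mul h1 h2 (by positivity) (by positivity)).trans (le_of_eq ?_)
  rw [pow_add, ← mul_assoc, ← mul_pow]
  norm_num

theorem num_lt {A i j : ℕ} (hA : A ≤ 2 ^ i) (h : i + 2 ≤ j) : 3 * ((A : ℝ) * (1 / 2) ^ j) < 1 := by
  have := num_le hA h
  linarith

theorem num_hm {N S x y q : ℝ} (hN : 1 ≤ N) (hS : 0 < S) (hx : 0 ≤ x) (h1 : 4 * N * x ≤ S)
    (hq : 0 < q) (h2 : 4 * N * y ≤ S * q) :
    (1 - 1 / N) * (1 + x / S) + y / S / q ≤ 1 - 1 / (2 * N) := by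
  have h0 : 0 < N := by linarith
  have h3 : x / S ≤ 1 / (4 * N) := by
    rw [div_le_div_iff₀ hS (by positivity)]
    linarith
  have h4 : y / S / q ≤ 1 / (4 * N) := by
    rw [div_div, div_le_div_iff₀ (by positivity) (by positivity)]
    linarith
  have h5 : 0 ≤ 1 / N * (x / S) := by positivity
  have h6 : 1 / N = 4 * (1 / (4 * N)) := by field_simp
  have h7 : 1 / (2 * N) = 2 * (1 / (4 * N)) := by
    field_simp
    ring
  linarith

theorem num_U {u : ℕ} (hu : 1 ≤ u) (h : 25 * u ^ 2 ≤ 2 ^ u) :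
    25 * u ^ 15 * u ^ 5 * (100 * u ^ 5 - u ^ 3) ^ (100 * u ^ 3) ≤
      u ^ 18 * (100 * u ^ 5) ^ (100 * u ^ 3) := by
  obtain ⟨m, hm⟩ : ∃ m, 100 * u ^ 2 = m + 1 :=
    ⟨100 * u ^ 2 - 1, (Nat.sub_add_cancel (Nat.succ_le_of_lt (by positivity))).symm⟩
  have h1 : 2 * m ^ (m + 1) ≤ (m + 1) ^ (m + 1) := by
    have h2 := num_half (Nat.le_add_left 1 m)
    have h3 : (0 : ℝ) < ((m + 1 : ℕ) : ℝ) := by positivity
    rw [one_sub_div h3.ne', div_pow, div_le_div_iff₀ (by positivity) two_pos, Nat.cast_add,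
      Nat.cast_one, add_sub_cancel_right, one_mul, mul_comm] at h2
    exact_mod_cast h2
  have e1 : 100 * u ^ 5 = u ^ 3 * (m + 1) := by rw [← hm]; ring
  have e2 : 100 * u ^ 3 = (m + 1) * u := by rw [← hm]; ring
  have e3 : u ^ 3 * (m + 1) - u ^ 3 = u ^ 3 * m := by rw [mul_add, mul_one, Nat.add_sub_cancel]
  have h4 := Nat.pow_le_pow_left h1 u
  rw [mul_pow, ← pow_mul, ← pow_mul] at h4
  rw [e1, e2, e3, mul_pow, mul_pow]
  have h5 := Nat.mul_le_mul_left (u ^ 18 * (u ^ 3) ^ ((m + 1) * u))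
    ((Nat.mul_le_mul_right _ h).trans h4)
  generalize (u ^ 3) ^ ((m + 1) * u) = a at h5 ⊢
  generalize (m + 1) ^ ((m + 1) * u) = b at h5 ⊢
  generalize m ^ ((m + 1) * u) = d at h5 ⊢
  linarith

theorem no_sys_param (n : ℕ) : ∃ u0 : ℕ, ∀ u, u0 ≤ u →
    ∀ (S V G R H Dl : Type) [Fintype S] [AddCommGroup V] [Fintype V] [Fintype R] [Fintype H]
      [Nonempty H] [Fintype Dl] (act : G → V → V)
      (SkF : Finset (S → Option (Fin (100 * u ^ 5) × R × G))) (EnF : Finset (S → Option H))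
      (RtF : Finset (Dl → R)),
      Fintype.card S = 2 ^ (u * (2 * u ^ 6)) → Fintype.card V = 2 ^ n →
      Fintype.card H ≤ u ^ 40 → Fintype.card Dl ≤ u ^ 300 →
      SkF.card ≤ 2 ^ (u ^ 14) → RtF.card ≤ 2 ^ (u ^ 14) → EnF.card ≤ 2 ^ (3000 * u ^ 16) →
      (∀ sk ∈ SkF, ∀ ρ, {x | ∃ j g, sk x = some (j, ρ, g)}.ncard ≤ 2) →
      (∀ en ∈ EnF, 2 ^ u * {x | en x = none}.ncard ≤ u ^ 20 * 2 ^ (u * (2 * u ^ 6))) →
      ∃ tb : R × H → S × V,
        IsEmpty (Sys act (100 * u ^ 5) (8 * u ^ 5) (50 * u ^ 15) (4 * u ^ 5) SkF EnF RtF tb) := by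
  obtain ⟨u1, hu1⟩ := poly_le_two_pow (2 ^ n * 10 ^ 9) 355
  refine ⟨max u1 (2 ^ n * 10 ^ 6), fun u hu S V G R H Dl _ _ _ _ _ _ _ act SkF EnF RtF
    hS hV hH hD h1 h2 h3 hsk hen => ?_⟩
  have hN : 1 ≤ 2 ^ n := Nat.one_le_two_pow
  have hu2 : 2 ^ n * 10 ^ 6 ≤ u := (le_max_right _ _).trans hu
  have hu3 : 10 ^ 6 ≤ u := by omega
  have hu0 : 1 ≤ u := by omega
  have hpw : ∀ {i j : ℕ}, i ≤ j → u ^ i ≤ u ^ j := fun h => Nat.pow_le_pow_right hu0 h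
  have hp : ∀ c k : ℕ, c ≤ 10 ^ 9 → k ≤ 355 → 2 ^ n * (c * u ^ k) ≤ 2 ^ u := fun c k hc hk => by
    refine le_trans ?_ (hu1 u ((le_max_left _ _).trans hu))
    rw [mul_assoc]
    exact Nat.mul_le_mul_left _ (Nat.mul_le_mul hc (hpw hk))
  have hp' : ∀ c k : ℕ, c ≤ 10 ^ 9 → k ≤ 355 → c * u ^ k ≤ 2 ^ u := fun c k hc hk =>
    (Nat.le_mul_of_pos_left _ hN).trans (hp c k hc hk)
  have : Nonempty S := Fintype.card_pos_iff.1 (by rw [hS]; positivity)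
  have hW1 : 8 * u ^ 5 * Fintype.card Dl + 100 * u ^ 5 * (50 * u ^ 17 * (2 * u ^ 5)) ≤
      10008 * u ^ 305 := by
    have e1 : 8 * u ^ 5 * Fintype.card Dl ≤ 8 * u ^ 5 * u ^ 300 := Nat.mul_le_mul_left _ hD
    have e2 := hpw (show 27 ≤ 305 by norm_num)
    linarith
  have hW2 : 8 * u ^ 5 * Fintype.card Dl + 100 * u ^ 5 * (25 * u ^ 15 * u ^ 5) ≤
      10008 * u ^ 305 := by
    have e1 : 8 * u ^ 5 * Fintype.card Dl ≤ 8 * u ^ 5 * u ^ 300 := Nat.mul_le_mul_left _ hD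
    have e2 := hpw (show 25 ≤ 305 by norm_num)
    have e3 := Nat.zero_le (u ^ 305)
    linarith
  obtain ⟨c, hc⟩ : ∃ c : ℝ, c = 1 - 1 / ((2 * 2 ^ n : ℕ) : ℝ) := ⟨_, rfl⟩
  have hN2 : (2 : ℝ) ≤ ((2 * 2 ^ n : ℕ) : ℝ) := by exact_mod_cast (by omega : 2 ≤ 2 * 2 ^ n)
  have hc0 : 1 / 2 ≤ c := by
    have := one_div_le_one_div_of_le two_pos hN2
    linarith
  have hc1 : c ≤ 1 := hc ▸ sub_le_self _ (by positivity)
  have hc2 : c ^ (u ^ 5) ≤ (1 / 2) ^ (13002 * u ^ 4) := by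
    have e1 : 2 * 2 ^ n * (13002 * u ^ 4) ≤ u ^ 5 := by
      have e2 := Nat.mul_le_mul_right (u ^ 4) 
        ((Nat.mul_le_mul_left (2 ^ n) (show 26004 ≤ 10 ^ 6 by norm_num)).trans hu2)
      linarith
    refine (pow_le_pow_of_le_one (by linarith) hc1 e1).trans ?_
    rw [pow_mul]
    exact pow_le_pow_left₀ (by positivity) (hc ▸ num_half (by omega)) _
  have hamb : 4 * Fintype.card V * (u ^ 20 * 2 ^ (u * (2 * u ^ 6)) / 2 ^ u * Fintype.card H) ≤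
      Fintype.card S := by
    have e1 := Nat.div_mul_le_self (u ^ 20 * 2 ^ (u * (2 * u ^ 6))) (2 ^ u)
    rw [hV, hS]
    generalize u ^ 20 * 2 ^ (u * (2 * u ^ 6)) / 2 ^ u = amb at e1 ⊢
    have e2 := Nat.mul_le_mul_left amb (hp 4 60 (by norm_num) (by norm_num))
    have e3 := Nat.mul_le_mul_left (u ^ 20 * (4 * 2 ^ n * amb)) hH
    refine Nat.le_of_mul_le_mul_left ?_ (show 0 < u ^ 20 by positivity)
    linarith
  have hm : ∀ W l : ℕ, W ≤ 10008 * u ^ 305 → l ≤ 2 * u ^ 5 →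
      (1 - 1 / (Fintype.card V : ℝ)) *
        (1 + (u ^ 20 * 2 ^ (u * (2 * u ^ 6)) / 2 ^ u * Fintype.card H : ℕ) / (Fintype.card S : ℝ))
      + (2 * (100 * u ^ 5) * W : ℕ) / (Fintype.card S : ℝ) / (c ^ l * (1 / 2) ^ (u ^ 7)) ≤ c := by
    intro W l hW hl
    have e1 : 4 * Fintype.card V * (2 * (100 * u ^ 5) * W) ≤ 2 ^ u := by
      have e2 := hp 8006400 310 (by norm_num) (by norm_num)
      have e3 := Nat.mul_le_mul_left (4 * 2 ^ n * (2 * (100 * u ^ 5))) hW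
      rw [hV]
      linarith
    have e2 : u + (l + u ^ 7) ≤ u * (2 * u ^ 6) := by
      have e3 := hpw (show 1 ≤ 5 by norm_num)
      have e4 := hpw (show 6 ≤ 7 by norm_num)
      have e5 := Nat.mul_le_mul_right (u ^ 5) (show 3 ≤ u by omega)
      linarith
    have e3 : ((2 : ℝ) ^ u) ≤ (Fintype.card S : ℝ) * (c ^ l * (1 / 2) ^ (u ^ 7)) := by
      have e4 : ((1 : ℝ) / 2) ^ (l + u ^ 7) ≤ c ^ l * (1 / 2) ^ (u ^ 7) := by
        rw [pow_add]
        exact mul_le_mul_of_nonneg_right (pow_le_pow_left₀ (by norm_num) hc0 _) (by positivity)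
      refine le_trans ?_ (mul_le_mul_of_nonneg_left e4 (Nat.cast_nonneg _))
      rw [hS, one_div_pow, mul_one_div, le_div_iff₀ (by positivity), ← pow_add]
      push_cast
      exact pow_le_pow_right₀ one_le_two e2
    have e4 := num_hm (N := (Fintype.card V : ℝ)) (S := (Fintype.card S : ℝ))
      (x := (u ^ 20 * 2 ^ (u * (2 * u ^ 6)) / 2 ^ u * Fintype.card H : ℕ))
      (y := (2 * (100 * u ^ 5) * W : ℕ)) (q := c ^ l * (1 / 2) ^ (u ^ 7))
      (by rw [hV]; exact_mod_cast hN) (by rw [hS]; positivity) (Nat.cast_nonneg _)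
      (by exact_mod_cast hamb) (by positivity) (le_trans (by exact_mod_cast e1) e3)
    refine e4.trans (le_of_eq ?_)
    rw [hc, hV]
    push_cast
    rfl
  have hst : ∀ W : ℕ, W ≤ 10008 * u ^ 305 →
      W * Fintype.card H * Fintype.card V * (100 * u ^ 5) ^ (1 + 1) ≤ 2 ^ u := by
    intro W hW
    have e1 := Nat.mul_le_mul_right (2 ^ n * (100 * u ^ 5) ^ 2) (Nat.mul_le_mul hW hH)
    have e2 := hp 100080000 355 (by norm_num) (by norm_num)
    rw [hV, one_add_one_eq_two]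
    linarith
  have hK := hp' 100 5 (by norm_num) (by norm_num)
  have hK1 : 1 ≤ 100 * u ^ 5 := Nat.succ_le_of_lt (by positivity)
  have hF : SkF.card ^ (100 * u ^ 5) * RtF.card ^ (8 * u ^ 5) ≤ 2 ^ (108 * u ^ 19) := by
    refine (Nat.mul_le_mul (Nat.pow_le_pow_left h1 _) (Nat.pow_le_pow_left h2 _)).trans
      (le_of_eq ?_)
    rw [← pow_mul, ← pow_mul, ← pow_add]
    congr 1
    ring
  have hF2 : SkF.card ^ (100 * u ^ 5) * RtF.card ^ (8 * u ^ 5) * EnF.card ^ (100 * u ^ 5) ≤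
      2 ^ (108 * u ^ 19 + 3000 * u ^ 16 * (100 * u ^ 5)) := by
    rw [pow_add, pow_mul 2 (3000 * u ^ 16)]
    exact Nat.mul_le_mul hF (Nat.pow_le_pow_left h3 _)
  have p1 := hpw (show 19 ≤ 21 by norm_num)
  have p2 := hpw (show 0 ≤ 19 by norm_num)
  have p3 := hpw (show 1 ≤ 4 by norm_num)
  have p4 := hpw (show 4 ≤ 19 by norm_num)
  refine no_sys act _ _ _ SkF EnF RtF (u ^ 5) (50 * u ^ 17) (u ^ 15) (u ^ 3) (25 * u ^ 15)
    (100 * u ^ 3) (u ^ 18) (u ^ 20 * 2 ^ (u * (2 * u ^ 6)) / 2 ^ u) ((1 / 2) ^ (7000 * u ^ 4))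
    ((1 / 2) ^ (13000 * u ^ 4)) ((1 / 2) ^ (u ^ 7)) c (Nat.succ_le_of_lt (by positivity)) hK1
    (Nat.succ_le_of_lt (by positivity)) (le_of_eq (by ring)) (le_of_eq (by ring))
    (le_of_eq (by ring)) (num_U hu0 (hp' 25 2 (by norm_num) (by norm_num))) (by linarith) hc1
    (by positivity) (pow_le_one₀ (by norm_num) (by norm_num)) (by positivity)
    (pow_le_one₀ (by norm_num) (by norm_num)) (by positivity)
    (pow_le_one₀ (by norm_num) (by norm_num)) hsk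
    (fun en he => (Nat.le_div_iff_mul_le (by positivity)).2 ((mul_comm _ _).trans_le (hen en he)))
    ?_ ?_ (hm _ _ hW1 le_rfl) (hm _ _ hW2 (by omega)) ?_ ?_ ?_
  · refine le_trans (mul_le_mul_of_nonneg_left ((pow_le_pow_of_le_one (by linarith) hc1
      (by omega)).trans hc2) (Nat.cast_nonneg _)) (num_le (hst _ hW1) (by linarith))
  · refine le_trans (mul_le_mul_of_nonneg_left hc2 (Nat.cast_nonneg _))
      (num_le (i := u + u * u ^ 3) ?_ (by linarith))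
    rw [pow_add, pow_add, pow_mul, ← mul_assoc]
    refine Nat.mul_le_mul (le_trans ?_ (hst _ hW2)) (Nat.pow_le_pow_left hK _)
    exact Nat.mul_le_mul_left _ (Nat.pow_le_pow_right hK1 (by norm_num))
  · rw [← pow_mul]
    exact num_lt hF2 (by linarith)
  · rw [← pow_mul]
    have e1 := Nat.mul_le_mul_right (u ^ 21) hu3
    exact num_lt hF2 (by linarith)
  · have e1 : SkF.card ^ (100 * u ^ 5) * RtF.card ^ (8 * u ^ 5) *
        (100 * u ^ 5 * EnF.card) ^ (100 * u ^ 3) * Fintype.card H ^ u ^ 18 ≤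
        2 ^ (108 * u ^ 19 + (u + 3000 * u ^ 16) * (100 * u ^ 3) + u * u ^ 18) := by
      rw [pow_add, pow_add, pow_mul 2 (u + 3000 * u ^ 16), pow_mul 2 u, pow_add 2 u]
      have e2 := hp' 1 40 (by norm_num) (by norm_num)
      exact Nat.mul_le_mul (Nat.mul_le_mul hF (Nat.pow_le_pow_left (Nat.mul_le_mul hK h3) _))
        (Nat.pow_le_pow_left (by omega) _)
    have e2 := num_lt (j := 13000 * u ^ 4 * (25 * u ^ 15)) e1 (by linarith)
    generalize SkF.card ^ (100 * u ^ 5) * RtF.card ^ (8 * u ^ 5) *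
      (100 * u ^ 5 * EnF.card) ^ (100 * u ^ 3) = A at e2 ⊢
    rwa [Nat.cast_mul, Nat.cast_pow, pow_mul, mul_assoc, mul_comm ((Fintype.card H : ℝ) ^ _)] at e2

end Vale.Agent.P329
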