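import Vale.Agent.P329.Cut
import Vale.Agent.P329.Env
import Vale.Agent.P329.Num

namespace Vale.Agent.P329

open Classical

/-- The hash of an event. -/
noncomputable def lamC {M : Type} [Fintype M] (r e : ℕ) (m : M) : ZMod r × ZMod r :=
  if e = 0 then 0
  else ((((Fintype.equivFin M m : ℕ) : ZMod r)), ((e * (Fintype.equivFin M m : ℕ) : ℕ) : ZMod r))

theorem conc_cast {r a b c d : ℕ} (h1 : a + d < r) (h2 : c + b < r)
    (h : (a : ZMod r) - b = c - d) : a + d = c + b := by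
  have h3 : ((a + d : ℕ) : ZMod r) = ((c + b : ℕ) : ZMod r) := by
    push_cast
    linear_combination h
  rw [ZMod.natCast_eq_natCast_iff'] at h3
  rwa [Nat.mod_eq_of_lt h1, Nat.mod_eq_of_lt h2] at h3

theorem lamC_sep {M : Type} [Fintype M] {r E : ℕ} (hr : 2 * Fintype.card M * E < r)
    (e e' : ℕ) (m1 m2 m3 m4 : M) (h1 : 1 ≤ e) (h2 : e < E) (h3 : 1 ≤ e') (h4 : e' < E)
    (hm : m1 ≠ m2) (h : lamC r e m1 - lamC r e m2 = lamC r e' m3 - lamC r e' m4) : e = e' := by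
  have he : e ≠ 0 := by omega
  have he' : e' ≠ 0 := by omega
  simp only [lamC, if_neg he, if_neg he', Prod.mk_sub_mk, Prod.mk.injEq] at h
  obtain ⟨ha, hb⟩ := h
  have hne : (Fintype.equivFin M m1 : ℕ) ≠ (Fintype.equivFin M m2 : ℕ) := fun hh =>
    hm ((Fintype.equivFin M).injective (Fin.ext hh))
  have l1 := (Fintype.equivFin M m1).2
  have l2 := (Fintype.equivFin M m2).2
  have l3 := (Fintype.equivFin M m3).2
  have l4 := (Fintype.equivFin M m4).2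
  generalize (Fintype.equivFin M m1 : ℕ) = i1 at *
  generalize (Fintype.equivFin M m2 : ℕ) = i2 at *
  generalize (Fintype.equivFin M m3 : ℕ) = i3 at *
  generalize (Fintype.equivFin M m4 : ℕ) = i4 at *
  generalize Fintype.card M = n at *
  have hnE : n ≤ n * E := Nat.le_mul_of_pos_right n (by omega)
  have hr' : 2 * (n * E) < r := by rwa [mul_assoc] at hr
  have k : ∀ x i : ℕ, x < E → i < n → x * i ≤ n * E := fun x i hx hi => by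
    rw [mul_comm n E]
    exact Nat.mul_le_mul hx.le hi.le
  have e1 := conc_cast (by omega) (by omega) ha
  have k1 := k e i1 h2 l1
  have k2 := k e i2 h2 l2
  have k3 := k e' i3 h4 l3
  have k4 := k e' i4 h4 l4
  have e2 := conc_cast (by omega) (by omega) hb
  have e1' : (i1 : ℤ) + i4 = i3 + i2 := by exact_mod_cast e1
  have e2' : (e : ℤ) * i1 + e' * i4 = e' * i3 + e * i2 := by exact_mod_cast e2
  have e3 : ((e : ℤ) - e') * ((i1 : ℤ) - i2) = 0 := by linear_combination e2' - (e' : ℤ) * e1'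
  rcases mul_eq_zero.1 e3 with h5 | h5 <;> omega

theorem exists_offsets (E : ℕ) (H V : Type) [Fintype H] [Fintype V] :
    ∃ dl : ℕ → H → V → ℕ,
      (∀ e h v, e < E → dl e h v < 2 * (E * Fintype.card H * Fintype.card V) ^ 3) ∧
      ∀ e1 h1 v1 e2 h2 v2 e3 h3 v3 e4 h4 v4, e1 < E → e2 < E → e3 < E → e4 < E →
        dl e1 h1 v1 + dl e4 h4 v4 = dl e3 h3 v3 + dl e2 h2 v2 →
        (e1, h1, v1) = (e2, h2, v2) ∨ (e1, h1, v1) = (e3, h3, v3) := by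
  have hc : Fintype.card (Fin E × H × V) = E * Fintype.card H * Fintype.card V := by
    simp [mul_assoc]
  obtain ⟨φ⟩ : Nonempty (Fin E × H × V ≃ Fin (E * Fintype.card H * Fintype.card V)) :=
    ⟨Fintype.equivFinOfCardEq hc⟩
  refine ⟨fun e h v => if he : e < E then
    sid (E * Fintype.card H * Fintype.card V) (φ (⟨e, he⟩, h, v)) else 0, ?_, ?_⟩
  · intro e h v he
    simp only [dif_pos he]
    exact sid_le (φ _).2
  · intro e1 h1 v1 e2 h2 v2 e3 h3 v3 e4 h4 v4 k1 k2 k3 k4 h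
    simp only [dif_pos k1, dif_pos k2, dif_pos k3, dif_pos k4] at h
    have key : ∀ {e e' : ℕ} {a a' : H} {v v' : V} (k : e < E) (k' : e' < E),
        (φ (⟨e, k⟩, a, v) : ℕ) = (φ (⟨e', k'⟩, a', v') : ℕ) → (e, a, v) = (e', a', v') := by
      intro e e' a a' v v' k k' hh
      have := φ.injective (Fin.ext hh)
      simp only [Prod.mk.injEq, Fin.mk.injEq] at this ⊢
      exact this
    exact (sid_sidon (φ _).2 (φ _).2 (φ _).2 (φ _).2 h).imp (key k1 k2) (key k1 k3)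

theorem conc_E {u : ℕ} (hu : 101 ≤ u) : 100 * u ^ 15 + 1 ≤ u ^ 16 := by
  have h1 : 1 ≤ u ^ 15 := Nat.one_le_pow _ _ (by omega)
  calc 100 * u ^ 15 + 1 ≤ 101 * u ^ 15 := by omega
    _ ≤ u * u ^ 15 := Nat.mul_le_mul_right _ hu
    _ = u ^ 16 := by ring

theorem conc_r {u n : ℕ} (hn : 1 ≤ n) (hu : 203 * n ≤ u) :
    2 * n * (100 * u ^ 15 + 1) + 1 ≤ u ^ 16 := by
  have h1 : 1 ≤ u ^ 15 := Nat.one_le_pow _ _ (by omega)
  have h2 : n ≤ n * u ^ 15 := Nat.le_mul_of_pos_right _ h1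
  calc 2 * n * (100 * u ^ 15 + 1) + 1 = 200 * (n * u ^ 15) + 2 * n + 1 := by ring
    _ ≤ 203 * (n * u ^ 15) := by omega
    _ = 203 * n * u ^ 15 := by ring
    _ ≤ u * u ^ 15 := Nat.mul_le_mul_right _ hu
    _ = u ^ 16 := by ring

theorem conc_Z {u E r c : ℕ} (hE : E ≤ u ^ 16) (hr : r ≤ u ^ 16) (hc : c ≤ u) :
    (E * (r * r) * c) ^ 3 ≤ u ^ 147 := by
  calc (E * (r * r) * c) ^ 3 ≤ (u ^ 16 * (u ^ 16 * u ^ 16) * u) ^ 3 := by gcongr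
    _ = u ^ 147 := by ring

theorem conc_Dl {u E Z : ℕ} (hu : 8 ≤ u) (hE : E ≤ u ^ 16) (hZ : Z ≤ u ^ 147) :
    2 * E * (2 * (2 * Z)) ≤ u ^ 300 := by
  calc 2 * E * (2 * (2 * Z)) = 8 * E * Z := by ring
    _ ≤ u * u ^ 16 * u ^ 147 := by gcongr
    _ = u ^ 164 := by ring
    _ ≤ u ^ 300 := Nat.pow_le_pow_right (by omega) (by norm_num)

theorem conc_exp {u : ℕ} (hu : 100 ≤ u) :
    (u * (2 * u ^ 6) + 1) + (100 * u ^ 5 + (u + 2 + (u * (2 * u ^ 6) + 1)) * (2 * u ^ 6 + 1) + u) * 2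
      ≤ u ^ 14 := by
  have h0 : 1 ≤ u := by omega
  have p : ∀ {a b : ℕ}, a ≤ b → u ^ a ≤ u ^ b := fun h => Nat.pow_le_pow_right h0 h
  have h1 : u ≤ u ^ 6 := by simpa using p (a := 1) (b := 6) (by norm_num)
  have h2 : u ≤ u ^ 7 := by simpa using p (a := 1) (b := 7) (by norm_num)
  have h3 : u ^ 7 ≤ u ^ 13 := p (by norm_num)
  have h4 : 100 * u ^ 5 ≤ u ^ 13 := by
    calc 100 * u ^ 5 ≤ u * u ^ 5 := Nat.mul_le_mul_right _ hu
      _ = u ^ 6 := by ring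
      _ ≤ u ^ 13 := p (by norm_num)
  have e1 : u * (2 * u ^ 6) = 2 * u ^ 7 := by ring
  have h5 : (u + 2 + (2 * u ^ 7 + 1)) * (2 * u ^ 6 + 1) ≤ 12 * u ^ 13 := by
    calc (u + 2 + (2 * u ^ 7 + 1)) * (2 * u ^ 6 + 1) ≤ (4 * u ^ 7) * (3 * u ^ 6) :=
          Nat.mul_le_mul (by omega) (by omega)
      _ = 12 * u ^ 13 := by ring
  have h6 : 100 * u ^ 13 ≤ u ^ 14 := by
    calc 100 * u ^ 13 ≤ u * u ^ 13 := Nat.mul_le_mul_right _ hu
      _ = u ^ 14 := by ring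
  rw [e1]
  omega

theorem conc_sk {u n : ℕ} (hu : 100 ≤ u) (hn : n ≤ u) :
    (2 ^ (u * (2 * u ^ 6)) + 1) * ((100 * u ^ 5 + 1) *
      (2 ^ (u + 2) * (2 ^ (u * (2 * u ^ 6)) + 1)) ^ (2 * u ^ 6 + 1) * n) ^ 2 ≤ 2 ^ (u ^ 14) := by
  have h1 : 2 ^ (u * (2 * u ^ 6)) + 1 ≤ 2 ^ (u * (2 * u ^ 6) + 1) := by
    have : 1 ≤ 2 ^ (u * (2 * u ^ 6)) := Nat.one_le_two_pow
    rw [pow_succ 2]
    omega
  have h2 : 100 * u ^ 5 + 1 ≤ 2 ^ (100 * u ^ 5) := Nat.lt_two_pow_self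
  have h3 : n ≤ 2 ^ u := hn.trans Nat.lt_two_pow_self.le
  calc _ ≤ 2 ^ (u * (2 * u ^ 6) + 1) * (2 ^ (100 * u ^ 5) *
        (2 ^ (u + 2) * 2 ^ (u * (2 * u ^ 6) + 1)) ^ (2 * u ^ 6 + 1) * 2 ^ u) ^ 2 := by gcongr
    _ = 2 ^ ((u * (2 * u ^ 6) + 1) +
        (100 * u ^ 5 + (u + 2 + (u * (2 * u ^ 6) + 1)) * (2 * u ^ 6 + 1) + u) * 2) := by
      rw [← pow_add, ← pow_mul, ← pow_add, ← pow_add, ← pow_mul, ← pow_add]
    _ ≤ 2 ^ (u ^ 14) := Nat.pow_le_pow_right (by norm_num) (conc_exp hu)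

theorem conc_rt {u c : ℕ} (hu : 100 ≤ u) (hc : c + 1 ≤ 2 ^ u) :
    (2 ^ (u + 2) * (c + 1)) ^ (2 * u ^ 6 + 1) ≤ 2 ^ (u ^ 14) := by
  have h0 : 1 ≤ u := by omega
  have h1 : 1 ≤ u ^ 6 := Nat.one_le_pow _ _ h0
  have h2 : (u + 2 + u) * (2 * u ^ 6 + 1) ≤ u ^ 14 := by
    calc (u + 2 + u) * (2 * u ^ 6 + 1) ≤ (3 * u) * (3 * u ^ 6) :=
          Nat.mul_le_mul (by omega) (by omega)
      _ = 9 * u ^ 7 := by ring
      _ ≤ u * u ^ 7 := Nat.mul_le_mul_right _ (by omega)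
      _ = u ^ 8 := by ring
      _ ≤ u ^ 14 := Nat.pow_le_pow_right h0 (by norm_num)
  calc _ ≤ (2 ^ (u + 2) * 2 ^ u) ^ (2 * u ^ 6 + 1) := by gcongr
    _ = 2 ^ ((u + 2 + u) * (2 * u ^ 6 + 1)) := by rw [← pow_add, ← pow_mul]
    _ ≤ 2 ^ (u ^ 14) := Nat.pow_le_pow_right (by norm_num) h2

theorem conc_en {u a b : ℕ} (hu : 100 ≤ u) (hp : 2 * u ^ 300 ≤ 2 ^ u) (ha : a ≤ u) (hb : b ≤ u) :
    ((2 * u ^ 6) ^ 2 * a * b * 2 ^ (15 * u + 19)) ^ (100 * u ^ 15 + 1) ≤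
      2 ^ (3000 * u ^ 16) := by
  have h0 : 1 ≤ u := by omega
  have h1 : (2 * u ^ 6) ^ 2 * a * b ≤ 2 ^ u := by
    calc (2 * u ^ 6) ^ 2 * a * b ≤ (u * u ^ 6) ^ 2 * u * u := by gcongr; omega
      _ = u ^ 16 := by ring
      _ ≤ u ^ 300 := Nat.pow_le_pow_right h0 (by norm_num)
      _ ≤ 2 ^ u := by omega
  have h2 : 1 ≤ u ^ 15 := Nat.one_le_pow _ _ h0
  have h3 : (u + (15 * u + 19)) * (100 * u ^ 15 + 1) ≤ 3000 * u ^ 16 := by
    calc (u + (15 * u + 19)) * (100 * u ^ 15 + 1) ≤ (17 * u) * (101 * u ^ 15) :=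
          Nat.mul_le_mul (by omega) (by omega)
      _ = 1717 * u ^ 16 := by ring
      _ ≤ 3000 * u ^ 16 := by omega
  calc _ ≤ (2 ^ u * 2 ^ (15 * u + 19)) ^ (100 * u ^ 15 + 1) := by gcongr
    _ = 2 ^ ((u + (15 * u + 19)) * (100 * u ^ 15 + 1)) := by rw [← pow_add, ← pow_mul]
    _ ≤ 2 ^ (3000 * u ^ 16) := Nat.pow_le_pow_right (by norm_num) h3

theorem conc_amb {u E : ℕ} (hu : 4 ≤ u) (hE : E ≤ u ^ 16) : 4 * E ≤ u ^ 20 := by
  calc 4 * E ≤ u * u ^ 16 := Nat.mul_le_mul hu hE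
    _ = u ^ 17 := by ring
    _ ≤ u ^ 20 := Nat.pow_le_pow_right (by omega) (by norm_num)

theorem conc_max (a b c d e g : ℕ) :
    ∃ u : ℕ, a ≤ u ∧ b ≤ u ∧ c ≤ u ∧ d ≤ u ∧ e ≤ u ∧ g ≤ u :=
  ⟨a + b + c + d + e + g, by omega, by omega, by omega, by omega, by omega, by omega⟩

theorem exists_fit {α M : Type} [Fintype α] [Monoid M] [Fintype M] (f : α → M) :
    ∃ (u J r : ℕ) (_ : NeZero r) (P : Par α M (ZMod r × ZMod r) (Rd u J)) (om : ℕ)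
      (tb : Rd u J × (ZMod r × ZMod r) → Sx u J × VV M)
      (dl : ℕ → ZMod r × ZMod r → VV M → ℕ) (Dm K Mg E' T : ℕ)
      (SkF : Finset (Sx u J → Option (Fin K × Rd u J × M)))
      (EnF : Finset (Sx u J → Option (ZMod r × ZMod r)))
      (RtF : Finset (Fin (2 * P.E) × Fin (2 * Dm) → Rd u J)),
      P.f = f ∧ Fit P om tb dl Dm ∧ Fam P om tb Dm K Mg E' T SkF EnF RtF := by
  obtain ⟨u0, hu0⟩ := no_sys_param (Fintype.card M)
  obtain ⟨u1, hu1⟩ := poly_le_two_pow 2 300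
  obtain ⟨cd, hcd⟩ := exists_injective_nat (List α)
  have hn : 1 ≤ Fintype.card M := Fintype.card_pos_iff.2 ⟨1⟩
  obtain ⟨u, a0, a1, a2, a3, a4, a5⟩ : ∃ u : ℕ, u0 ≤ u ∧ u1 ≤ u ∧ 203 * Fintype.card M ≤ u ∧
      2 ^ Fintype.card M ≤ u ∧ (Fintype.card M ^ 2) ^ (8 * (Fintype.card M).factorial) ≤ u ∧
      (Fintype.card M).factorial ^ 4 ≤ u :=
    conc_max _ _ _ _ _ _
  have hp := hu1 u a1
  have hu : 203 ≤ u := by omega
  have hu' : 1 ≤ u := by omega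
  have hom : 1 ≤ (Fintype.card M).factorial := Nat.factorial_pos _
  obtain ⟨J, hJ⟩ : ∃ J, J = 2 * u ^ 6 := ⟨_, rfl⟩
  obtain ⟨E, hE⟩ : ∃ E, E = 100 * u ^ 15 + 1 := ⟨_, rfl⟩
  obtain ⟨r, hr⟩ : ∃ r, r = 2 * Fintype.card M * E + 1 := ⟨_, rfl⟩
  have hJ1 : 1 ≤ J := by
    have : 1 ≤ u ^ 6 := Nat.one_le_pow _ _ hu'
    omega
  have hE1 : E ≤ u ^ 16 := hE ▸ conc_E (by omega)
  have hr1 : r ≤ u ^ 16 := by rw [hr, hE]; exact conc_r hn a2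
  have hr0 : NeZero r := ⟨by omega⟩
  have : Finite (VV M) := vv_finite M
  let : Fintype (VV M) := Fintype.ofFinite _
  have hV : Fintype.card (VV M) = 2 ^ Fintype.card M := by
    rw [← Nat.card_eq_fintype_card, vv_card]
  have hH : Fintype.card (ZMod r × ZMod r) = r * r := by simp [ZMod.card]
  obtain ⟨dl, hdl, hsid⟩ := exists_offsets E (ZMod r × ZMod r) (VV M)
  obtain ⟨Z, hZ⟩ : ∃ Z, Z = (E * Fintype.card (ZMod r × ZMod r) * Fintype.card (VV M)) ^ 3 :=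
    ⟨_, rfl⟩
  rw [← hZ] at hdl
  have hZ1 : Z ≤ u ^ 147 := by rw [hZ, hH, hV]; exact conc_Z hE1 hr1 a3
  have hZ2 : Z ≤ 2 ^ u := by
    have : u ^ 147 ≤ u ^ 300 := Nat.pow_le_pow_right hu' (by norm_num)
    omega
  obtain ⟨D1, hD1⟩ : ∃ D1, D1 = Qs u (Fintype.card M).factorial J := ⟨_, rfl⟩
  have hD1p : 1 ≤ D1 := hD1 ▸ Qs_pos u hom J
  obtain ⟨W, hW⟩ : ∃ W, W = Sg (Fintype.card α) D1 + (Fintype.card M + 11) * D1 := ⟨_, rfl⟩
  obtain ⟨D2, hD2⟩ : ∃ D2, D2 = 2 * (E * (2 ^ (u + 2) + 2 * (2 ^ (u + 2) * W))) + D1 + 1 :=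
    ⟨_, rfl⟩
  have hD2p : 1 ≤ D2 := by omega
  have hWL : W ≤ 2 ^ (u + 2) * W := Nat.le_mul_of_pos_left _ (by positivity)
  have hW2 : 2 * D1 ≤ W := by
    have : 2 * D1 ≤ (Fintype.card M + 11) * D1 := Nat.mul_le_mul_right _ (by omega)
    omega
  obtain ⟨SkF, s1, s2, s3⟩ := skel_family (α := α) (M := M) (H := ZMod r × ZMod r) u J
    (100 * u ^ 5) D2 hom (by omega)
  obtain ⟨EnF, n1, n2, n3⟩ := env_family (α := α) (M := M) (R := Rd u J) u J E hJ1 (lamC r)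
  obtain ⟨RtF, r1, r2⟩ := rd_family u hom J hD2p (Fin (2 * E) × Fin (2 * (2 * Z)))
    (fun p => (p.1 : ℕ) * (2 ^ (u + 2) + 2 * (2 ^ (u + 2) * W)) + (p.2 : ℕ))
  have hDl : Fintype.card (Fin (2 * E) × Fin (2 * (2 * Z))) ≤ u ^ 300 := by
    rw [Fintype.card_prod, Fintype.card_fin, Fintype.card_fin]
    exact conc_Dl (by omega) hE1 hZ1
  obtain ⟨tb, htb⟩ := hu0 u a0 (Sx u J) (VV M) M (Rd u J) (ZMod r × ZMod r)
    (Fin (2 * E) × Fin (2 * (2 * Z))) vact SkF EnF RtF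
    (by rw [Fintype.card_fun, Fintype.card_fin, Fintype.card_fin, ← pow_mul, hJ]) hV
    (by
      rw [hH]
      calc r * r ≤ u ^ 16 * u ^ 16 := Nat.mul_le_mul hr1 hr1
        _ = u ^ 32 := by ring
        _ ≤ u ^ 40 := Nat.pow_le_pow_right hu' (by norm_num))
    hDl (s1.trans (by rw [hJ]; exact conc_sk (by omega) (by omega)))
    (r1.trans (by
      rw [hJ]
      have : 1 ≤ u ^ 300 := Nat.one_le_pow _ _ hu'
      exact conc_rt (by omega) (by omega)))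
    (n1.trans (by rw [hJ, hE]; exact conc_en (by omega) hp a4 a5)) s2
    (fun en hen => (n2 en hen).trans (by
      rw [hJ]
      exact Nat.mul_le_mul_right _ (conc_amb (by omega) hE1)))
  have hOk : Par.Ok (α := α) (M := M) (H := ZMod r × ZMod r) (R := Rd u J)
      ⟨f, cd, D1, 2 ^ (u + 2) * W, 2 ^ (u + 2), E, D2, Qm u (Fintype.card M).factorial J D2,
        lamC r, fun l => rdZ u (Fintype.card M).factorial J D2 l,
        fun e => val u (Fintype.card M).factorial (tb e).1, fun e => (tb e).2⟩ :=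
    ⟨hcd, hD1p, hW2.trans hWL, Nat.one_le_two_pow, by show 1 ≤ E; omega, hD2p,
      Qm_pos u hom J hD2p, fun m => by simp [lamC]⟩
  refine ⟨u, J, r, hr0, ⟨f, cd, D1, 2 ^ (u + 2) * W, 2 ^ (u + 2), E, D2,
    Qm u (Fintype.card M).factorial J D2, lamC r,
    fun l => rdZ u (Fintype.card M).factorial J D2 l,
    fun e => val u (Fintype.card M).factorial (tb e).1, fun e => (tb e).2⟩,
    (Fintype.card M).factorial, tb, dl, 2 * Z, 100 * u ^ 5, 8 * u ^ 5, 50 * u ^ 15, 4 * u ^ 5,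
    SkF, EnF, RtF, rfl, ⟨hOk, hom, hu', hJ1, hD1, rfl, fun _ => rfl, fun _ => rfl, fun _ => rfl,
      hD2.ge, ?_, ?_, ?_, hdl, hsid, ?_⟩, ⟨s3 _ hOk rfl, ?_, r2, ?_, ?_, htb⟩⟩
  · exact Dvd.dvd.add dvd_rfl (Dvd.dvd.mul_left (Dvd.intro _ rfl) 2)
  · rw [pow_add]
    omega
  · show 2 * Z ≤ 2 ^ (u + 2)
    rw [pow_add]
    omega
  · intro e e' m1 m2 m3 m4 h1 h2 h3 h4 hm h
    exact lamC_sep (E := E) (by omega) e e' m1 m2 m3 m4 h1 h2 h3 h4 hm h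
  · exact n3 _ hOk rfl rfl hD1 (hW.ge.trans hWL)
  · show 2 * (50 * u ^ 15) + 1 ≤ E
    omega
  · have : u ≤ u ^ 5 := by simpa using Nat.pow_le_pow_right hu' (show 1 ≤ 5 by norm_num)
    omega

end Vale.Agent.P329
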