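import Vale.Agent.P329.Gen
import Vale.Agent.P329.Cnt

namespace Vale.Agent.P329

open Classical

variable {α M H : Type} [Monoid M] [AddCommGroup H]

/-- The families contain all realizable data and no surviving system exists. -/
structure Fam {u J : ℕ} (P : Par α M H (Rd u J)) (om : ℕ) (tb : Rd u J × H → Sx u J × VV M)
    (Dm K Mg E' T : ℕ) (SkF : Finset (Sx u J → Option (Fin K × Rd u J × M)))
    (EnF : Finset (Sx u J → Option H))
    (RtF : Finset (Fin (2 * P.E) × Fin (2 * Dm) → Rd u J)) : Prop where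
  hSk : ∀ (ω : ℕ → α) (mu : Fin K → ℕ), Enum P.cd P.D2 ω mu → ∀ i, skf P om ω mu i ∈ SkF
  hEn : ∀ (ω : ℕ → α) (τ : ℕ), ∃ en ∈ EnF, ∀ x h, en x = some h →
    P.hs ω (τ + val u om x) 1 P.E = h
  hRt : ∀ γ : ℤ, (fun p : Fin (2 * P.E) × Fin (2 * Dm) =>
    rdZ u om J P.D2 (γ - ((p.1 : ℕ) * P.C0 + (p.2 : ℕ) : ℕ))) ∈ RtF
  hE : 2 * E' + 1 ≤ P.E
  hK : 9 * Mg + 6 * T + 10 ≤ K
  hno : IsEmpty (Sys (vact (M := M)) K Mg E' T SkF EnF RtF tb)

/-- A bad family of cuts gives the hypothesis of the generation lemma. -/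
theorem cut_hno {R : Type} (P : Par α M H R) (dl : ℕ → H → VV M → ℕ) (v0 v : VV M) (ω : ℕ → α)
    (a b τ : ℕ) (ha : a ≤ τ) (hτ : τ + P.F ≤ a + b)
    (hv : P.run (Ctl.za 0 0 0 1, v0) ω 0 τ = (Ctl.za 0 0 0 1, v))
    (hno : ¬ ∃ u1 u2, seg ω a b = u1 ++ u2 ∧
      (seg ω 0 a ++ u1).foldl P.δ (Ctl.za 0 0 0 1, v0) ∈ P.Cand dl ∧
      ∀ c ∈ P.Cand dl, Alive P.δ (kap α M H) c u2 →
        u2.foldl P.δ c = (seg ω 0 a ++ seg ω a b).foldl P.δ (Ctl.za 0 0 0 1, v0)) :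
    ∀ n, n ≤ P.F → P.run (Ctl.za 0 0 0 1, v) ω τ n ∈ P.Cand dl →
      ∃ c ∈ P.Cand dl, Alive P.δ (kap α M H) c (seg ω (τ + n) (a + b - (τ + n))) ∧
        P.run c ω (τ + n) (a + b - (τ + n)) ≠ P.run (Ctl.za 0 0 0 1, v) ω τ (a + b - τ) := by
  intro n hn hc
  by_contra hcon
  apply hno
  have e1 : seg ω a b = seg ω a (τ + n - a) ++ seg ω (τ + n) (a + b - (τ + n)) := by
    have h1 : b = (τ + n - a) + (a + b - (τ + n)) := by omega
    have h2 : a + (τ + n - a) = τ + n := by omega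
    have h3 := seg_add ω a (τ + n - a) (a + b - (τ + n))
    rw [h2, ← h1] at h3
    exact h3
  have e2 : seg ω 0 a ++ seg ω a (τ + n - a) = seg ω 0 (τ + n) := by
    have h1 : τ + n = a + (τ + n - a) := by omega
    have h3 := seg_add ω 0 a (τ + n - a)
    rw [zero_add, ← h1] at h3
    exact h3.symm
  have e3 : seg ω 0 a ++ seg ω a b = seg ω 0 (τ + (a + b - τ)) := by
    have h1 : τ + (a + b - τ) = a + b := by omega
    have h3 := seg_add ω 0 a b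
    rw [zero_add] at h3
    rw [h1, h3]
  have r1 : ∀ m, (seg ω 0 (τ + m)).foldl P.δ (Ctl.za 0 0 0 1, v0) =
      P.run (Ctl.za 0 0 0 1, v) ω τ m := by
    intro m
    have h3 := P.run_add (Ctl.za 0 0 0 1, v0) ω 0 τ m
    rw [hv, zero_add] at h3
    exact h3
  refine ⟨seg ω a (τ + n - a), seg ω (τ + n) (a + b - (τ + n)), e1, ?_, ?_⟩
  · rw [e2, r1]
    exact hc
  · intro c hcc hal
    rw [e3, r1]
    by_contra hne
    exact hcon ⟨c, hcc, hal, hne⟩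

theorem good_cut {u J : ℕ} {P : Par α M H (Rd u J)} {om : ℕ}
    {tb : Rd u J × H → Sx u J × VV M} {dl : ℕ → H → VV M → ℕ} {Dm K Mg E' T : ℕ}
    {SkF : Finset (Sx u J → Option (Fin K × Rd u J × M))} {EnF : Finset (Sx u J → Option H)}
    {RtF : Finset (Fin (2 * P.E) × Fin (2 * Dm) → Rd u J)}
    (hF : Fit P om tb dl Dm) (hA : Fam P om tb Dm K Mg E' T SkF EnF RtF) (v0 : VV M)
    (p w : List α) (hw : K ≤ cnt P.cd P.D2 w) :
    ∃ u1 u2, w = u1 ++ u2 ∧ (p ++ u1).foldl P.δ (Ctl.za 0 0 0 1, v0) ∈ P.Cand dl ∧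
      ∀ c ∈ P.Cand dl, Alive P.δ (kap α M H) c u2 →
        u2.foldl P.δ c = (p ++ w).foldl P.δ (Ctl.za 0 0 0 1, v0) := by
  by_contra hcon
  have hK := hA.hK
  have hw0 : w ≠ [] := by
    rintro rfl
    rw [cnt_nil] at hw
    omega
  obtain ⟨a0, -⟩ := List.exists_mem_of_ne_nil w hw0
  obtain ⟨ω, hω⟩ := exists_seg a0 (p ++ w)
  rw [List.length_append, seg_add, zero_add] at hω
  obtain ⟨hp, hw'⟩ := List.append_inj hω (seg_length _ _ _)
  obtain ⟨a, ha⟩ : ∃ a, a = p.length := ⟨_, rfl⟩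
  obtain ⟨b, hb⟩ : ∃ b, b = w.length := ⟨_, rfl⟩
  rw [← ha] at hp
  rw [← ha, ← hb] at hw'
  rw [← hp, ← hw'] at hcon
  rw [← hw'] at hw
  obtain ⟨mu, hmono, hmark, hlo, hhi, hall⟩ := marks_enum P.cd hF.ok.hD2 ω a b K hw
  have hmu : Enum P.cd P.D2 ω mu :=
    ⟨hmono, hmark, fun t ht i j h1 h2 => hall t ht ((hlo i).trans h1) j h2⟩
  have hD2 := hF.hD2
  have hD : P.F + Qs u om J + 1 ≤ P.D2 := by
    rw [← hF.hD1]
    omega
  have ht : ∀ i, mu i ≤ a + b := fun i => by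
    have := hhi i
    omega
  have key : ∀ k : Fin Mg, ∃ (r : Fin K) (γ : ℤ) (sl : Fin E' → ℕ → Fin K)
      (ent : Fin E' → ℕ → Rd u J × H) (uu : Fin E' → ℕ → VV M),
      9 * (k : ℕ) + 1 ≤ r ∧ (r : ℕ) ≤ 9 * (k : ℕ) + 1 + 8 ∧ (∀ a, sl a 0 = r) ∧
      (∀ a, ∃ p : Fin (2 * P.E) × Fin (2 * Dm),
        (ent a 0).1 = rdZ u om J P.D2 (γ - ((p.1 : ℕ) * P.C0 + (p.2 : ℕ) : ℕ))) ∧
      (∀ a a', ent a 0 = ent a' 0 → a = a') ∧
      ∀ a n, n < T →
        (∃ g, skf P om ω mu (sl a n) (tb (ent a n)).1 =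
            some (sl a (n + 1), (ent a (n + 1)).1, g) ∧
          uu a (n + 1) = vact g (uu a n + (tb (ent a n)).2)) ∧
        (ent a (n + 1)).2 =
          P.hs ω (mu (sl a n) + 5 * P.D2 + 1 + val u om (tb (ent a n)).1) 1 P.E ∧
        uu a n + (tb (ent a n)).2 ≠ 0 := by
    intro k
    have hk := k.2
    have hi : 9 * (k : ℕ) + 1 < K := by omega
    have hj : 9 * (k : ℕ) + 8 < K := by omega
    obtain ⟨τ, v, h1, h2, hv⟩ := visits hF ω hmu v0 ⟨_, hi⟩ ⟨_, hj⟩ (by simp only; omega)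
    have h3 := hlo ⟨_, hi⟩
    have h4 := hhi ⟨_, hj⟩
    exact generation hF ω hmu (a + b) ht τ v ⟨_, hi⟩ ⟨_, hj⟩ (by simp only; omega)
      (by simp only) h1 h2 T E' (by simp only; omega) hA.hE
      (cut_hno P dl v0 v ω a b τ (by omega) (by omega) hv hcon)
  choose r γ sl ent uu hr1 hr2 hsl0 hent0 hinj hstep using key
  choose en hen1 hen2 using fun i : Fin K => hA.hEn ω (mu i + 5 * P.D2 + 1)
  refine hA.hno.false
    { sk := fun i => skf P om ω mu i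
      en := en
      rt := fun k p => rdZ u om J P.D2 (γ k - ((p.1 : ℕ) * P.C0 + (p.2 : ℕ) : ℕ))
      rs := r
      sl := sl
      ent := ent
      uu := uu
      hsk := hA.hSk ω mu hmu
      hen := hen1
      hrt := fun k => hA.hRt (γ k)
      rs_inj := ?_
      sl0 := hsl0
      ent0 := hent0
      ent0_inj := hinj
      step := fun k a t h => (hstep k a t h).1
      hash := ?_
      surv := fun k a t h => (hstep k a t h).2.2
      cross := fun i i' x j ρ g g' h1 h2 =>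
        skf_cross P hF.ok hF.hom hF.hu hD ω hmu i i' x j ρ g g' h1 h2 }
  · intro k k' hk
    have e : (r k : ℕ) = r k' := by rw [hk]
    have h1 := hr1 k
    have h2 := hr2 k
    have h3 := hr1 k'
    have h4 := hr2 k'
    exact Fin.ext (by omega)
  · intro k a t h x hx
    rw [(hstep k a t h).2.1]
    exact hen2 _ _ _ hx

end Vale.Agent.P329
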