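import Vale.Agent.P329.ProbD

namespace Vale.Agent.P329

open Classical

theorem Path.trans {St Ent Val : Type} {q : St → Option Ent} {tr : St → Val → Finset St}
    {nd : St → Finset St} {tb : Ent → Val} {s s' s'' : St} {Q Q' Q'' : Finset Ent}
    (h : Path q tr nd tb s Q s' Q') (h' : Path q tr nd tb s' Q' s'' Q'') :
    Path q tr nd tb s Q s'' Q'' := by
  induction h with
  | refl s Q => exact h'
  | free s s1 t Q Q1 h1 h2 _ ih => exact Path.free s s1 s'' Q Q'' h1 h2 (ih h')
  | query s s1 t e Q Q1 h1 h2 h3 _ ih => exact Path.query s s1 s'' e Q Q'' h1 h2 h3 (ih h')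

/-- Reachability of a heavy state in at most `n` steps. -/
def deferEv {St Ent Val : Type} (q : St → Option Ent) (tr : St → Val → Finset St)
    (nd : St → Finset St) (wt : St → ℝ) : ℕ → (Ent → Val) → St → Finset Ent → Prop
  | 0, _, s, _ => 1 ≤ wt s
  | n + 1, tb, s, Q => 1 ≤ wt s ∨ (q s = none ∧ ∃ s1 ∈ nd s, deferEv q tr nd wt n tb s1 Q) ∨
      ∃ e, q s = some e ∧ e ∉ Q ∧ ∃ s1 ∈ tr s (tb e), deferEv q tr nd wt n tb s1 (insert e Q)

section aux

variable {St Ent Val : Type} {q : St → Option Ent} {tr : St → Val → Finset St}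
  {nd : St → Finset St} {wt : St → ℝ}

theorem defer_succ (n : ℕ) (tb : Ent → Val) :
    ∀ (s : St) (Q : Finset Ent), deferEv q tr nd wt n tb s Q →
      deferEv q tr nd wt (n + 1) tb s Q := by
  induction n with
  | zero => intro s Q h; exact Or.inl h
  | succ n ih =>
    intro s Q h
    rcases h with h | ⟨h1, s1, h2, h3⟩ | ⟨e, h1, h2, s1, h3, h4⟩
    · exact Or.inl h
    · exact Or.inr (Or.inl ⟨h1, s1, h2, ih _ _ h3⟩)
    · exact Or.inr (Or.inr ⟨e, h1, h2, s1, h3, ih _ _ h4⟩)

theorem defer_mono {n m : ℕ} (hnm : n ≤ m) (tb : Ent → Val) (s : St) (Q : Finset Ent)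
    (h : deferEv q tr nd wt n tb s Q) : deferEv q tr nd wt m tb s Q := by
  induction hnm with
  | refl => exact h
  | step _ ih => exact defer_succ _ tb s Q ih

theorem defer_of_path {tb : Ent → Val} {s s' : St} {Q Q' : Finset Ent}
    (h : Path q tr nd tb s Q s' Q') (hw : 1 ≤ wt s') : ∃ n, deferEv q tr nd wt n tb s Q := by
  induction h with
  | refl s Q => exact ⟨0, hw⟩
  | free s s1 t Q Q1 h1 h2 _ ih =>
    obtain ⟨n, hn⟩ := ih hw
    exact ⟨n + 1, Or.inr (Or.inl ⟨h1, s1, h2, hn⟩)⟩
  | query s s1 t e Q Q1 h1 h2 h3 _ ih =>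
    obtain ⟨n, hn⟩ := ih hw
    exact ⟨n + 1, Or.inr (Or.inr ⟨e, h1, h2, s1, h3, hn⟩)⟩

theorem defer_indep (n : ℕ) (tb tb' : Ent → Val) :
    ∀ (s : St) (Q : Finset Ent), (∀ e, e ∉ Q → tb e = tb' e) → deferEv q tr nd wt n tb s Q →
      deferEv q tr nd wt n tb' s Q := by
  induction n with
  | zero => intro s Q _ h; exact h
  | succ n ih =>
    intro s Q hQ h
    rcases h with h | ⟨h1, s1, h2, h3⟩ | ⟨e, h1, h2, s1, h3, h4⟩
    · exact Or.inl h
    · exact Or.inr (Or.inl ⟨h1, s1, h2, ih _ _ hQ h3⟩)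
    · refine Or.inr (Or.inr ⟨e, h1, h2, s1, ?_, ih _ _ ?_ h4⟩)
      · rw [← hQ e h2]; exact h3
      · intro f hf
        exact hQ f fun hfQ => hf (Finset.mem_insert_of_mem hfQ)

theorem defer_fiber [Fintype Ent] [Fintype Val] (P : (Ent → Val) → Prop) (e : Ent) (v : Val)
    (hP : ∀ tb w, P tb → P (Function.update tb e w)) :
    (Finset.univ.filter fun tb : Ent → Val => tb e = v ∧ P tb).card * Fintype.card Val ≤
      (Finset.univ.filter P).card := by
  rw [← Finset.card_univ, ← Finset.card_product]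
  refine Finset.card_le_card_of_injOn (fun p => Function.update p.1 e p.2) ?_ ?_
  · intro p hp
    simp only [Finset.coe_product, Finset.coe_filter, Finset.mem_univ, true_and, Set.mem_prod,
      Set.mem_ofPred_eq] at hp ⊢
    exact hP _ _ hp.1.2
  · intro p hp p' hp' h
    simp only [Finset.coe_product, Finset.coe_filter, Finset.mem_univ, true_and, Set.mem_prod,
      Set.mem_ofPred_eq] at hp hp'
    have h2 : p.2 = p'.2 := by
      have := congrFun h e
      simpa using this
    refine Prod.ext ?_ h2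
    funext f
    by_cases hf : f = e
    · subst hf; rw [hp.1.1, hp'.1.1]
    · have := congrFun h f
      simpa [Function.update_of_ne hf] using this

theorem defer_triv [Fintype Ent] [Fintype Val] (P : (Ent → Val) → Prop) {x : ℝ} (hx : 1 ≤ x) :
    ((Finset.univ.filter P).card : ℝ) ≤ (Fintype.card Val : ℝ) ^ Fintype.card Ent * x := by
  have h1 : (Finset.univ.filter P).card ≤ Fintype.card Val ^ Fintype.card Ent := by
    rw [← Fintype.card_fun, ← Finset.card_univ]
    exact Finset.card_filter_le _ _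
  have h2 : ((Finset.univ.filter P).card : ℝ) ≤ (Fintype.card Val : ℝ) ^ Fintype.card Ent := by
    exact_mod_cast h1
  have h3 : (0 : ℝ) ≤ (Fintype.card Val : ℝ) ^ Fintype.card Ent := by positivity
  nlinarith

theorem defer_count [Fintype Ent] [Fintype Val] [Nonempty Val]
    (h0 : ∀ s, 0 ≤ wt s) (hnd : ∀ s, q s = none → ∑ s' ∈ nd s, wt s' ≤ wt s)
    (hq : ∀ s e, q s = some e → ∑ v, ∑ s' ∈ tr s v, wt s' ≤ Fintype.card Val * wt s) (n : ℕ) :
    ∀ (s : St) (Q : Finset Ent),
      ((Finset.univ.filter fun tb : Ent → Val => deferEv q tr nd wt n tb s Q).card : ℝ) ≤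
        (Fintype.card Val : ℝ) ^ Fintype.card Ent * wt s := by
  have hN : (0 : ℝ) ≤ (Fintype.card Val : ℝ) ^ Fintype.card Ent := by positivity
  have hV : (0 : ℝ) < (Fintype.card Val : ℝ) := by exact_mod_cast Fintype.card_pos
  induction n with
  | zero =>
    intro s Q
    by_cases hw : 1 ≤ wt s
    · exact defer_triv _ hw
    · have : (Finset.univ.filter fun tb : Ent → Val => deferEv q tr nd wt 0 tb s Q) = ∅ := by
        refine Finset.filter_eq_empty_iff.2 fun tb _ h => hw h
      rw [this]
      simpa using mul_nonneg hN (h0 s)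
  | succ n ih =>
    intro s Q
    by_cases hw : 1 ≤ wt s
    · exact defer_triv _ hw
    cases hqs : q s with
    | none =>
      have hsub : (Finset.univ.filter fun tb : Ent → Val => deferEv q tr nd wt (n + 1) tb s Q) ⊆
          (nd s).biUnion fun s1 =>
            Finset.univ.filter fun tb : Ent → Val => deferEv q tr nd wt n tb s1 Q := by
        intro tb htb
        rcases (Finset.mem_filter.1 htb).2 with h | ⟨_, s1, h2, h3⟩ | ⟨e, h1, _⟩
        · exact absurd h hw
        · exact Finset.mem_biUnion.2 ⟨s1, h2, Finset.mem_filter.2 ⟨Finset.mem_univ _, h3⟩⟩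
        · rw [hqs] at h1; cases h1
      have h1 := (Finset.card_le_card hsub).trans Finset.card_biUnion_le
      have h2 : ((Finset.univ.filter fun tb : Ent → Val =>
          deferEv q tr nd wt (n + 1) tb s Q).card : ℝ) ≤ ∑ s1 ∈ nd s,
            ((Finset.univ.filter fun tb : Ent → Val => deferEv q tr nd wt n tb s1 Q).card : ℝ) := by
        exact_mod_cast h1
      refine h2.trans ?_
      refine (Finset.sum_le_sum fun s1 _ => ih s1 Q).trans ?_
      rw [← Finset.mul_sum]
      exact mul_le_mul_of_nonneg_left (hnd s hqs) hN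
    | some e =>
      have hsub : (Finset.univ.filter fun tb : Ent → Val => deferEv q tr nd wt (n + 1) tb s Q) ⊆
          Finset.univ.biUnion fun v : Val => (tr s v).biUnion fun s1 =>
            Finset.univ.filter fun tb : Ent → Val =>
              tb e = v ∧ deferEv q tr nd wt n tb s1 (insert e Q) := by
        intro tb htb
        rcases (Finset.mem_filter.1 htb).2 with h | ⟨h1, _⟩ | ⟨e', h1, _, s1, h3, h4⟩
        · exact absurd h hw
        · rw [hqs] at h1; cases h1
        · rw [hqs] at h1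
          obtain rfl : e = e' := Option.some.inj h1
          exact Finset.mem_biUnion.2 ⟨tb e, Finset.mem_univ _, Finset.mem_biUnion.2
            ⟨s1, h3, Finset.mem_filter.2 ⟨Finset.mem_univ _, rfl, h4⟩⟩⟩
      have h1 := (Finset.card_le_card hsub).trans (Finset.card_biUnion_le.trans
        (Finset.sum_le_sum fun v _ => Finset.card_biUnion_le))
      have h2 : ((Finset.univ.filter fun tb : Ent → Val =>
          deferEv q tr nd wt (n + 1) tb s Q).card : ℝ) ≤ ∑ v : Val, ∑ s1 ∈ tr s v,
            ((Finset.univ.filter fun tb : Ent → Val =>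
              tb e = v ∧ deferEv q tr nd wt n tb s1 (insert e Q)).card : ℝ) := by
        exact_mod_cast h1
      have h3 : ∀ (v : Val) (s1 : St), ((Finset.univ.filter fun tb : Ent → Val =>
            tb e = v ∧ deferEv q tr nd wt n tb s1 (insert e Q)).card : ℝ) * Fintype.card Val ≤
          (Fintype.card Val : ℝ) ^ Fintype.card Ent * wt s1 := by
        intro v s1
        refine le_trans ?_ (ih s1 (insert e Q))
        have := defer_fiber (fun tb : Ent → Val => deferEv q tr nd wt n tb s1 (insert e Q)) e v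
          (fun tb w h => defer_indep n tb _ s1 _ (fun f hf => by
            have hfe : f ≠ e := fun hfe => hf (hfe ▸ Finset.mem_insert_self e Q)
            rw [Function.update_of_ne hfe]) h)
        exact_mod_cast this
      refine le_of_mul_le_mul_right ?_ hV
      refine (mul_le_mul_of_nonneg_right h2 hV.le).trans ?_
      rw [Finset.sum_mul]
      have h4 : ∀ v : Val, (∑ s1 ∈ tr s v, ((Finset.univ.filter fun tb : Ent → Val =>
            tb e = v ∧ deferEv q tr nd wt n tb s1 (insert e Q)).card : ℝ)) * Fintype.card Val ≤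
          (Fintype.card Val : ℝ) ^ Fintype.card Ent * ∑ s1 ∈ tr s v, wt s1 := by
        intro v
        rw [Finset.sum_mul, Finset.mul_sum]
        exact Finset.sum_le_sum fun s1 _ => h3 v s1
      refine (Finset.sum_le_sum fun v _ => h4 v).trans ?_
      rw [← Finset.mul_sum, mul_assoc, mul_comm (wt s)]
      exact mul_le_mul_of_nonneg_left (hq s e hqs) hN

end aux

/-- Principle of deferred decisions with weights. -/
theorem deferred {St Ent Val : Type} [Fintype Ent] [Fintype Val] [Nonempty Val]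
    (q : St → Option Ent) (tr : St → Val → Finset St) (nd : St → Finset St) (wt : St → ℝ)
    (h0 : ∀ s, 0 ≤ wt s) (hnd : ∀ s, q s = none → ∑ s' ∈ nd s, wt s' ≤ wt s)
    (hq : ∀ s e, q s = some e → ∑ v, ∑ s' ∈ tr s v, wt s' ≤ Fintype.card Val * wt s)
    (s : St) (Q : Finset Ent) :
    ({tb : Ent → Val | ∃ s' Q', Path q tr nd tb s Q s' Q' ∧ 1 ≤ wt s'}.ncard : ℝ) ≤
      (Fintype.card Val : ℝ) ^ Fintype.card Ent * wt s := by
  have hex : ∀ tb : Ent → Val, ∃ n, (∃ s' Q', Path q tr nd tb s Q s' Q' ∧ 1 ≤ wt s') →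
      deferEv q tr nd wt n tb s Q := by
    intro tb
    by_cases h : ∃ s' Q', Path q tr nd tb s Q s' Q' ∧ 1 ≤ wt s'
    · obtain ⟨s', Q', h1, h2⟩ := h
      obtain ⟨n, hn⟩ := defer_of_path h1 h2
      exact ⟨n, fun _ => hn⟩
    · exact ⟨0, fun h' => absurd h' h⟩
  choose f hf using hex
  refine le_trans ?_ (defer_count h0 hnd hq (Finset.univ.sup f) s Q)
  rw [← Set.ncard_coe_finset]
  refine Nat.cast_le.2 (Set.ncard_le_ncard ?_ (Finset.finite_toSet _))
  intro tb htb
  simp only [Finset.coe_filter, Finset.mem_univ, true_and, Set.mem_ofPred_eq]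
  exact defer_mono (Finset.le_sup (Finset.mem_univ tb)) tb s Q (hf tb htb)

end Vale.Agent.P329
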