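import Mathlib

namespace Vale.Agent.P329

/-- Generalized regular expressions over the alphabet `α`. -/
inductive GRE (α : Type) : Type
  | zero : GRE α
  | one : GRE α
  | char : α → GRE α
  | add : GRE α → GRE α → GRE α
  | mul : GRE α → GRE α → GRE α
  | compl : GRE α → GRE α
  | star : GRE α → GRE α

/-- The language denoted by a generalized regular expression. -/
def GRE.lang {α : Type} : GRE α → Language α
  | GRE.zero => 0
  | GRE.one => 1
  | GRE.char a => {[a]}
  | GRE.add P Q => P.lang + Q.lang
  | GRE.mul P Q => P.lang * Q.lang
  | GRE.compl P => P.langᶜ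
  | GRE.star P => KStar.kstar P.lang

/-- The star height of a generalized regular expression. -/
def GRE.sh {α : Type} : GRE α → ℕ
  | GRE.zero => 0
  | GRE.one => 0
  | GRE.char _ => 0
  | GRE.add P Q => max P.sh Q.sh
  | GRE.mul P Q => max P.sh Q.sh
  | GRE.compl P => P.sh
  | GRE.star P => P.sh + 1

end Vale.Agent.P329
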