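import Vale.Agent.P329.Run

namespace Vale.Agent.P329

open Classical

variable {S V G R H Dl : Type} [AddCommGroup V] {act : G → V → V} {K M E' T : ℕ}
  {SkF : Finset (S → Option (Fin K × R × G))} {EnF : Finset (S → Option H)}
  {RtF : Finset (Dl → R)} {tb : R × H → S × V}

theorem extA_aux [Fintype V] [Fintype R] [Fintype H] (Y : Sys act K M E' T SkF EnF RtF tb)
    (L ρ0 : ℕ) (hL : 1 ≤ L) (hT : 2 * L ≤ T) (ρ : ℕ) (hρ : ρ ≤ ρ0) :
    ∃ (Q Bd : Finset (R × H)) (ρ' U : ℕ),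
      (Y.dat fun i => some (Y.en i)).P act 1 L (ρ0 * L) tb 0 0 0 ∅ ρ' Bd.card U Q ∧
      (Y.dat fun i => some (Y.en i)).Gd tb Q Bd ∧ Q.card ≤ ρ' * L ∧ ρ' ≤ ρ ∧
      (ρ' = ρ ∨ ∀ k a t, t ≤ L → Y.ent k a t ∈ Q) := by
  induction ρ with
  | zero => exact ⟨∅, ∅, 0, 0, Path.refl _ _, Dat.gd_empty _ _, by simp, le_rfl, Or.inl rfl⟩
  | succ ρ ih =>
    obtain ⟨Q, Bd, ρ', U, hP, hG, hQ, hle, hor⟩ := ih (by omega)
    by_cases hall : ∀ k a t, t ≤ L → Y.ent k a t ∈ Q
    · exact ⟨Q, Bd, ρ', U, hP, hG, hQ, by omega, Or.inr hall⟩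
    · have hρ' : ρ' = ρ := hor.resolve_right hall
      subst hρ'
      push Not at hall
      obtain ⟨k, a, hex⟩ := hall
      obtain ⟨t, ⟨htL, htQ⟩, hmin⟩ : ∃ t, (t ≤ L ∧ Y.ent k a t ∉ Q) ∧
          ∀ t' < t, ¬ (t' ≤ L ∧ Y.ent k a t' ∉ Q) :=
        ⟨Nat.find hex, Nat.find_spec hex, fun t' ht' => Nat.find_min hex ht'⟩
      have hk : (Y.dat fun i => some (Y.en i)).Known (Q.image fun e => (tb e).1)
          (Y.ent k a t).1 := by
        rcases t with _ | t
        · obtain ⟨δ, hδ⟩ := Y.ent0 k a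
          exact Or.inl ⟨k, δ, hδ.symm⟩
        · have h1 : Y.ent k a t ∈ Q := by
            by_contra h2
            exact hmin t (by omega) ⟨by omega, h2⟩
          obtain ⟨g, hg, -⟩ := Y.step k a t (by omega)
          exact Or.inr ⟨_, _, Finset.mem_image_of_mem _ h1, _, g, hg⟩
      have hNt : Q.card + L ≤ ρ0 * L := by
        have := Nat.mul_le_mul_right L hρ
        rw [Nat.succ_mul] at this
        omega
      obtain ⟨Q', Bd', U', hP', -, -, -, hc, hG', -⟩ := Dat.run_lemma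
        (Y.dat fun i => some (Y.en i)) act 1 L (ρ0 * L) hL tb Q Bd hG hNt ρ' U
        (fun n => Y.ent k a (t + n)) (fun n => Y.sl k a (t + n)) (fun n => Y.uu k a (t + n))
        (fun n _ => Y.sl k a (t + n)) (fun n hn => Y.step k a (t + n) (by omega))
        (fun n hn => Y.surv k a (t + n) (by omega))
        (fun n hn _ => by
          obtain ⟨g, hg, -⟩ := Y.step k a (t + n) (by omega)
          exact ⟨_, g, hg⟩)
        (fun n hn _ en h he hen => by
          have e : Y.en (Y.sl k a (t + n)) = en := Option.some.inj he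
          exact Y.hash k a (t + n) (by omega) h (by rw [e]; exact hen))
        htQ hk 0 (by
          have e : {n | n < L ∧ ∀ _ : Fin 1,
              (Y.dat fun i => some (Y.en i)).dic (Y.sl k a (t + n)) = none} = ∅ := by
            refine Set.eq_empty_of_forall_notMem fun n hn => ?_
            exact Option.some_ne_none _ (hn.2 0)
          rw [e, Set.ncard_empty]) (Nat.zero_le _)
      refine ⟨Q', Bd', ρ' + 1, U', Dat.P_trans hP hP', hG', ?_, le_rfl, Or.inl rfl⟩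
      rw [Nat.succ_mul]
      omega

/-- First exploration: many runs, many bad entries, or a small explored set. -/
theorem Sys.explore [Fintype V] [Fintype R] [Fintype H] (Y : Sys act K M E' T SkF EnF RtF tb)
    (L ρ0 β0 : ℕ) (hL : 1 ≤ L) (hT : 2 * L ≤ T) :
    (Y.dat fun i => some (Y.en i)).Acc act 1 L (ρ0 * L) ρ0 0 0 tb ∨
    (Y.dat fun i => some (Y.en i)).Acc act 1 L (ρ0 * L) 0 β0 0 tb ∨
    ∃ Q Bd, (Y.dat fun i => some (Y.en i)).Gd tb Q Bd ∧ Q.card ≤ ρ0 * L ∧ Bd.card ≤ β0 ∧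
      ∀ k a t, t ≤ L → Y.ent k a t ∈ Q := by
  obtain ⟨Q, Bd, ρ', U, hP, hG, hQ, hle, hor⟩ := extA_aux Y L ρ0 hL hT ρ0 le_rfl
  rcases hor with h | h
  · exact Or.inl ⟨ρ', _, U, Q, hP, h.ge, Nat.zero_le _⟩
  · by_cases hb : Bd.card ≤ β0
    · exact Or.inr (Or.inr ⟨Q, Bd, hG, hQ.trans (Nat.mul_le_mul_right L hle), hb, h⟩)
    · exact Or.inr (Or.inl ⟨ρ', _, U, Q, hP, Nat.zero_le _, by omega⟩)

end Vale.Agent.P329
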