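import Vale.Agent.P329.Run

namespace Vale.Agent.P329

open Classical

/-- A tuple of slices missing few of the given sets. -/
theorem exists_tuple {ι : Type} [Fintype ι] (K s1 g U : ℕ) (hK : 1 ≤ K)
    (p : ι → Fin s1 → Fin K) (hp : ∀ i, Function.Injective (p i))
    (h : Fintype.card ι * (K - s1) ^ g ≤ U * K ^ g) :
    ∃ Jt : Fin g → Fin K, {i | ∀ a j, Jt j ≠ p i a}.ncard ≤ U := by
  have : Nonempty (Fin K) := ⟨⟨0, hK⟩⟩
  have h1 : ∀ i, (Finset.univ.filter fun Jt : Fin g → Fin K => ∀ a j, Jt j ≠ p i a).card =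
      (K - s1) ^ g := by
    intro i
    have h2 : (Finset.univ.filter fun Jt : Fin g → Fin K => ∀ a j, Jt j ≠ p i a) =
        Fintype.piFinset fun _ : Fin g => (Finset.univ.image (p i))ᶜ := by
      ext Jt
      simp only [Finset.mem_filter, Finset.mem_univ, true_and, Fintype.mem_piFinset,
        Finset.mem_compl, Finset.mem_image, not_exists]
      exact ⟨fun h j a e => h a j e.symm, fun h a j e => h j a e.symm⟩
    rw [h2, Fintype.card_piFinset, Finset.prod_const, Finset.card_compl,
      Finset.card_image_of_injective _ (hp i)]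
    simp
  have h3 : ∑ Jt : Fin g → Fin K, (Finset.univ.filter fun i => ∀ a j, Jt j ≠ p i a).card ≤
      ∑ _Jt : Fin g → Fin K, U := by
    simp only [Finset.card_filter] at h1 ⊢
    rw [Finset.sum_comm]
    simp only [h1]
    simpa [mul_comm] using h
  obtain ⟨Jt, -, hJ⟩ := Finset.exists_le_of_sum_le Finset.univ_nonempty h3
  refine ⟨Jt, ?_⟩
  rwa [← Set.ncard_coe_finset, Finset.coe_filter_univ] at hJ

variable {S V G R H Dl : Type} [AddCommGroup V] {act : G → V → V} {K M E' T : ℕ}
  {SkF : Finset (S → Option (Fin K × R × G))} {EnF : Finset (S → Option H)}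
  {RtF : Finset (Dl → R)} {tb : R × H → S × V}

/-- Second exploration with a small dictionary. -/
theorem Sys.explore2 [Fintype V] [Fintype R] [Fintype H] (Y : Sys act K M E' T SkF EnF RtF tb)
    (L' s1 E'' g U : ℕ) (hL : 1 ≤ L') (hT : L' ≤ T) (hK : 1 ≤ K) (k : Fin M)
    (ι : Fin E'' → Fin E') (mem : Fin E'' → Fin s1 → Fin M × Fin E')
    (hι : Function.Injective ι)
    (hmem : ∀ a j t, t ≤ L' → Y.ent (mem a j).1 (mem a j).2 t = Y.ent k (ι a) t)
    (hinj : ∀ a t, t ≤ L' → Function.Injective fun j => Y.sl (mem a j).1 (mem a j).2 t)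
    (hU : E'' * L' * (K - s1) ^ g ≤ U * K ^ g) :
    ∃ Jt : Fin g → Fin K,
      (Y.dat (dicOf Jt fun j => Y.en (Jt j))).Acc act s1 L' (E'' * L') E'' 0 U tb := by
  obtain ⟨Jt, hJ⟩ := exists_tuple (ι := Fin E'' × Fin L') K s1 g U hK
    (fun i j => Y.sl (mem i.1 j).1 (mem i.1 j).2 i.2) (fun i => hinj i.1 i.2 i.2.2.le)
    (by simpa using hU)
  refine ⟨Jt, ?_⟩
  set Θ := Y.dat (dicOf Jt fun j => Y.en (Jt j)) with hΘ
  let un : Fin E'' → ℕ := fun a => (Finset.univ.filter fun t : Fin L' =>
    ∀ b j, Jt j ≠ Y.sl (mem a b).1 (mem a b).2 t).card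
  have hsum : ∑ a, un a ≤ U := by
    rw [← Finset.coe_filter_univ, Set.ncard_coe_finset, Finset.card_filter,
      Fintype.sum_prod_type] at hJ
    simpa only [un, Finset.card_filter] using hJ
  have key : ∀ n ≤ E'', ∃ Q Bd U', Θ.P act s1 L' (E'' * L') tb 0 0 U ∅ n (Finset.card Bd) U' Q ∧
      U ≤ U' + ∑ a : Fin E'' with a.1 < n, un a ∧ Q.card ≤ n * L' ∧ Θ.Gd tb Q Bd ∧
      ∀ e ∈ Q, (∃ a : Fin E'', a.1 < n ∧ e = Y.ent k (ι a) 0) ∨ ¬ Θ.Root e.1 := by
    intro n
    induction n with
    | zero =>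
      intro _
      exact ⟨∅, ∅, U, Path.refl _ _, Nat.le_add_right _ _, by simp, Θ.gd_empty tb, by simp⟩
    | succ n ih =>
      intro hn
      obtain ⟨Q, Bd, U', hP, hU', hQ, hG, hR⟩ := ih (by omega)
      let a : Fin E'' := ⟨n, hn⟩
      have hroot : Θ.Root (Y.ent k (ι a) 0).1 := by
        obtain ⟨δ, hδ⟩ := Y.ent0 k (ι a)
        exact ⟨k, δ, hδ.symm⟩
      have hsp : ∑ b : Fin E'' with b.1 < n + 1, un b = un a + ∑ b : Fin E'' with b.1 < n, un b := by
        have h1 : (Finset.univ.filter fun b : Fin E'' => b.1 < n + 1) =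
            insert a (Finset.univ.filter fun b : Fin E'' => b.1 < n) := by
          ext b
          simp only [Finset.mem_filter, Finset.mem_univ, true_and, Finset.mem_insert, Fin.ext_iff, a]
          omega
        rw [h1, Finset.sum_insert (by simp [a])]
      have hle : ∑ b : Fin E'' with b.1 < n + 1, un b ≤ ∑ b, un b :=
        Finset.sum_le_sum_of_subset (Finset.filter_subset _ _)
      have hQ' : Q.card + L' ≤ (n + 1) * L' := by rw [Nat.succ_mul]; omega
      obtain ⟨Q', Bd', U'', h1, h2, -, -, h5, h6, h7⟩ := Θ.run_lemma act s1 L' (E'' * L') hL tb Q Bd hG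
        (hQ'.trans (Nat.mul_le_mul_right _ hn)) n U' (Y.ent k (ι a)) (Y.sl k (ι a)) (Y.uu k (ι a))
        (fun t j => Y.sl (mem a j).1 (mem a j).2 t)
        (fun t ht => Y.step k (ι a) t (by omega)) (fun t ht => Y.surv k (ι a) t (by omega))
        (fun t ht j => by
          obtain ⟨g', hg', -⟩ := Y.step (mem a j).1 (mem a j).2 t (by omega)
          rw [hmem a j t ht.le] at hg'
          exact ⟨_, g', hg'⟩)
        (fun t ht j en h hd he => by
          have h3 := Y.hash (mem a j).1 (mem a j).2 t (by omega) h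
          rw [hmem a j t ht.le, hmem a j (t + 1) ht] at h3
          refine h3 ?_
          change dicOf Jt (fun j => Y.en (Jt j)) _ = some en at hd
          unfold dicOf at hd
          split_ifs at hd with h4
          rw [← h4.choose_spec, ← he, ← Option.some.inj hd])
        (fun h0 => by
          rcases hR _ h0 with ⟨b, hb, e⟩ | h3
          · have h4 : a = b := hι (Y.ent0_inj k _ _ e)
            rw [← h4] at hb
            exact lt_irrefl n hb
          · exact h3 hroot)
        (Or.inl hroot) (un a)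
        (by
          refine le_trans (Set.ncard_le_ncard (t := ((Finset.univ.filter fun t : Fin L' =>
            ∀ b j, Jt j ≠ Y.sl (mem a b).1 (mem a b).2 t).image Fin.val : Finset ℕ)) ?_) ?_
          · rintro t ⟨ht, h3⟩
            refine Finset.mem_coe.2 (Finset.mem_image.2 ⟨⟨t, ht⟩, ?_, rfl⟩)
            refine Finset.mem_filter.2 ⟨Finset.mem_univ _, fun b j e => ?_⟩
            have h4 := h3 b
            change dicOf Jt (fun j => Y.en (Jt j)) _ = none at h4
            unfold dicOf at h4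
            rw [dif_pos ⟨j, e⟩] at h4
            exact Option.some_ne_none _ h4
          · rw [Set.ncard_coe_finset]
            exact Finset.card_image_le)
        (by omega)
      refine ⟨Q', Bd', U'', Dat.P_trans hP h1, by omega, h5.trans hQ', h6, fun e he => ?_⟩
      rcases h7 e he with h | h | h
      · exact (hR e h).imp_left fun ⟨b, hb, e⟩ => ⟨b, by omega, e⟩
      · exact Or.inl ⟨a, Nat.lt_succ_self n, h⟩
      · exact Or.inr h
  obtain ⟨Q, Bd, U', hP, -⟩ := key E'' le_rfl
  exact ⟨E'', Bd.card, U', Q, hP, le_rfl, Nat.zero_le _⟩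

end Vale.Agent.P329
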