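import Mathlib

namespace Vale.Agent.P329

open Classical

/-- Nondeterministic paths of a machine which queries every table entry at most once. -/
inductive Path {St Ent Val : Type} (q : St → Option Ent) (tr : St → Val → Finset St)
    (nd : St → Finset St) (tb : Ent → Val) : St → Finset Ent → St → Finset Ent → Prop
  | refl (s : St) (Q : Finset Ent) : Path q tr nd tb s Q s Q
  | free (s s1 s' : St) (Q Q' : Finset Ent) : q s = none → s1 ∈ nd s →
      Path q tr nd tb s1 Q s' Q' → Path q tr nd tb s Q s' Q'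
  | query (s s1 s' : St) (e : Ent) (Q Q' : Finset Ent) : q s = some e → e ∉ Q →
      s1 ∈ tr s (tb e) → Path q tr nd tb s1 (insert e Q) s' Q' → Path q tr nd tb s Q s' Q'

/-- A system of surviving trajectories. -/
structure Sys {S V G R H Dl : Type} [AddCommGroup V] (act : G → V → V) (K M E' T : ℕ)
    (SkF : Finset (S → Option (Fin K × R × G))) (EnF : Finset (S → Option H))
    (RtF : Finset (Dl → R)) (tb : R × H → S × V) where
  sk : Fin K → S → Option (Fin K × R × G)
  en : Fin K → S → Option H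
  rt : Fin M → Dl → R
  rs : Fin M → Fin K
  sl : Fin M → Fin E' → ℕ → Fin K
  ent : Fin M → Fin E' → ℕ → R × H
  uu : Fin M → Fin E' → ℕ → V
  hsk : ∀ i, sk i ∈ SkF
  hen : ∀ i, en i ∈ EnF
  hrt : ∀ k, rt k ∈ RtF
  rs_inj : Function.Injective rs
  sl0 : ∀ k a, sl k a 0 = rs k
  ent0 : ∀ k a, ∃ δ, (ent k a 0).1 = rt k δ
  ent0_inj : ∀ k a a', ent k a 0 = ent k a' 0 → a = a'
  step : ∀ k a t, t < T → ∃ g, sk (sl k a t) (tb (ent k a t)).1 =
      some (sl k a (t + 1), (ent k a (t + 1)).1, g) ∧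
      uu k a (t + 1) = act g (uu k a t + (tb (ent k a t)).2)
  hash : ∀ k a t, t < T → ∀ h, en (sl k a t) (tb (ent k a t)).1 = some h →
      (ent k a (t + 1)).2 = h
  surv : ∀ k a t, t < T → uu k a t + (tb (ent k a t)).2 ≠ 0
  cross : ∀ i i' x j ρ g g', sk i x = some (j, ρ, g) → sk i' x = some (j, ρ, g') → i = i'

/-- Static data of the exploring machine. -/
structure Dat (S G R H Dl : Type) (K M : ℕ) where
  sk : Fin K → S → Option (Fin K × R × G)
  rt : Fin M → Dl → R
  dic : Fin K → Option (S → Option H)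

/-- States of the exploring machine. -/
inductive MS (S V R H : Type) (K s1 : ℕ) : Type
  | idle : Finset S → ℕ → ℕ → ℕ → MS S V R H K s1
  | run : Finset S → ℕ → ℕ → ℕ → ℕ → R × H → V → Fin K → (Fin s1 → Fin K) → MS S V R H K s1

variable {S V G R H Dl : Type} {K M : ℕ}

/-- Reading values of roots. -/
def Dat.Root (Θ : Dat S G R H Dl K M) (ρ : R) : Prop := ∃ k δ, Θ.rt k δ = ρ

/-- Reading values which are determined by the revealed delays `Xs`. -/
def Dat.Known (Θ : Dat S G R H Dl K M) (Xs : Finset S) (ρ : R) : Prop :=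
  Θ.Root ρ ∨ ∃ i, ∃ x ∈ Xs, ∃ j g, Θ.sk i x = some (j, ρ, g)

/-- Delays which lead to a known reading value. -/
def Dat.Bad (Θ : Dat S G R H Dl K M) (Xs : Finset S) (x : S) : Prop :=
  ∃ i j ρ g, Θ.sk i x = some (j, ρ, g) ∧ Θ.Known Xs ρ

/-- Dictionary lookup through the members `ms`. -/
noncomputable def Dat.look (Θ : Dat S G R H Dl K M) {s1 : ℕ} (ms : Fin s1 → Fin K) :
    Option (S → Option H) :=
  if h : ∃ a, Θ.dic (ms a) ≠ none then Θ.dic (ms h.choose) else none

/-- Update of the member positions. -/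
def Dat.move (Θ : Dat S G R H Dl K M) {s1 : ℕ} (ms : Fin s1 → Fin K) (x : S) :
    Fin s1 → Fin K :=
  fun a => ((Θ.sk (ms a) x).map Prod.fst).getD (ms a)

/-- The queried entry. -/
def mq {s1 : ℕ} : MS S V R H K s1 → Option (R × H)
  | MS.idle _ _ _ _ => none
  | MS.run _ _ _ _ _ e _ _ _ => some e

/-- Possible hash values of the next entry, with the remaining budget. -/
noncomputable def Dat.opts [Fintype H] (Θ : Dat S G R H Dl K M) {s1 : ℕ} (ms : Fin s1 → Fin K)
    (x : S) (U : ℕ) : Finset (H × ℕ) :=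
  match Θ.look ms with
  | some en =>
      match en x with
      | some h => {(h, U)}
      | none => Finset.univ.image fun h => (h, U)
  | none => if U = 0 then ∅ else Finset.univ.image fun h => (h, U - 1)

/-- Transitions after a query. -/
noncomputable def Dat.tr [AddCommGroup V] [Fintype H] (Θ : Dat S G R H Dl K M)
    (act : G → V → V) (s1 L Nt : ℕ) : MS S V R H K s1 → S × V → Finset (MS S V R H K s1)
  | MS.idle _ _ _ _, _ => ∅
  | MS.run Xs ρ β U l _ u i ms, (x, y) =>
      if Xs.card ≤ Nt ∧ 1 ≤ l ∧ l ≤ L ∧ u + y ≠ 0 then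
        if Θ.Bad Xs x then {MS.idle (insert x Xs) ρ (β + 1) U}
        else if l = 1 then {MS.idle (insert x Xs) ρ β U}
        else
          match Θ.sk i x with
          | none => ∅
          | some (j, r, g) => (Θ.opts ms x U).image fun p =>
              MS.run (insert x Xs) ρ β p.2 (l - 1) (r, p.1) (act g (u + y)) j (Θ.move ms x)
      else ∅

/-- Starting a run. -/
noncomputable def Dat.nd [Fintype V] [Fintype R] [Fintype H] (Θ : Dat S G R H Dl K M)
    (s1 L Nt : ℕ) : MS S V R H K s1 → Finset (MS S V R H K s1)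
  | MS.idle Xs ρ β U =>
      if Xs.card ≤ Nt then
        (Finset.univ.filter fun p : (R × H) × V × Fin K × (Fin s1 → Fin K) =>
          Θ.Known Xs p.1.1).image fun p => MS.run Xs (ρ + 1) β U L p.1 p.2.1 p.2.2.1 p.2.2.2
      else ∅
  | MS.run _ _ _ _ _ _ _ _ _ => ∅

/-- Paths of the exploring machine between idle states. -/
def Dat.P [AddCommGroup V] [Fintype V] [Fintype R] [Fintype H] (Θ : Dat S G R H Dl K M)
    (act : G → V → V) (s1 L Nt : ℕ) (tb : R × H → S × V) (ρ β U : ℕ) (Q : Finset (R × H))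
    (ρ' β' U' : ℕ) (Q' : Finset (R × H)) : Prop :=
  Path mq (Θ.tr act s1 L Nt) (Θ.nd s1 L Nt) tb
    (MS.idle (Q.image fun e => (tb e).1) ρ β U) Q
    (MS.idle (Q'.image fun e => (tb e).1) ρ' β' U') Q'

/-- The machine accepts the table. -/
def Dat.Acc [AddCommGroup V] [Fintype V] [Fintype R] [Fintype H] (Θ : Dat S G R H Dl K M)
    (act : G → V → V) (s1 L Nt ρ0 β0 U : ℕ) (tb : R × H → S × V) : Prop :=
  ∃ ρ β U' Q, Θ.P act s1 L Nt tb 0 0 U ∅ ρ β U' Q ∧ ρ0 ≤ ρ ∧ β0 ≤ β

/-- Invariant of explored sets `Q` with bad entries `Bd`. -/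
structure Dat.Gd (Θ : Dat S G R H Dl K M) (tb : R × H → S × V) (Q Bd : Finset (R × H)) :
    Prop where
  sub : Bd ⊆ Q
  known : ∀ e ∈ Q, Θ.Known (Q.image fun e => (tb e).1) e.1
  uniq : ∀ e ∈ Q, ∀ f ∈ Q, e ∉ Bd → f ∉ Bd → ∀ i j ρ g i' j' g',
    Θ.sk i (tb e).1 = some (j, ρ, g) → Θ.sk i' (tb f).1 = some (j', ρ, g') → e = f
  root : ∀ e ∈ Q, e ∉ Bd → ∀ i j ρ g, Θ.sk i (tb e).1 = some (j, ρ, g) → ¬ Θ.Root ρ

/-- Dictionary given by a tuple of slices. -/
noncomputable def dicOf {g : ℕ} (Jt : Fin g → Fin K) (ee : Fin g → S → Option H) (i : Fin K) :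
    Option (S → Option H) :=
  if h : ∃ j, Jt j = i then some (ee h.choose) else none

/-- Static data with a given dictionary. -/
def Sys.dat [AddCommGroup V] {act : G → V → V} {E' T : ℕ}
    {SkF : Finset (S → Option (Fin K × R × G))} {EnF : Finset (S → Option H)}
    {RtF : Finset (Dl → R)} {tb : R × H → S × V} (Y : Sys act K M E' T SkF EnF RtF tb)
    (dic : Fin K → Option (S → Option H)) : Dat S G R H Dl K M := ⟨Y.sk, Y.rt, dic⟩

end Vale.Agent.P329
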