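import Mathlib

namespace Vale.Agent.P329

/-- The scales. -/
def Qs (u om : ℕ) : ℕ → ℕ
  | 0 => 1
  | j + 1 => (2 ^ (u + 2) * Qs u om j).factorial * om

/-- The set of delays. -/
abbrev Sx (u J : ℕ) := Fin J → Fin (2 ^ u)

/-- The value of a delay. -/
def val (u om : ℕ) {J : ℕ} (x : Sx u J) : ℕ := ∑ j : Fin J, 2 * (x j : ℕ) * Qs u om j

/-- Reading scales: the delay scales and one top scale. -/
def sc (u om J D2 : ℕ) : Option (Fin J) → ℕ
  | none => D2
  | some j => Qs u om j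

/-- Reading values. -/
abbrev Rd (u J : ℕ) := Option (Fin J) → ZMod (2 ^ (u + 2))

/-- The digits of an integer. -/
def rdZ (u om J D2 : ℕ) (l : ℤ) : Rd u J :=
  fun j => ((l / (sc u om J D2 j : ℤ) : ℤ) : ZMod (2 ^ (u + 2)))

/-- Modulus of the waiting clock. -/
def Qm (u om J D2 : ℕ) : ℕ := 2 ^ (u + 2) * ∏ j, sc u om J D2 j

/-- An explicit Sidon sequence on `[0, Z)`. -/
def sid (Z k : ℕ) : ℕ := k + 2 * Z * k ^ 2

end Vale.Agent.P329
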