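import Vale.Agent.P329.AutD
import Vale.Agent.P329.ReadD
import Vale.Agent.P329.ProbD

namespace Vale.Agent.P329

open Classical

variable {α M H : Type} [Monoid M] [AddCommGroup H]

/-- Compatibility of the parameters with the scales, the table and the cut offsets. -/
structure Fit {u J : ℕ} (P : Par α M H (Rd u J)) (om : ℕ) (tb : Rd u J × H → Sx u J × VV M)
    (dl : ℕ → H → VV M → ℕ) (Dm : ℕ) : Prop where
  ok : P.Ok
  hom : 1 ≤ om
  hu : 1 ≤ u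
  hJ : 1 ≤ J
  hD1 : P.D1 = Qs u om J
  hQ : P.Q = Qm u om J P.D2
  hrd : ∀ l : ℕ, P.rd l = rdZ u om J P.D2 l
  hX : ∀ e, P.X e = val u om (tb e).1
  hY : ∀ e, P.Y e = (tb e).2
  hD2 : 2 * P.F + P.D1 + 1 ≤ P.D2
  hC0 : 2 ^ (u + 2) ∣ P.C0
  hDm : 2 * Dm ≤ 2 ^ (u + 2)
  hDA : Dm ≤ P.A
  hdl : ∀ e h v, e < P.E → dl e h v < Dm
  sidon : ∀ e1 h1 v1 e2 h2 v2 e3 h3 v3 e4 h4 v4, e1 < P.E → e2 < P.E → e3 < P.E → e4 < P.E →
    dl e1 h1 v1 + dl e4 h4 v4 = dl e3 h3 v3 + dl e2 h2 v2 →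
    (e1, h1, v1) = (e2, h2, v2) ∨ (e1, h1, v1) = (e3, h3, v3)
  hlam : ∀ e e' m1 m2 m3 m4, 1 ≤ e → e < P.E → 1 ≤ e' → e' < P.E → m1 ≠ m2 →
    P.lam e m1 - P.lam e m2 = P.lam e' m3 - P.lam e' m4 → e = e'

/-- `μ` is the first mark at or after `s`. -/
def First (cd : List α → ℕ) (D : ℕ) (ω : ℕ → α) (s μ : ℕ) : Prop :=
  s ≤ μ ∧ MkAt cd D ω μ ∧ ∀ t, s ≤ t → t < μ → ¬ MkAt cd D ω t

/-- An increasing enumeration of consecutive marks. -/
structure Enum (cd : List α → ℕ) (D : ℕ) (ω : ℕ → α) {K : ℕ} (mu : Fin K → ℕ) : Prop where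
  mono : StrictMono mu
  mark : ∀ i, MkAt cd D ω (mu i)
  all : ∀ t, MkAt cd D ω t → ∀ i j, mu i ≤ t → t ≤ mu j → ∃ l, mu l = t

/-- Start of the search for the next big mark after reading `μ` with delay `x`. -/
def Par.nxt {R : Type} (P : Par α M H R) (μ x : ℕ) : ℕ := μ + 5 * P.D2 + x + 1 + P.F

/-- The skeleton map at slice `i`. -/
noncomputable def skf {u J K : ℕ} (P : Par α M H (Rd u J)) (om : ℕ) (ω : ℕ → α)
    (mu : Fin K → ℕ) (i : Fin K) (x : Sx u J) : Option (Fin K × Rd u J × M) :=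
  if h : ∃ j, First P.cd P.D2 ω (P.nxt (mu i) (val u om x)) (mu j) then
    some (h.choose, rdZ u om J P.D2 ((mu h.choose : ℤ) - (P.nxt (mu i) (val u om x) : ℕ)),
      ph P.f (seg ω (mu i + 5 * P.D2) (mu h.choose - mu i)))
  else none

/-- Action of the monoid on the vector space. -/
noncomputable def vact (g : M) (v : VV M) : VV M := v * bv g

end Vale.Agent.P329
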