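import Vale.Agent.P329.Chain
import Vale.Agent.P329.Birth

namespace Vale.Agent.P329

open Classical

variable {α M H : Type} [Monoid M] [AddCommGroup H]

/-- One generation of surviving trajectories with a common first mark. -/
theorem generation {u J K : ℕ} {P : Par α M H (Rd u J)} {om : ℕ}
    {tb : Rd u J × H → Sx u J × VV M} {dl : ℕ → H → VV M → ℕ} {Dm : ℕ}
    (hF : Fit P om tb dl Dm) (ω : ℕ → α) {mu : Fin K → ℕ} (hmu : Enum P.cd P.D2 ω mu) (t : ℕ)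
    (ht : ∀ i, mu i ≤ t) (τ : ℕ) (v0 : VV M) (i j : Fin K) (hi : 1 ≤ (i : ℕ))
    (hij : (j : ℕ) = i + 7) (h1 : mu i ≤ τ) (h2 : τ ≤ mu j) (T E' : ℕ)
    (hT : (i : ℕ) + 8 + 6 * T < K) (hE : 2 * E' + 1 ≤ P.E)
    (hno : ∀ n, n ≤ P.F → P.run (Ctl.za 0 0 0 1, v0) ω τ n ∈ P.Cand dl →
      ∃ c ∈ P.Cand dl, Alive P.δ (kap α M H) c (seg ω (τ + n) (t - (τ + n))) ∧
        P.run c ω (τ + n) (t - (τ + n)) ≠ P.run (Ctl.za 0 0 0 1, v0) ω τ (t - τ)) :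
    ∃ (r : Fin K) (γ : ℤ) (sl : Fin E' → ℕ → Fin K) (ent : Fin E' → ℕ → Rd u J × H)
      (uu : Fin E' → ℕ → VV M), (i : ℕ) ≤ r ∧ (r : ℕ) ≤ i + 8 ∧ (∀ a, sl a 0 = r) ∧
      (∀ a, ∃ p : Fin (2 * P.E) × Fin (2 * Dm),
        (ent a 0).1 = rdZ u om J P.D2 (γ - ((p.1 : ℕ) * P.C0 + (p.2 : ℕ) : ℕ))) ∧
      (∀ a a', ent a 0 = ent a' 0 → a = a') ∧
      ∀ a n, n < T →
        (∃ g, skf P om ω mu (sl a n) (tb (ent a n)).1 =
            some (sl a (n + 1), (ent a (n + 1)).1, g) ∧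
          uu a (n + 1) = vact g (uu a n + (tb (ent a n)).2)) ∧
        (ent a (n + 1)).2 =
          P.hs ω (mu (sl a n) + 5 * P.D2 + 1 + val u om (tb (ent a n)).1) 1 P.E ∧
        uu a n + (tb (ent a n)).2 ≠ 0 := by
  have hD2 := hF.hD2
  have hK : 0 < K := by omega
  have g0 := hmu.gap hF.ok.hcd ⟨0, hK⟩ i 1 (by simpa using hi)
  have g1 := hmu.gap hF.ok.hcd j ⟨j + 1, by omega⟩ 1 le_rfl
  have g2 := ht ⟨j + 1, by omega⟩
  obtain ⟨c, s, s', kk, jj, h', m', v', hb, hinj⟩ :=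
    births hF ω τ t v0 (by omega) (by omega) hno
  obtain ⟨p, hp1, hp2, hp⟩ := hmu.first i j τ h1 h2
  have hp1' : (i : ℕ) ≤ p := hp1
  have hp2' : (p : ℕ) ≤ j := hp2
  let p' : Fin K := ⟨p + 1, by omega⟩
  have g3 := hmu.gap hF.ok.hcd p p' 1 le_rfl
  have hτp := hp.1
  have hfirst : ∀ e ∈ Finset.Ico 1 P.E, First P.cd P.D2 ω (s' e) (mu p) ∨
      First P.cd P.D2 ω (s' e) (mu p') := by
    intro e he
    obtain ⟨e1, e2⟩ := Finset.mem_Ico.1 he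
    obtain ⟨a1, a2, -, a4, -⟩ := hb e e1 e2
    by_cases hle : s' e ≤ mu p
    · exact Or.inl ⟨hle, hp.2.1, fun x hx hx' => hp.2.2 x (by omega) hx'⟩
    · obtain ⟨l, l1, l2, l3⟩ := hmu.first p p' (s' e) (by omega) (by omega)
      have l1' : (p : ℕ) ≤ l := l1
      have l2' : (l : ℕ) ≤ p + 1 := l2
      rcases Nat.eq_or_lt_of_le l1' with h | h
      · exact Or.inl (by rwa [Fin.ext h])
      · exact Or.inr (by rwa [show p' = l from Fin.ext (by simp only [p']; omega)])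
  obtain ⟨r, S, hr1, hr2, hS, hSr⟩ : ∃ (r : Fin K) (S : Finset ℕ), (i : ℕ) ≤ r ∧
      (r : ℕ) ≤ i + 8 ∧ E' ≤ S.card ∧
      ∀ e ∈ S, e ∈ Finset.Ico 1 P.E ∧ First P.cd P.D2 ω (s' e) (mu r) := by
    have hc := Finset.card_filter_add_card_filter_not (s := Finset.Ico 1 P.E)
      (fun e => First P.cd P.D2 ω (s' e) (mu p))
    rw [Nat.card_Ico] at hc
    by_cases hle : E' ≤ ((Finset.Ico 1 P.E).filter
        fun e => First P.cd P.D2 ω (s' e) (mu p)).card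
    · exact ⟨p, _, hp1', by omega, hle, fun e he => Finset.mem_filter.1 he⟩
    · refine ⟨p', (Finset.Ico 1 P.E).filter fun e => ¬ First P.cd P.D2 ω (s' e) (mu p),
        by simp only [p']; omega, by simp only [p']; omega, by omega, fun e he => ?_⟩
      obtain ⟨a, b⟩ := Finset.mem_filter.1 he
      exact ⟨a, (hfirst e a).resolve_left b⟩
  let f := S.orderEmbOfCardLe hS
  have hf : ∀ a, (1 ≤ f a ∧ f a < P.E) ∧ First P.cd P.D2 ω (s' (f a)) (mu r) := fun a => by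
    have := hSr _ (S.orderEmbOfCardLe_mem hS a)
    exact ⟨Finset.mem_Ico.1 this.1, this.2⟩
  have hch := fun a => chain hF ω hmu t ht (c (f a)) (s (f a)) (s' (f a))
    (hb _ (hf a).1.1 (hf a).1.2).2.1 (hb _ (hf a).1.1 (hf a).1.2).2.2.2.2.1 (h' (f a)) (m' (f a))
    (v' (f a)) (hb _ (hf a).1.1 (hf a).1.2).2.2.2.2.2.1 r (hf a).2 T (by omega)
  choose sl ent uu c1 c2 c3 using hch
  refine ⟨r, (mu r : ℤ) - τ + Dm, sl, ent, uu, hr1, hr2, c1, fun a => ?_, fun a a' h => ?_, c3⟩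
  · obtain ⟨-, -, -, -, -, -, b1, b2, b3⟩ := hb _ (hf a).1.1 (hf a).1.2
    refine ⟨(⟨_, b1⟩, ⟨_, b2⟩), ?_⟩
    rw [c2 a]
    have b4 : (s' (f a) : ℤ) + Dm = τ + ((kk (f a) * P.C0 + jj (f a) : ℕ) : ℤ) := by
      rw [add_assoc] at b3
      exact_mod_cast b3
    exact congrArg (rdZ u om J P.D2) (by linarith)
  · rw [c2 a, c2 a', Prod.mk.injEq] at h
    have h3 := rdZ_low u om hF.hJ P.D2 _ _ h.1.symm
    rw [sub_sub_sub_cancel_left] at h3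
    exact f.injective (hinj _ _ (hf a).1.1 (hf a).1.2 (hf a').1.1 (hf a').1.2 h3 h.2)

end Vale.Agent.P329
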