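import Vale.Agent.P329.Two

namespace Vale.Agent.P329

variable {α : Type}

theorem levA_nil {Q : Type} (δ : Q → α → Q) (κ s : Q) : Alive δ κ s [] := by
  intro u v h hu
  exact absurd (List.append_eq_nil_iff.1 h.symm).1 hu

theorem levA_cons {Q : Type} (δ : Q → α → Q) (κ s : Q) (a : α) (w : List α) :
    Alive δ κ s (a :: w) ↔ δ s a ≠ κ ∧ Alive δ κ (δ s a) w := by
  constructor
  · intro h
    exact ⟨h [a] w rfl (by simp), fun u v e _ => h (a :: u) v (by rw [e]; rfl) (by simp)⟩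
  · rintro ⟨h1, h2⟩ u v e hu
    cases u with
    | nil => exact absurd rfl hu
    | cons b u =>
      obtain ⟨rfl, e'⟩ := List.cons.inj e
      by_cases h3 : u = []
      · rw [h3]; exact h1
      · exact h2 u v e' h3

theorem levA_append {Q : Type} (δ : Q → α → Q) (κ s : Q) (u v : List α) :
    Alive δ κ s (u ++ v) ↔ Alive δ κ s u ∧ Alive δ κ (u.foldl δ s) v := by
  induction u generalizing s with
  | nil => simp [levA_nil]
  | cons a u ih => rw [List.cons_append, levA_cons, levA_cons, ih, List.foldl_cons, and_assoc]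

theorem levA_hit {Q : Type} (δ : Q → α → Q) (κ s : Q) (w : List α) (h : ¬Alive δ κ s w) :
    ∃ u a v, w = u ++ a :: v ∧ Alive δ κ s u ∧ δ (u.foldl δ s) a = κ := by
  induction w generalizing s with
  | nil => exact absurd (levA_nil δ κ s) h
  | cons a w ih =>
    by_cases h1 : δ s a = κ
    · exact ⟨[], a, w, rfl, levA_nil δ κ s, h1⟩
    · obtain ⟨u, b, v, e, h2, h3⟩ := ih (δ s a) fun h2 => h ((levA_cons δ κ s a w).2 ⟨h1, h2⟩)
      exact ⟨a :: u, b, v, by rw [e]; rfl, (levA_cons δ κ s a u).2 ⟨h1, h2⟩, h3⟩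

theorem levA_mem {Q : Type} (δ : Q → α → Q) {Qf : Set Q} (hcl : ∀ q ∈ Qf, ∀ a, δ q a ∈ Qf)
    (w : List α) {s : Q} (hs : s ∈ Qf) : w.foldl δ s ∈ Qf := by
  induction w generalizing s with
  | nil => exact hs
  | cons a w ih => exact ih (hcl s hs a)

theorem levA_R [Fintype α] {Q : Type} (δ : Q → α → Q) (Qf : Set Q) (hf : Qf.Finite)
    (hcl : ∀ q ∈ Qf, ∀ a, δ q a ∈ Qf) (κ : Q) (s : Q) (hs : s ∈ Qf)
    (hU : ∀ t, ∃ U : Set (List α), SH 2 U ∧ ∀ w, Alive δ κ s w → (w ∈ U ↔ w.foldl δ s = t))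
    (t : Q) : SH 2 {w | Alive δ κ s w ∧ w.foldl δ s = t} := by
  choose U hU1 hU2 using hU
  have hB := SH.biUnion hf fun r _ => SH.biUnion (Set.toFinite {a : α | δ r a = κ}) fun a _ =>
    (hU1 r).mul ((SH.single 2 [a]).mul (SH.univ 2))
  refine ((hU1 t).diff hB).congr fun w => ⟨?_, ?_⟩
  · rintro ⟨h1, h2⟩
    have h3 : Alive δ κ s w := by
      by_contra h3
      obtain ⟨u, a, v, e, h4, h5⟩ := levA_hit δ κ s w h3
      exact h2 ⟨_, levA_mem δ hcl u hs, a, h5, u, (hU2 _ u h4).2 rfl, _,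
        ⟨_, rfl, v, trivial, rfl⟩, e⟩
    exact ⟨h3, (hU2 t w h3).1 h1⟩
  · rintro ⟨h1, h2⟩
    refine ⟨(hU2 t w h1).2 h2, ?_⟩
    rintro ⟨r, -, a, ha, u, hu, _, ⟨_, rfl, v, -, rfl⟩, rfl⟩
    obtain ⟨h3, h4⟩ := (levA_append δ κ s _ _).1 h1
    rw [(hU2 r u h3).1 hu] at h4
    exact ((levA_cons δ κ r a v).1 h4).1 ha

theorem levA_F [Fintype α] {Q : Type} (δ : Q → α → Q) (Qf : Set Q) (hf : Qf.Finite)
    (hcl : ∀ q ∈ Qf, ∀ a, δ q a ∈ Qf) (κ : Q) (s : Q) (hs : s ∈ Qf)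
    (hR : ∀ t, SH 2 {w | Alive δ κ s w ∧ w.foldl δ s = t}) :
    SH 2 {w | ∃ u a, w = u ++ [a] ∧ Alive δ κ s u ∧ δ (u.foldl δ s) a = κ} := by
  refine (SH.biUnion hf fun r _ => SH.biUnion (Set.toFinite {a : α | δ r a = κ}) fun a _ =>
    (hR r).mul (SH.single 2 [a])).congr fun w => ⟨?_, ?_⟩
  · rintro ⟨r, -, a, ha, u, ⟨h1, rfl⟩, _, rfl, rfl⟩
    exact ⟨u, a, rfl, h1, ha⟩
  · rintro ⟨u, a, rfl, h1, h2⟩
    exact ⟨_, levA_mem δ hcl u hs, a, h2, u, ⟨h1, rfl⟩, _, rfl, rfl⟩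

theorem levA_loops {Q : Type} (δ : Q → α → Q) (κ : Q) (n : ℕ) : ∀ w : List α, w.length ≤ n →
    ∃ (l : List (List α)) (r : List α),
      (∀ x ∈ l, ∃ u a, x = u ++ [a] ∧ Alive δ κ κ u ∧ δ (u.foldl δ κ) a = κ) ∧
      Alive δ κ κ r ∧ w = l.flatten ++ r := by
  induction n with
  | zero =>
    intro w hw
    rw [List.length_eq_zero_iff.1 (Nat.le_zero.1 hw)]
    exact ⟨[], [], by simp, levA_nil δ κ κ, rfl⟩
  | succ n ih =>
    intro w hw
    by_cases h : Alive δ κ κ w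
    · exact ⟨[], w, by simp, h, rfl⟩
    · obtain ⟨u, a, v, rfl, h1, h2⟩ := levA_hit δ κ κ w h
      obtain ⟨l, r, h3, h4, rfl⟩ := ih v (by simp at hw; omega)
      refine ⟨(u ++ [a]) :: l, r, fun x hx => ?_, h4, by simp⟩
      rcases List.mem_cons.1 hx with rfl | hx
      · exact ⟨u, a, rfl, h1, h2⟩
      · exact h3 x hx

theorem levA_flat {Q : Type} (δ : Q → α → Q) (κ : Q) (l : List (List α))
    (h : ∀ x ∈ l, ∃ u a, x = u ++ [a] ∧ Alive δ κ κ u ∧ δ (u.foldl δ κ) a = κ) :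
    l.flatten.foldl δ κ = κ := by
  induction l with
  | nil => rfl
  | cons x l ih =>
    obtain ⟨u, a, rfl, -, h2⟩ := h x List.mem_cons_self
    rw [List.flatten_cons, List.foldl_append, List.foldl_append, List.foldl_cons, List.foldl_nil, h2]
    exact ih fun y hy => h y (List.mem_cons_of_mem _ hy)

/-- Level one: first return decomposition. -/
theorem level_one [Fintype α] {Q : Type} (δ : Q → α → Q) (Qf : Set Q) (hf : Qf.Finite)
    (hcl : ∀ q ∈ Qf, ∀ a, δ q a ∈ Qf) (κ : Q) (hκ : κ ∈ Qf) (q : Q) (hq : q ∈ Qf)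
    (hUκ : ∀ t, ∃ U : Set (List α), SH 2 U ∧ ∀ w, Alive δ κ κ w → (w ∈ U ↔ w.foldl δ κ = t))
    (hUq : ∀ t, ∃ U : Set (List α), SH 2 U ∧ ∀ w, Alive δ κ q w → (w ∈ U ↔ w.foldl δ q = t))
    (t : Q) : SH 3 {w | w.foldl δ q = t} := by
  have Rq := levA_R δ Qf hf hcl κ q hq hUq
  have Rκ := levA_R δ Qf hf hcl κ κ hκ hUκ
  have Fq := levA_F δ Qf hf hcl κ q hq Rq
  have Fκ := levA_F δ Qf hf hcl κ κ hκ Rκ
  refine (((Rq t).mono (by omega)).union ((Fq.mono (by omega)).mul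
    (Fκ.star.mul ((Rκ t).mono (by omega))))).congr fun w => ⟨?_, ?_⟩
  · rintro (⟨-, h⟩ | ⟨_, ⟨u, a, rfl, -, h1⟩, _, ⟨_, ⟨l, hl, rfl⟩, r, ⟨-, h2⟩, rfl⟩, rfl⟩)
    · exact h
    · show List.foldl δ q _ = t
      rw [List.foldl_append, List.foldl_append, List.foldl_append, List.foldl_cons, List.foldl_nil,
        h1, levA_flat δ κ l hl, h2]
  · intro h
    by_cases h0 : Alive δ κ q w
    · exact Or.inl ⟨h0, h⟩
    · obtain ⟨u, a, v, rfl, h1, h2⟩ := levA_hit δ κ q w h0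
      obtain ⟨l, r, h3, h4, rfl⟩ := levA_loops δ κ _ v le_rfl
      refine Or.inr ⟨_, ⟨u, a, rfl, h1, h2⟩, _, ⟨_, ⟨l, h3, rfl⟩, r, ⟨h4, ?_⟩, rfl⟩, by simp⟩
      have h5 : List.foldl δ q (u ++ a :: (l.flatten ++ r)) = t := h
      rwa [List.foldl_append, List.foldl_cons, h2, List.foldl_append, levA_flat δ κ l h3] at h5

end Vale.Agent.P329
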