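import Vale.Agent.P329.Two

namespace Vale.Agent.P329

variable {α : Type}

theorem levB_nil {Q : Type} (δ : Q → α → Q) (κ s : Q) : Alive δ κ s [] := by
  intro u v h hu
  exact absurd (List.append_eq_nil_iff.1 h.symm).1 hu

theorem levB_cons {Q : Type} (δ : Q → α → Q) (κ s : Q) (a : α) (w : List α) :
    Alive δ κ s (a :: w) ↔ δ s a ≠ κ ∧ Alive δ κ (δ s a) w := by
  constructor
  · intro h
    exact ⟨h [a] w rfl (by simp), fun u v e _ => h (a :: u) v (by rw [e]; rfl) (by simp)⟩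
  · rintro ⟨h1, h2⟩ u v e hu
    cases u with
    | nil => exact absurd rfl hu
    | cons b u =>
      obtain ⟨rfl, e'⟩ := List.cons.inj e
      by_cases h3 : u = []
      · rw [h3]; exact h1
      · exact h2 u v e' h3

theorem levB_append {Q : Type} (δ : Q → α → Q) (κ s : Q) (u v : List α) :
    Alive δ κ s (u ++ v) ↔ Alive δ κ s u ∧ Alive δ κ (u.foldl δ s) v := by
  induction u generalizing s with
  | nil => simp [levB_nil]
  | cons a u ih => rw [List.cons_append, levB_cons, levB_cons, ih, List.foldl_cons, and_assoc]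

/-- The automaton on the finite part that also records survival. -/
def levBAut {Q : Type} (δ : Q → α → Q) (Qf : Set Q) (hcl : ∀ q ∈ Qf, ∀ a, δ q a ∈ Qf) (κ : Q)
    (x : Qf × Prop) (a : α) : Qf × Prop :=
  (⟨δ x.1.1 a, hcl _ x.1.2 a⟩, x.2 ∧ δ x.1.1 a ≠ κ)

theorem levB_run {Q : Type} (δ : Q → α → Q) (Qf : Set Q) (hcl : ∀ q ∈ Qf, ∀ a, δ q a ∈ Qf) (κ : Q)
    (w : List α) (x : Qf × Prop) :
    (w.foldl (levBAut δ Qf hcl κ) x).1.1 = w.foldl δ x.1.1 ∧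
      ((w.foldl (levBAut δ Qf hcl κ) x).2 ↔ x.2 ∧ Alive δ κ x.1.1 w) := by
  induction w generalizing x with
  | nil => simp [levB_nil]
  | cons a w ih =>
    obtain ⟨h1, h2⟩ := ih (levBAut δ Qf hcl κ x a)
    refine ⟨h1, h2.trans ?_⟩
    rw [levB_cons]
    exact and_assoc

theorem levB_sh [Fintype α] {Q : Type} (δ : Q → α → Q) (Qf : Set Q) (hf : Qf.Finite)
    (hcl : ∀ q ∈ Qf, ∀ a, δ q a ∈ Qf) (κ : Q) (D N : ℕ) {c : Q} (hc : c ∈ Qf)
    (P : Prop → Q → Prop) : SH 1 {w | Simple D N w ∧ P (Alive δ κ c w) (w.foldl δ c)} := by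
  have := hf.to_subtype
  refine (sh_simple_pred (levBAut δ Qf hcl κ) D N
    fun g => P (g (⟨c, hc⟩, True)).2 (g (⟨c, hc⟩, True)).1.1).congr fun w => ?_
  obtain ⟨h1, h2⟩ := levB_run δ Qf hcl κ w (⟨c, hc⟩, True)
  have h3 : (w.foldl (levBAut δ Qf hcl κ) (⟨c, hc⟩, True)).2 = Alive δ κ c w :=
    propext (h2.trans ⟨fun h => h.2, fun h => ⟨trivial, h⟩⟩)
  show _ ∧ P _ _ ↔ _ ∧ P _ _
  rw [h1, h3]

theorem levB_last [Fintype α] {Q : Type} (δ : Q → α → Q) (Qf : Set Q) (hf : Qf.Finite)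
    (hcl : ∀ q ∈ Qf, ∀ a, δ q a ∈ Qf) (κ : Q) (C : Set Q) (hC : C ⊆ Qf) (D N : ℕ) (t : Q) :
    SH 1 {w | Simple D N w ∧ ∀ c ∈ C, Alive δ κ c w → w.foldl δ c = t} := by
  have h1 := sh_simple_pred (α := α) (fun (_ : Unit) _ => ()) D N fun _ => True
  refine (h1.diff (SH.biUnion (hf.subset hC) fun c hc =>
    levB_sh δ Qf hf hcl κ D N (hC hc) fun A r => A ∧ r ≠ t)).congr fun w => ⟨?_, ?_⟩
  · rintro ⟨⟨h2, -⟩, h3⟩
    refine ⟨h2, fun c hc ha => ?_⟩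
    by_contra h4
    exact h3 ⟨c, hc, h2, ha, h4⟩
  · rintro ⟨h2, h3⟩
    exact ⟨⟨h2, trivial⟩, fun ⟨c, hc, _, ha, h4⟩ => h4 (h3 c hc ha)⟩

theorem levB_front {cnt : List α → ℕ} (h0 : cnt [] = 0) (h1 : ∀ u a, cnt (u ++ [a]) ≤ cnt u + 1)
    {K : ℕ} (w : List α) (h : K ≤ cnt w) : ∃ u v, w = u ++ v ∧ cnt u = K := by
  induction w using List.reverseRecOn with
  | nil => exact ⟨[], [], rfl, by omega⟩
  | append_singleton w a ih =>
    by_cases h2 : K ≤ cnt w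
    · obtain ⟨u, v, rfl, h3⟩ := ih h2
      exact ⟨u, v ++ [a], by simp, h3⟩
    · exact ⟨w ++ [a], [], by simp, by have := h1 w a; omega⟩

theorem levB_sound {Q : Type} (δ : Q → α → Q) (κ : Q) (C : Set Q) (t : Q) (r : List α)
    (hr : ∀ c ∈ C, Alive δ κ c r → r.foldl δ c = t) (l : List (List α))
    (hl : ∀ u ∈ l, ∃ c' ∈ C, ∀ c ∈ C, Alive δ κ c u → u.foldl δ c = c') (s : Q) (hs : s ∈ C)
    (ha : Alive δ κ s (l.flatten ++ r)) : (l.flatten ++ r).foldl δ s = t := by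
  induction l generalizing s with
  | nil => exact hr s hs ha
  | cons u l ih =>
    obtain ⟨c', hc', h1⟩ := hl u List.mem_cons_self
    rw [List.flatten_cons, List.append_assoc] at ha ⊢
    obtain ⟨h2, h3⟩ := (levB_append δ κ s _ _).1 ha
    rw [List.foldl_append]
    rw [h1 s hs h2] at h3 ⊢
    exact ih (fun v hv => hl v (List.mem_cons_of_mem _ hv)) c' hc' h3

theorem levB_complete {Q : Type} (δ : Q → α → Q) (κ : Q) (C : Set Q)
    (cnt : List α → ℕ) (R K : ℕ) (h0 : cnt [] = 0)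
    (h1 : ∀ u a, cnt (u ++ [a]) ≤ cnt u + 1) (h2 : ∀ u v, cnt (u ++ v) ≤ cnt u + cnt v + R)
    (h3 : ∀ u v, cnt v ≤ cnt (u ++ v)) (h4 : ∀ u v, cnt u ≤ cnt (u ++ v)) (q : Q)
    (hcut : ∀ p u, Alive δ κ q (p ++ u) → K ≤ cnt u → ∃ u1 u2, u = u1 ++ u2 ∧
      (p ++ u1).foldl δ q ∈ C ∧ ∀ c ∈ C, Alive δ κ c u2 → u2.foldl δ c = (p ++ u).foldl δ q)
    (m : ℕ) : ∀ p u2 r1 : List α, (u2 ++ r1).length ≤ m → Alive δ κ q (p ++ u2 ++ r1) →
      cnt u2 ≤ K → (∀ c ∈ C, Alive δ κ c u2 → u2.foldl δ c = (p ++ u2).foldl δ q) →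
      ∃ (l : List (List α)) (r : List α),
        (∀ u ∈ l, cnt u ≤ 2 * K + 2 * R + 1 ∧
          ∃ c' ∈ C, ∀ c ∈ C, Alive δ κ c u → u.foldl δ c = c') ∧
        cnt r ≤ 2 * K + 2 * R + 1 ∧
        (∀ c ∈ C, Alive δ κ c r → r.foldl δ c = (p ++ u2 ++ r1).foldl δ q) ∧
        u2 ++ r1 = l.flatten ++ r := by
  induction m using Nat.strong_induction_on with
  | _ m ih =>
    intro p u2 r1 hm ha hk hd
    have key : ∀ z, ∀ c ∈ C, Alive δ κ c (u2 ++ z) →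
        (u2 ++ z).foldl δ c = (p ++ u2 ++ z).foldl δ q := fun z c hc h => by
      rw [List.foldl_append, hd c hc ((levB_append δ κ c _ _).1 h).1, ← List.foldl_append]
    by_cases hn : cnt (u2 ++ r1) ≤ 2 * K + 2 * R + 1
    · exact ⟨[], u2 ++ r1, by simp, hn, key r1, rfl⟩
    have a1 := h2 u2 r1
    cases r1 with
    | nil => omega
    | cons a r2 =>
      have a2 : cnt (a :: r2) ≤ cnt [a] + cnt r2 + R := h2 [a] r2
      have a3 : cnt [a] ≤ cnt [] + 1 := h1 [] a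
      obtain ⟨u, r3, rfl, hu⟩ := levB_front h0 h1 (K := K) r2 (by omega)
      have e1 : p ++ u2 ++ a :: (u ++ r3) = p ++ u2 ++ [a] ++ u ++ r3 := by simp
      rw [e1] at ha
      obtain ⟨v1, v2, rfl, hv1, hv2⟩ := hcut (p ++ u2 ++ [a]) u
        ((levB_append δ κ q _ _).1 ha).1 hu.ge
      have e2 : p ++ u2 ++ [a] ++ (v1 ++ v2) = p ++ u2 ++ [a] ++ v1 ++ v2 := by simp
      rw [e2] at ha hv2
      obtain ⟨l, r, b1, b2, b3, b4⟩ := ih (v2 ++ r3).length (by simp at hm ⊢; omega)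
        (p ++ u2 ++ [a] ++ v1) v2 r3 le_rfl ha (by have := h3 v1 v2; omega) hv2
      refine ⟨(u2 ++ ([a] ++ v1)) :: l, r, fun x hx => ?_, b2, fun c hc h => ?_, ?_⟩
      · rcases List.mem_cons.1 hx with rfl | hx
        · refine ⟨?_, _, hv1, fun c hc h => ?_⟩
          · have c1 := h2 (u2 ++ [a]) v1
            have c2 := h1 u2 a
            have c3 := h4 v1 v2
            rw [← List.append_assoc]
            omega
          · rw [key _ c hc h]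
            simp
        · exact b1 x hx
      · rw [b3 c hc h]
        simp
      · rw [List.flatten_cons, List.append_assoc _ l.flatten, ← b4]
        simp

/-- Level two: a language of height two which is sound on alive runs and complete. -/
theorem level_two [Fintype α] {Q : Type} (δ : Q → α → Q) (Qf : Set Q) (hf : Qf.Finite)
    (hcl : ∀ q ∈ Qf, ∀ a, δ q a ∈ Qf) (κ : Q) (C : Set Q) (hC : C ⊆ Qf)
    (cnt : List α → ℕ) (R K D : ℕ) (h0 : cnt [] = 0)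
    (h1 : ∀ u a, cnt (u ++ [a]) ≤ cnt u + 1) (h2 : ∀ u v, cnt (u ++ v) ≤ cnt u + cnt v + R)
    (h3 : ∀ u v, cnt v ≤ cnt (u ++ v)) (h4 : ∀ u v, cnt u ≤ cnt (u ++ v))
    (hs : ∀ n, ∃ N, ∀ u, cnt u ≤ n → Simple D N u)
    (q : Q) (hq : q ∈ Qf)
    (hcut : ∀ p u, Alive δ κ q (p ++ u) → K ≤ cnt u → ∃ u1 u2, u = u1 ++ u2 ∧
      (p ++ u1).foldl δ q ∈ C ∧ ∀ c ∈ C, Alive δ κ c u2 → u2.foldl δ c = (p ++ u).foldl δ q)
    (t : Q) : ∃ U : Set (List α), SH 2 U ∧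
      ∀ w, Alive δ κ q w → (w ∈ U ↔ w.foldl δ q = t) := by
  obtain ⟨N, hN⟩ := hs (2 * K + 2 * R + 1)
  have s1 := levB_sh δ Qf hf hcl κ D N hq fun _ r => r = t
  have s2 := levB_sh δ Qf hf hcl κ D N hq fun _ r => r ∈ C
  have s3 := levB_last δ Qf hf hcl κ C hC D N
  have s4 := SH.biUnion (hf.subset hC) fun c _ => s3 c
  refine ⟨_, (s1.mono one_le_two).union ((s2.mono one_le_two).mul
    (s4.star.mul ((s3 t).mono one_le_two))), fun w hw => ⟨?_, fun h => ?_⟩⟩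
  · rintro (⟨-, h⟩ | ⟨u, ⟨-, hu⟩, _, ⟨_, ⟨l, hl, rfl⟩, r, ⟨-, hr⟩, rfl⟩, rfl⟩)
    · exact h
    · rw [List.foldl_append]
      exact levB_sound δ κ C t r hr l
        (fun v hv => by obtain ⟨c, hc, -, h⟩ := hl v hv; exact ⟨c, hc, h⟩) _ hu
        ((levB_append δ κ q _ _).1 hw).2
  · by_cases hn : cnt w ≤ 2 * K + 2 * R + 1
    · exact Or.inl ⟨hN w hn, h⟩
    obtain ⟨u, r1, rfl, hu⟩ := levB_front h0 h1 (K := K) w (by omega)
    obtain ⟨u1, u2, rfl, a1, a2⟩ := hcut [] u ((levB_append δ κ q _ _).1 hw).1 hu.ge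
    obtain ⟨l, r, b1, b2, b3, b4⟩ := levB_complete δ κ C cnt R K h0 h1 h2 h3 h4 q hcut _ u1 u2 r1
      le_rfl hw (by have := h3 u1 u2; omega) a2
    refine Or.inr ⟨u1, ⟨hN _ (by have := h4 u1 u2; omega), a1⟩, _, ⟨_, ⟨l, fun x hx => ?_, rfl⟩, r,
      ⟨hN r b2, fun c hc hA => (b3 c hc hA).trans h⟩, rfl⟩, by rw [← b4, List.append_assoc]⟩
    obtain ⟨c1, c, hc, c2⟩ := b1 x hx
    exact ⟨c, hc, hN x c1, c2⟩

end Vale.Agent.P329
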