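import Vale.Agent.P329.SH

namespace Vale.Agent.P329

variable {α : Type}

/-- The vector space carried by the automaton. -/
abbrev VV (M : Type) [Monoid M] := MonoidAlgebra (ZMod 2) M

/-- The basis vector of a monoid element. -/
noncomputable def bv {M : Type} [Monoid M] (m : M) : VV M := MonoidAlgebra.of (ZMod 2) M m

theorem bv_mul {M : Type} [Monoid M] (a b : M) : bv (a * b) = bv a * bv b := by
  simp [bv]

theorem bv_one {M : Type} [Monoid M] : bv (1 : M) = 1 := by
  simp [bv, MonoidAlgebra.one_def]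

theorem bv_inj {M : Type} [Monoid M] : Function.Injective (bv : M → VV M) :=
  MonoidAlgebra.of_injective

theorem vv_finite (M : Type) [Monoid M] [Finite M] : Finite (VV M) :=
  Finite.of_equiv _ (MonoidAlgebra.coeffEquiv.trans Finsupp.equivFunOnFinite).symm

theorem vv_card (M : Type) [Monoid M] [Fintype M] : Nat.card (VV M) = 2 ^ Fintype.card M := by
  rw [Nat.card_congr (MonoidAlgebra.coeffEquiv.trans Finsupp.equivFunOnFinite), Nat.card_fun,
    Nat.card_zmod, Nat.card_eq_fintype_card]

/-- The value of a word under a letter map. -/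
def ph {M : Type} [Monoid M] (f : α → M) (w : List α) : M := (w.map f).prod

theorem ph_nil {M : Type} [Monoid M] (f : α → M) : ph f [] = 1 := by simp [ph]

theorem ph_append {M : Type} [Monoid M] (f : α → M) (u v : List α) :
    ph f (u ++ v) = ph f u * ph f v := by simp [ph]

theorem ph_single {M : Type} [Monoid M] (f : α → M) (a : α) : ph f [a] = f a := by simp [ph]

/-- Skew product automaton over a control automaton. -/
noncomputable def skew {M Ct : Type} [Monoid M] (st : Ct → α → Ct × M × VV M)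
    (q : Ct × VV M) (a : α) : Ct × VV M :=
  ((st q.1 a).1, q.2 * bv (st q.1 a).2.1 + (st q.1 a).2.2)

theorem lin_inv {M Ct : Type} [Monoid M] (f : α → M) (st : Ct → α → Ct × M × VV M)
    (pend : Ct → M) (hp : ∀ c a, (st c a).2.1 * pend (st c a).1 = pend c * f a)
    (c0 : Ct) (h0 : pend c0 = 1) (w : List α) :
    (w.foldl (skew st) (c0, 0)).1 = (w.foldl (skew st) (c0, 1)).1 ∧
      ((w.foldl (skew st) (c0, 1)).2 - (w.foldl (skew st) (c0, 0)).2) *
        bv (pend (w.foldl (skew st) (c0, 0)).1) = bv (ph f w) := by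
  induction w using List.reverseRecOn with
  | nil => simp [h0, ph_nil]
  | append_singleton w a ih =>
    obtain ⟨h1, h2⟩ := ih
    simp only [List.foldl_append, List.foldl_cons, List.foldl_nil]
    generalize w.foldl (skew st) (c0, 0) = p at h1 h2
    generalize w.foldl (skew st) (c0, 1) = q at h1 h2
    unfold skew
    rw [← h1]
    refine ⟨rfl, ?_⟩
    rw [ph_append, ph_single, bv_mul, ← h2, add_sub_add_right_eq_sub, ← sub_mul, mul_assoc,
      mul_assoc, ← bv_mul, ← bv_mul, hp]

theorem lin_mem {Q : Type} (δ : Q → α → Q) (Qf : Set Q) (hcl : ∀ q ∈ Qf, ∀ a, δ q a ∈ Qf)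
    (w : List α) : ∀ q ∈ Qf, w.foldl δ q ∈ Qf := by
  induction w with
  | nil => exact fun q hq => hq
  | cons a w ih => exact fun q hq => ih _ (hcl q hq a)

theorem linear_part {M Ct : Type} [Monoid M] (f : α → M) (st : Ct → α → Ct × M × VV M)
    (pend : Ct → M) (hp : ∀ c a, (st c a).2.1 * pend (st c a).1 = pend c * f a)
    (c0 : Ct) (h0 : pend c0 = 1) (Qf : Set (Ct × VV M)) (hf : Qf.Finite)
    (hcl : ∀ q ∈ Qf, ∀ a, skew st q a ∈ Qf) (hz : (c0, (0 : VV M)) ∈ Qf)
    (ho : (c0, (1 : VV M)) ∈ Qf)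
    (hA : ∀ t, SH 3 {w : List α | w.foldl (skew st) (c0, 0) = t})
    (hB : ∀ t, SH 3 {w : List α | w.foldl (skew st) (c0, 1) = t}) (P : Set M) :
    SH 3 {w : List α | ph f w ∈ P} := by
  have hfin : {t : (Ct × VV M) × (Ct × VV M) | t ∈ Qf ×ˢ Qf ∧
      ∃ m ∈ P, (t.2.2 - t.1.2) * bv (pend t.1.1) = bv m}.Finite :=
    (hf.prod hf).subset fun t ht => ht.1
  refine (SH.biUnion hfin fun t _ => (hA t.1).inter (hB t.2)).congr fun w => ⟨?_, fun hw => ?_⟩
  · rintro ⟨t, ⟨-, m, hm, e⟩, h1, h2⟩
    have h3 := (lin_inv f st pend hp c0 h0 w).2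
    rw [show w.foldl (skew st) (c0, 0) = t.1 from h1,
      show w.foldl (skew st) (c0, 1) = t.2 from h2, e] at h3
    exact (bv_inj h3 ▸ hm : ph f w ∈ P)
  · exact ⟨(w.foldl (skew st) (c0, 0), w.foldl (skew st) (c0, 1)),
      ⟨⟨lin_mem _ Qf hcl w _ hz, lin_mem _ Qf hcl w _ ho⟩, _, hw,
        (lin_inv f st pend hp c0 h0 w).2⟩, rfl, rfl⟩

theorem of_monoid (k : ℕ)
    (h : ∀ (M : Type) [Monoid M] [Fintype M] (f : α → M) (P : Set M),
      SH k {w : List α | ph f w ∈ P})
    (L : Language α) (hL : L.IsRegular) : SH k L := by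
  obtain ⟨σ, _, A, rfl⟩ := hL
  have : Finite (Function.End σ) := (inferInstance : Finite (σ → σ))
  have : Finite (Function.End σ)ᵐᵒᵖ := Finite.of_equiv _ MulOpposite.opEquiv
  let _ : Fintype (Function.End σ)ᵐᵒᵖ := Fintype.ofFinite _
  have key : ∀ (w : List α) (q : σ),
      (ph (M := (Function.End σ)ᵐᵒᵖ) (fun a => MulOpposite.op fun q => A.step q a) w).unop q =
        A.evalFrom q w := by
    intro w
    induction w with
    | nil => intro q; rfl
    | cons a w ih =>
      intro q
      rw [show a :: w = [a] ++ w from rfl, ph_append, ph_single, MulOpposite.unop_mul]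
      exact ih _
  refine (h (Function.End σ)ᵐᵒᵖ (fun a => MulOpposite.op fun q => A.step q a)
    {g | g.unop A.start ∈ A.accept}).congr fun w => ?_
  simp only [Set.mem_ofPred_eq, key]
  rfl

theorem pow_period {M : Type} [Monoid M] [Fintype M] (m : M) (k : ℕ)
    (hk : Fintype.card M ≤ k) : m ^ (k + (Fintype.card M).factorial) = m ^ k := by
  have key : ∀ i j : ℕ, i < j → j ≤ Fintype.card M → m ^ i = m ^ j →
      m ^ (k + (Fintype.card M).factorial) = m ^ k := by
    intro i j hij hj e
    obtain ⟨c, hc⟩ := Nat.dvd_factorial (m := j - i) (n := Fintype.card M) (by omega) (by omega)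
    rw [hc]
    clear hc
    induction c with
    | zero => rfl
    | succ c ih =>
      rw [show k + (j - i) * (c + 1) = (k - i + (j - i) * c) + j by rw [mul_add_one]; omega,
        pow_add, ← e, ← pow_add, ← ih]
      congr 1
      omega
  obtain ⟨i, j, hij, e⟩ := Fintype.exists_ne_map_eq_of_card_lt
    (fun i : Fin (Fintype.card M + 1) => m ^ (i : ℕ)) (by simp)
  rcases lt_or_gt_of_ne (Fin.val_ne_of_ne hij) with h | h
  · exact key i j h (Nat.lt_succ_iff.1 j.2) e
  · exact key j i h (Nat.lt_succ_iff.1 i.2) e.symm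

end Vale.Agent.P329
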