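import Vale.Agent.P329.Defer

namespace Vale.Agent.P329

open Classical

variable {S V G R H Dl : Type} {K M : ℕ}

theorem mach_known [Fintype R] [Fintype Dl] (Θ : Dat S G R H Dl K M) (Xs : Finset S) :
    (Finset.univ.filter fun ρ => Θ.Known Xs ρ).card ≤ M * Fintype.card Dl + K * Xs.card := by
  have h1 : (Finset.univ.filter fun ρ => Θ.Known Xs ρ) ⊆
      (Finset.univ.image fun p : Fin M × Dl => Θ.rt p.1 p.2) ∪
        ((Finset.univ : Finset (Fin K)) ×ˢ Xs).biUnion fun p =>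
          ((Θ.sk p.1 p.2).map fun z => z.2.1).toFinset := by
    intro ρ hρ
    rcases (Finset.mem_filter.mp hρ).2 with ⟨k, δ, h⟩ | ⟨i, x, hx, j, g, h⟩
    · exact Finset.mem_union_left _ (Finset.mem_image.mpr ⟨(k, δ), Finset.mem_univ _, h⟩)
    · refine Finset.mem_union_right _ (Finset.mem_biUnion.mpr ⟨(i, x), ?_, ?_⟩)
      · exact Finset.mem_product.mpr ⟨Finset.mem_univ _, hx⟩
      · simp [h]
  refine (Finset.card_le_card h1).trans ((Finset.card_union_le _ _).trans (add_le_add ?_ ?_))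
  · refine Finset.card_image_le.trans ?_
    simp
  · refine (Finset.card_biUnion_le_card_mul _ _ 1 fun p _ => ?_).trans ?_
    · cases Θ.sk p.1 p.2 <;> simp
    · simp

theorem mach_bad [Fintype S] [Fintype R] [Fintype Dl] (Θ : Dat S G R H Dl K M)
    (hsk : ∀ i ρ, {x | ∃ j g, Θ.sk i x = some (j, ρ, g)}.ncard ≤ 2) (Xs : Finset S) :
    (Finset.univ.filter fun x => Θ.Bad Xs x).card
      ≤ 2 * K * (M * Fintype.card Dl + K * Xs.card) := by
  have h1 : (Finset.univ.filter fun x => Θ.Bad Xs x) ⊆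
      ((Finset.univ : Finset (Fin K)) ×ˢ (Finset.univ.filter fun ρ => Θ.Known Xs ρ)).biUnion
        fun p => Finset.univ.filter fun x => ∃ j g, Θ.sk p.1 x = some (j, p.2, g) := by
    intro x hx
    obtain ⟨i, j, ρ, g, h, hk⟩ := (Finset.mem_filter.mp hx).2
    refine Finset.mem_biUnion.mpr ⟨(i, ρ), ?_, ?_⟩
    · exact Finset.mem_product.mpr
        ⟨Finset.mem_univ _, Finset.mem_filter.mpr ⟨Finset.mem_univ _, hk⟩⟩
    · exact Finset.mem_filter.mpr ⟨Finset.mem_univ _, j, g, h⟩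
  refine (Finset.card_le_card h1).trans ?_
  refine (Finset.card_biUnion_le_card_mul _ _ 2 fun p _ => ?_).trans ?_
  · have h2 := hsk p.1 p.2
    rw [← Set.ncard_coe_finset]
    refine le_trans (le_of_eq ?_) h2
    congr 1
    ext x
    simp
  · rw [Finset.card_product, Finset.card_univ, Fintype.card_fin]
    have h3 := mach_known Θ Xs
    calc K * (Finset.univ.filter fun ρ => Θ.Known Xs ρ).card * 2
        = 2 * K * (Finset.univ.filter fun ρ => Θ.Known Xs ρ).card := by ring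
      _ ≤ _ := Nat.mul_le_mul_left _ h3

/-- weight of an idle state -/
noncomputable def machB (a b hh : ℝ) (ρ0 β0 r β U : ℕ) : ℝ :=
  a ^ (ρ0 - r) * b ^ (β0 - β) * hh ^ U

/-- weight of a state -/
noncomputable def machW {s1 : ℕ} (a b c hh : ℝ) (ρ0 β0 : ℕ) : MS S V R H K s1 → ℝ
  | MS.idle _ r β U => machB a b hh ρ0 β0 r β U
  | MS.run _ r β U l _ _ _ _ => c ^ l * machB a b hh ρ0 β0 r β U

theorem machB_nonneg {a b hh : ℝ} (ha : 0 ≤ a) (hb : 0 ≤ b) (hh0 : 0 ≤ hh) (ρ0 β0 r β U : ℕ) :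
    0 ≤ machB a b hh ρ0 β0 r β U := by
  unfold machB
  positivity

theorem machW_nonneg {s1 : ℕ} {a b c hh : ℝ} (ha : 0 ≤ a) (hb : 0 ≤ b) (hc : 0 ≤ c)
    (hh0 : 0 ≤ hh) (ρ0 β0 : ℕ) (s : MS S V R H K s1) : 0 ≤ machW a b c hh ρ0 β0 s := by
  cases s with
  | idle Xs r β U => exact machB_nonneg ha hb hh0 _ _ _ _ _
  | run Xs r β U l e u i ms =>
    exact mul_nonneg (pow_nonneg hc _) (machB_nonneg ha hb hh0 _ _ _ _ _)

theorem mach_pow_step {a : ℝ} (ha0 : 0 ≤ a) (ha1 : a ≤ 1) (n r : ℕ) :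
    a * a ^ (n - (r + 1)) ≤ a ^ (n - r) := by
  rw [← pow_succ']
  exact pow_le_pow_of_le_one ha0 ha1 (by omega)

theorem machB_r {a b hh : ℝ} (ha0 : 0 ≤ a) (ha1 : a ≤ 1) (hb : 0 ≤ b) (hh0 : 0 ≤ hh)
    (ρ0 β0 r β U : ℕ) : a * machB a b hh ρ0 β0 (r + 1) β U ≤ machB a b hh ρ0 β0 r β U := by
  unfold machB
  have h1 := mach_pow_step ha0 ha1 ρ0 r
  have h2 : 0 ≤ b ^ (β0 - β) * hh ^ U := by positivity
  calc a * (a ^ (ρ0 - (r + 1)) * b ^ (β0 - β) * hh ^ U)
      = (a * a ^ (ρ0 - (r + 1))) * (b ^ (β0 - β) * hh ^ U) := by ring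
    _ ≤ a ^ (ρ0 - r) * (b ^ (β0 - β) * hh ^ U) := mul_le_mul_of_nonneg_right h1 h2
    _ = _ := by ring

theorem machB_b {a b hh : ℝ} (ha0 : 0 ≤ a) (hb0 : 0 ≤ b) (hb1 : b ≤ 1) (hh0 : 0 ≤ hh)
    (ρ0 β0 r β U : ℕ) : b * machB a b hh ρ0 β0 r (β + 1) U ≤ machB a b hh ρ0 β0 r β U := by
  unfold machB
  have h1 := mach_pow_step hb0 hb1 β0 β
  have h2 : 0 ≤ a ^ (ρ0 - r) * hh ^ U := by positivity
  calc b * (a ^ (ρ0 - r) * b ^ (β0 - (β + 1)) * hh ^ U)
      = (b * b ^ (β0 - (β + 1))) * (a ^ (ρ0 - r) * hh ^ U) := by ring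
    _ ≤ b ^ (β0 - β) * (a ^ (ρ0 - r) * hh ^ U) := mul_le_mul_of_nonneg_right h1 h2
    _ = _ := by ring

theorem machB_U (a b hh : ℝ) (ρ0 β0 r β : ℕ) {U : ℕ} (hU : U ≠ 0) :
    hh * machB a b hh ρ0 β0 r β (U - 1) = machB a b hh ρ0 β0 r β U := by
  obtain ⟨k, rfl⟩ := Nat.exists_eq_succ_of_ne_zero hU
  unfold machB
  simp only [Nat.succ_eq_add_one, Nat.add_sub_cancel]
  ring

theorem mach_nd [Fintype V] [Fintype R] [Fintype H] [Fintype Dl] (Θ : Dat S G R H Dl K M)
    (s1 L Nt ρ0 β0 : ℕ) (a b c : ℝ) (hc0 : 0 < c) (hb0 : 0 < b) (ha0 : 0 ≤ a) (ha1 : a ≤ 1)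
    (hst : ((M * Fintype.card Dl + K * Nt) * Fintype.card H * Fintype.card V * K ^ (1 + s1) : ℕ)
      * c ^ L ≤ a) (Xs : Finset S) (r β U : ℕ) :
    ∑ s' ∈ Θ.nd s1 L Nt (MS.idle Xs r β U : MS S V R H K s1),
        machW a b c (Fintype.card H) ρ0 β0 s'
      ≤ machB a b (Fintype.card H) ρ0 β0 r β U := by
  have hH : (0 : ℝ) ≤ Fintype.card H := Nat.cast_nonneg _
  have hB := fun r β U => machB_nonneg ha0 hb0.le hH ρ0 β0 r β U
  simp only [Dat.nd]
  split_ifs with hX
  · refine (Finset.sum_image_le_of_nonneg fun s _ =>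
      machW_nonneg ha0 hb0.le hc0.le hH ρ0 β0 s).trans ?_
    simp only [machW]
    rw [Finset.sum_const, nsmul_eq_mul]
    have hcard : (Finset.univ.filter fun p : (R × H) × V × Fin K × (Fin s1 → Fin K) =>
        Θ.Known Xs p.1.1).card
        ≤ (M * Fintype.card Dl + K * Nt) * Fintype.card H * Fintype.card V * K ^ (1 + s1) := by
      have e : (Finset.univ.filter fun p : (R × H) × V × Fin K × (Fin s1 → Fin K) =>
          Θ.Known Xs p.1.1) = ((Finset.univ.filter fun ρ => Θ.Known Xs ρ) ×ˢ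
            (Finset.univ : Finset H)) ×ˢ (Finset.univ : Finset (V × Fin K × (Fin s1 → Fin K))) := by
        ext p
        simp
      rw [e, Finset.card_product, Finset.card_product]
      simp only [Finset.card_univ, Fintype.card_prod, Fintype.card_fin, Fintype.card_pi,
        Finset.prod_const]
      have h3 : (Finset.univ.filter fun ρ => Θ.Known Xs ρ).card ≤ M * Fintype.card Dl + K * Nt :=
        (mach_known Θ Xs).trans (Nat.add_le_add_left (Nat.mul_le_mul_left _ hX) _)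
      calc (Finset.univ.filter fun ρ => Θ.Known Xs ρ).card * Fintype.card H *
            (Fintype.card V * (K * K ^ s1))
          = (Finset.univ.filter fun ρ => Θ.Known Xs ρ).card *
            (Fintype.card H * Fintype.card V * K ^ (1 + s1)) := by ring
        _ ≤ (M * Fintype.card Dl + K * Nt) * (Fintype.card H * Fintype.card V * K ^ (1 + s1)) :=
          Nat.mul_le_mul_right _ h3
        _ = _ := by ring
    have hcard' : ((Finset.univ.filter fun p : (R × H) × V × Fin K × (Fin s1 → Fin K) =>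
        Θ.Known Xs p.1.1).card : ℝ) * c ^ L ≤ a :=
      le_trans (mul_le_mul_of_nonneg_right (Nat.cast_le.mpr hcard) (pow_nonneg hc0.le _)) hst
    rw [← mul_assoc]
    exact (mul_le_mul_of_nonneg_right hcard' (hB _ _ _)).trans
      (machB_r ha0 ha1 hb0.le hH _ _ _ _ _)
  · rw [Finset.sum_empty]
    exact hB _ _ _

/-- delays which are ambiguous for the looked up hash map -/
noncomputable def machN [Fintype S] (Θ : Dat S G R H Dl K M) {s1 : ℕ} (ms : Fin s1 → Fin K) :
    Finset S := Finset.univ.filter fun x => ∃ en, Θ.look ms = some en ∧ en x = none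

theorem machN_card [Fintype S] (Θ : Dat S G R H Dl K M) {amb : ℕ}
    (hdic : ∀ i en, Θ.dic i = some en → {x | en x = none}.ncard ≤ amb) {s1 : ℕ}
    (ms : Fin s1 → Fin K) : (machN Θ ms).card ≤ amb := by
  cases hl : Θ.look ms with
  | none =>
    have : machN Θ ms = ∅ := by
      ext x
      simp [machN, hl]
    rw [this]
    simp
  | some en =>
    have h1 : ∃ i, Θ.dic i = some en := by
      unfold Dat.look at hl
      split_ifs at hl with h
      exact ⟨_, hl⟩
    obtain ⟨i, hi⟩ := h1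
    have h2 := hdic i en hi
    rw [← Set.ncard_coe_finset]
    refine le_trans (le_of_eq ?_) h2
    congr 1
    ext x
    simp [machN, hl]

theorem mach_opts [Fintype S] [Fintype H] (Θ : Dat S G R H Dl K M) {s1 : ℕ}
    (ms : Fin s1 → Fin K) (x : S) {a b : ℝ} (ha0 : 0 ≤ a) (hb0 : 0 ≤ b) (ρ0 β0 r β U : ℕ) :
    ∑ p ∈ Θ.opts ms x U, machB a b (Fintype.card H) ρ0 β0 r β p.2
      ≤ (1 + if x ∈ machN Θ ms then (Fintype.card H : ℝ) else 0)
        * machB a b (Fintype.card H) ρ0 β0 r β U := by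
  have hH : (0 : ℝ) ≤ Fintype.card H := Nat.cast_nonneg _
  have hB := fun r β U => machB_nonneg ha0 hb0 hH ρ0 β0 r β U
  have h0 : (0 : ℝ) ≤ if x ∈ machN Θ ms then (Fintype.card H : ℝ) else 0 := by
    split_ifs
    · exact hH
    · exact le_rfl
  have hone : machB a b (Fintype.card H) ρ0 β0 r β U
      ≤ (1 + if x ∈ machN Θ ms then (Fintype.card H : ℝ) else 0)
        * machB a b (Fintype.card H) ρ0 β0 r β U :=
    le_mul_of_one_le_left (hB _ _ _) (by linarith)
  unfold Dat.opts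
  cases hl : Θ.look ms with
  | none =>
    simp only
    by_cases hU : U = 0
    · rw [if_pos hU, Finset.sum_empty]
      exact le_trans (hB _ _ _) hone
    · rw [if_neg hU]
      refine (Finset.sum_image_le_of_nonneg fun s _ => hB _ _ _).trans ?_
      simp only
      rw [Finset.sum_const, nsmul_eq_mul, Finset.card_univ, machB_U _ _ _ _ _ _ _ hU]
      exact hone
  | some en =>
    simp only
    cases he : en x with
    | none =>
      simp only
      refine (Finset.sum_image_le_of_nonneg fun s _ => hB _ _ _).trans ?_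
      simp only
      have hx : x ∈ machN Θ ms := by
        simp only [machN, Finset.mem_filter, Finset.mem_univ, true_and]
        exact ⟨en, hl, he⟩
      rw [Finset.sum_const, nsmul_eq_mul, Finset.card_univ, if_pos hx]
      have := hB r β U
      nlinarith
    | some h =>
      simp only
      rw [Finset.sum_singleton]
      exact hone

theorem mach_tr [Fintype S] [AddCommGroup V] [Fintype H] (Θ : Dat S G R H Dl K M)
    (act : G → V → V) (s1 L Nt ρ0 β0 : ℕ) (a b c : ℝ) (hc0 : 0 < c) (hc1 : c ≤ 1) (hb0 : 0 < b)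
    (hb1 : b ≤ 1) (ha0 : 0 ≤ a) (Xs : Finset S) (r β U l : ℕ) (e : R × H) (u : V) (i : Fin K)
    (ms : Fin s1 → Fin K) (x : S) (y : V) :
    ∑ s' ∈ Θ.tr act s1 L Nt (MS.run Xs r β U l e u i ms) (x, y),
        machW a b c (Fintype.card H) ρ0 β0 s'
      ≤ ((if Θ.Bad Xs x ∧ Xs.card ≤ Nt then 1 / (c ^ L * b) else 0)
          + (if y = -u then 0 else 1) *
            (1 + if x ∈ machN Θ ms then (Fintype.card H : ℝ) else 0) / c)
        * (c ^ l * machB a b (Fintype.card H) ρ0 β0 r β U) := by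
  have hH : (0 : ℝ) ≤ Fintype.card H := Nat.cast_nonneg _
  have hB := fun r β U => machB_nonneg ha0 hb0.le hH ρ0 β0 r β U
  have h0 : (0 : ℝ) ≤ if x ∈ machN Θ ms then (Fintype.card H : ℝ) else 0 := by
    split_ifs
    · exact hH
    · exact le_rfl
  have h1 : (0 : ℝ) ≤ if Θ.Bad Xs x ∧ Xs.card ≤ Nt then 1 / (c ^ L * b) else 0 := by
    split_ifs
    · positivity
    · exact le_rfl
  have h2 : (0 : ℝ) ≤ if y = -u then 0 else 1 := by
    split_ifs
    · exact le_rfl
    · exact zero_le_one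
  have hW : 0 ≤ c ^ l * machB a b (Fintype.card H) ρ0 β0 r β U :=
    mul_nonneg (pow_nonneg hc0.le _) (hB _ _ _)
  have hopt := mach_opts Θ ms x ha0 hb0.le ρ0 β0 r β U
  generalize (if x ∈ machN Θ ms then (Fintype.card H : ℝ) else 0) = t0 at *
  by_cases hC : Xs.card ≤ Nt ∧ 1 ≤ l ∧ l ≤ L ∧ u + y ≠ 0
  swap
  · simp only [Dat.tr, if_neg hC]
    rw [Finset.sum_empty]
    positivity
  have hy : y ≠ -u := fun h => hC.2.2.2 (by rw [h]; simp)
  rw [if_neg hy]
  obtain ⟨k, rfl⟩ : ∃ k, l = k + 1 := ⟨l - 1, by omega⟩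
  have hk : (1 * (1 + t0) / c) * (c ^ (k + 1) * machB a b (Fintype.card H) ρ0 β0 r β U)
      = c ^ k * ((1 + t0) * machB a b (Fintype.card H) ρ0 β0 r β U) := by
    field_simp
    ring
  by_cases hbad : Θ.Bad Xs x
  · simp only [Dat.tr, if_pos hC, if_pos hbad]
    rw [Finset.sum_singleton, if_pos ⟨hbad, hC.1⟩]
    simp only [machW]
    have h3 := machB_b ha0 hb0.le hb1 hH ρ0 β0 r β U
    have h4 : c ^ L ≤ c ^ (k + 1) := pow_le_pow_of_le_one hc0.le hc1 hC.2.2.1
    have h5 : machB a b (Fintype.card H) ρ0 β0 r (β + 1) U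
        ≤ 1 / (c ^ L * b) * (c ^ (k + 1) * machB a b (Fintype.card H) ρ0 β0 r β U) := by
      rw [one_div, inv_mul_eq_div, le_div_iff₀ (by positivity)]
      calc machB a b (Fintype.card H) ρ0 β0 r (β + 1) U * (c ^ L * b)
          = c ^ L * (b * machB a b (Fintype.card H) ρ0 β0 r (β + 1) U) := by ring
        _ ≤ c ^ (k + 1) * machB a b (Fintype.card H) ρ0 β0 r β U :=
          mul_le_mul h4 h3 (mul_nonneg hb0.le (hB _ _ _)) (pow_nonneg hc0.le _)
    have h6 : 0 ≤ (1 * (1 + t0) / c) * (c ^ (k + 1) * machB a b (Fintype.card H) ρ0 β0 r β U) := by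
      positivity
    rw [add_mul]
    linarith
  · rw [if_neg (fun h => hbad h.1), zero_add, hk]
    by_cases hl : k + 1 = 1
    · simp only [Dat.tr, if_pos hC, if_neg hbad, if_pos hl]
      rw [Finset.sum_singleton]
      simp only [machW]
      have : k = 0 := by omega
      subst this
      have := hB r β U
      rw [pow_zero, one_mul]
      nlinarith
    · simp only [Dat.tr, if_pos hC, if_neg hbad, if_neg hl]
      cases hs : Θ.sk i x with
      | none =>
        simp only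
        rw [Finset.sum_empty]
        have := hB r β U
        positivity
      | some z =>
        obtain ⟨j, r', g⟩ := z
        simp only
        refine (Finset.sum_image_le_of_nonneg fun s _ =>
          machW_nonneg ha0 hb0.le hc0.le hH ρ0 β0 s).trans ?_
        simp only [machW, Nat.add_sub_cancel]
        rw [← Finset.mul_sum]
        exact mul_le_mul_of_nonneg_left hopt (pow_nonneg hc0.le _)

theorem mach_q [Fintype S] [Nonempty S] [AddCommGroup V] [Fintype V] [Fintype R] [Fintype H]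
    [Fintype Dl] (Θ : Dat S G R H Dl K M) (act : G → V → V)
    (s1 L Nt ρ0 β0 amb : ℕ) (a b c : ℝ) (hc0 : 0 < c) (hc1 : c ≤ 1) (hb0 : 0 < b)
    (hb1 : b ≤ 1) (ha0 : 0 ≤ a)
    (hsk : ∀ i ρ, {x | ∃ j g, Θ.sk i x = some (j, ρ, g)}.ncard ≤ 2)
    (hdic : ∀ i en, Θ.dic i = some en → {x | en x = none}.ncard ≤ amb)
    (hm : (1 - 1 / (Fintype.card V : ℝ)) * (1 + (amb * Fintype.card H : ℕ) / (Fintype.card S : ℝ))
      + (2 * K * (M * Fintype.card Dl + K * Nt) : ℕ) / (Fintype.card S : ℝ) / (c ^ L * b) ≤ c)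
    (Xs : Finset S) (r β U l : ℕ) (e : R × H) (u : V) (i : Fin K) (ms : Fin s1 → Fin K) :
    ∑ v : S × V, ∑ s' ∈ Θ.tr act s1 L Nt (MS.run Xs r β U l e u i ms) v,
        machW a b c (Fintype.card H) ρ0 β0 s'
      ≤ Fintype.card (S × V) * (c ^ l * machB a b (Fintype.card H) ρ0 β0 r β U) := by
  have hH : (0 : ℝ) ≤ Fintype.card H := Nat.cast_nonneg _
  have hW : 0 ≤ c ^ l * machB a b (Fintype.card H) ρ0 β0 r β U :=
    mul_nonneg (pow_nonneg hc0.le _) (machB_nonneg ha0 hb0.le hH _ _ _ _ _)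
  refine (Finset.sum_le_sum fun v _ =>
    mach_tr Θ act s1 L Nt ρ0 β0 a b c hc0 hc1 hb0 hb1 ha0 Xs r β U l e u i ms v.1 v.2).trans ?_
  rw [← Finset.sum_mul]
  refine mul_le_mul_of_nonneg_right ?_ hW
  rw [Finset.sum_add_distrib, Fintype.sum_prod_type, Fintype.sum_prod_type]
  simp only
  have hS : (0 : ℝ) < Fintype.card S := Nat.cast_pos.mpr Fintype.card_pos
  have hV : (0 : ℝ) < Fintype.card V := Nat.cast_pos.mpr (Fintype.card_pos_iff.mpr ⟨0⟩)
  have hcb : 0 < c ^ L * b := by positivity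
  have e1 : ∑ x : S, ∑ _y : V, (if Θ.Bad Xs x ∧ Xs.card ≤ Nt then 1 / (c ^ L * b) else 0)
      ≤ Fintype.card V * (((2 * K * (M * Fintype.card Dl + K * Nt) : ℕ) : ℝ) / (c ^ L * b)) := by
    simp only [Finset.sum_const, nsmul_eq_mul, Finset.card_univ]
    rw [← Finset.mul_sum]
    refine mul_le_mul_of_nonneg_left ?_ hV.le
    rw [← Finset.sum_filter, Finset.sum_const, nsmul_eq_mul, mul_one_div]
    refine div_le_div_of_nonneg_right (Nat.cast_le.mpr ?_) hcb.le
    by_cases hX : Xs.card ≤ Nt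
    · refine le_trans (Finset.card_le_card fun x hx => ?_) ((mach_bad Θ hsk Xs).trans
        (Nat.mul_le_mul_left _ (Nat.add_le_add_left (Nat.mul_le_mul_left _ hX) _)))
      exact Finset.mem_filter.mpr ⟨Finset.mem_univ _, (Finset.mem_filter.mp hx).2.1⟩
    · simp [hX]
  have e2 : ∑ y : V, (if y = -u then (0 : ℝ) else 1) = Fintype.card V - 1 := by
    have : ∀ y : V, (if y = -u then (0 : ℝ) else 1) = 1 - if y = -u then 1 else 0 := by
      intro y
      split_ifs <;> simp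
    simp only [this]
    rw [Finset.sum_sub_distrib]
    simp
  have e3 : ∑ x : S, (1 + if x ∈ machN Θ ms then (Fintype.card H : ℝ) else 0)
      ≤ Fintype.card S + ((amb * Fintype.card H : ℕ) : ℝ) := by
    rw [Finset.sum_add_distrib, ← Finset.sum_filter]
    simp only [Finset.sum_const, nsmul_eq_mul, Finset.card_univ, mul_one]
    refine add_le_add le_rfl ?_
    have h1 : (Finset.univ.filter fun x => x ∈ machN Θ ms) = machN Θ ms := by
      ext x
      simp
    rw [h1]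
    push_cast
    exact mul_le_mul_of_nonneg_right (Nat.cast_le.mpr (machN_card Θ hdic ms)) hH
  have hV1 : (0 : ℝ) ≤ Fintype.card V - 1 := by
    have : (1 : ℝ) ≤ Fintype.card V := Nat.one_le_cast.mpr (Fintype.card_pos_iff.mpr ⟨0⟩)
    linarith
  have e4 : ∑ x : S, ∑ y : V, (if y = -u then (0 : ℝ) else 1) *
        (1 + if x ∈ machN Θ ms then (Fintype.card H : ℝ) else 0) / c
      ≤ (Fintype.card V - 1) * (Fintype.card S + ((amb * Fintype.card H : ℕ) : ℝ)) / c := by
    simp only [← Finset.sum_div, ← Finset.sum_mul]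
    rw [e2, ← Finset.mul_sum]
    exact div_le_div_of_nonneg_right (mul_le_mul_of_nonneg_left e3 hV1) hc0.le
  refine (add_le_add e1 e4).trans ?_
  rw [Fintype.card_prod]
  push_cast at hm ⊢
  generalize (Fintype.card S : ℝ) = s at *
  generalize (Fintype.card V : ℝ) = v at *
  generalize (amb : ℝ) * (Fintype.card H : ℝ) = A at *
  have hN : (0 : ℝ) ≤ 2 * (K : ℝ) * (M * Fintype.card Dl + K * Nt) := by positivity
  generalize 2 * (K : ℝ) * (M * Fintype.card Dl + K * Nt) = N at *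
  generalize c ^ L * b = d at *
  have f1 : (v - 1) * (s + A) / c = s * v * ((1 - 1 / v) * (1 + A / s) / c) := by
    field_simp
  have f2 : v * (N / d) = s * v * (N / s / d) := by
    field_simp
  have f3 : N / s / d ≤ N / s / d / c := le_div_self (by positivity) hc0 hc1
  have f4 : (1 - 1 / v) * (1 + A / s) / c + N / s / d / c ≤ 1 := by
    rw [← add_div, div_le_one hc0]
    exact hm
  rw [f1, f2, ← mul_add]
  exact mul_le_of_le_one_right (by positivity) (by linarith)

theorem mach_bound [Fintype S] [Nonempty S] [AddCommGroup V] [Fintype V] [Fintype R] [Fintype H]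
    [Nonempty H] [Fintype Dl] (Θ : Dat S G R H Dl K M) (act : G → V → V)
    (s1 L Nt ρ0 β0 U amb : ℕ) (a b c : ℝ) (hc0 : 0 < c) (hc1 : c ≤ 1) (hb0 : 0 < b)
    (hb1 : b ≤ 1) (ha0 : 0 ≤ a) (ha1 : a ≤ 1)
    (hsk : ∀ i ρ, {x | ∃ j g, Θ.sk i x = some (j, ρ, g)}.ncard ≤ 2)
    (hdic : ∀ i en, Θ.dic i = some en → {x | en x = none}.ncard ≤ amb)
    (hst : ((M * Fintype.card Dl + K * Nt) * Fintype.card H * Fintype.card V * K ^ (1 + s1) : ℕ)
      * c ^ L ≤ a)
    (hm : (1 - 1 / (Fintype.card V : ℝ)) * (1 + (amb * Fintype.card H : ℕ) / (Fintype.card S : ℝ))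
      + (2 * K * (M * Fintype.card Dl + K * Nt) : ℕ) / (Fintype.card S : ℝ) / (c ^ L * b) ≤ c) :
    ({tb : R × H → S × V | Θ.Acc act s1 L Nt ρ0 β0 U tb}.ncard : ℝ) ≤
      (Fintype.card (S × V) : ℝ) ^ Fintype.card (R × H) *
        (a ^ ρ0 * b ^ β0 * (Fintype.card H : ℝ) ^ U) := by
  have hH : (0 : ℝ) ≤ Fintype.card H := Nat.cast_nonneg _
  have hH1 : (1 : ℝ) ≤ Fintype.card H := Nat.one_le_cast.mpr Fintype.card_pos
  have : Nonempty (S × V) := ⟨(Classical.arbitrary S, 0)⟩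
  have hd := deferred (mq (S := S) (V := V) (R := R) (H := H) (K := K) (s1 := s1))
    (Θ.tr act s1 L Nt) (Θ.nd s1 L Nt) (machW a b c (Fintype.card H) ρ0 β0)
    (machW_nonneg ha0 hb0.le hc0.le hH ρ0 β0) ?_ ?_ (MS.idle ∅ 0 0 U) ∅
  · refine le_trans (Nat.cast_le.mpr (Set.ncard_le_ncard ?_ (Set.toFinite _))) hd
    rintro tb ⟨ρ, β, U', Q, hP, h1, h2⟩
    refine ⟨_, _, hP, ?_⟩
    simp only [machW, machB]
    rw [Nat.sub_eq_zero_of_le h1, Nat.sub_eq_zero_of_le h2, pow_zero, pow_zero, one_mul, one_mul]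
    exact one_le_pow₀ hH1
  · intro s hs
    cases s with
    | idle Xs r β U => exact mach_nd Θ s1 L Nt ρ0 β0 a b c hc0 hb0 ha0 ha1 hst Xs r β U
    | run Xs r β U l e u i ms => simp [mq] at hs
  · intro s e hs
    cases s with
    | idle Xs r β U => simp [mq] at hs
    | run Xs r β U l e u i ms =>
      exact mach_q Θ act s1 L Nt ρ0 β0 amb a b c hc0 hc1 hb0 hb1 ha0 hsk hdic hm Xs r β U l e u i ms

end Vale.Agent.P329
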