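import Vale.Agent.P329.Conc
import Vale.Agent.P329.LevA
import Vale.Agent.P329.LevB

namespace Vale.Agent.P329

open Classical

theorem sh_monoid {α : Type} [Fintype α] (M : Type) [Monoid M] [Fintype M] (f : α → M)
    (S : Set M) : SH 3 {w : List α | ph f w ∈ S} := by
  obtain ⟨u, J, r, hr, P, om, tb, dl, Dm, K, Mg, E', T, SkF, EnF, RtF, hf, hF, hA⟩ :=
    exists_fit f
  have : Finite (VV M) := vv_finite M
  have hX : ∀ e, P.X e < Qs u om J := fun e => by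
    rw [hF.hX]; exact val_lt u hF.hom _
  have hfin := P.bd_finite (Qs u om J)
  have hcl : ∀ q ∈ {q : Ctl α M (ZMod r × ZMod r) × VV M | P.Bd (Qs u om J) q.1}, ∀ a,
      P.δ q a ∈ {q : Ctl α M (ZMod r × ZMod r) × VV M | P.Bd (Qs u om J) q.1} :=
    fun q hq a => P.bd_st hF.ok hX q.1 hq a
  have hv : ∀ v : VV M, (Ctl.za 0 0 0 1, v) ∈
      {q : Ctl α M (ZMod r × ZMod r) × VV M | P.Bd (Qs u om J) q.1} :=
    fun v => ⟨hF.ok.hE, hF.ok.hA⟩
  have hC : P.Cand dl ⊆ {q : Ctl α M (ZMod r × ZMod r) × VV M | P.Bd (Qs u om J) q.1} := by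
    rintro q ⟨e, h, v, m, -, he, rfl⟩
    exact ⟨he, lt_of_lt_of_le (hF.hdl e h v he) hF.hDA⟩
  have h2 : ∀ (v : VV M) t, ∃ U : Set (List α), SH 2 U ∧
      ∀ w, Alive P.δ (kap α M (ZMod r × ZMod r)) (Ctl.za 0 0 0 1, v) w →
        (w ∈ U ↔ w.foldl P.δ (Ctl.za 0 0 0 1, v) = t) := fun v t =>
    level_two P.δ _ hfin hcl _ (P.Cand dl) hC (cnt P.cd P.D2) (5 * P.D2) K P.D2
      (cnt_nil _ _) (cnt_snoc _ hF.ok.hD2) (cnt_append _ _) (cnt_right _ _) (cnt_left _ _)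
      (simple_of_cnt hF.ok.hcd hF.ok.hD2) _ (hv v)
      (fun p w _ hw => good_cut hF hA v p w hw) t
  have h3 : ∀ (v : VV M) t, SH 3 {w : List α | w.foldl P.δ (Ctl.za 0 0 0 1, v) = t} :=
    fun v t => level_one P.δ _ hfin hcl _ (hv 0) _ (hv v) (h2 0) (h2 v) t
  rw [← hf]
  exact linear_part P.f P.st P.pend P.pend_st (Ctl.za 0 0 0 1) rfl _ hfin hcl (hv 0) (hv 1)
    (h3 0) (h3 1) S

theorem main {α : Type} [Fintype α] (L : Language α) (hL : L.IsRegular) : SH 3 L :=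
  of_monoid 3 (fun M _ _ f S => sh_monoid M f S) L hL

end Vale.Agent.P329
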