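import Vale.Agent.P329.Lin

namespace Vale.Agent.P329

open Classical

variable {α : Type}

/-- The factor of length `n` of the sequence `ω` starting at `s`. -/
def seg (ω : ℕ → α) (s n : ℕ) : List α := (List.range n).map fun i => ω (s + i)

theorem seg_length (ω : ℕ → α) (s n : ℕ) : (seg ω s n).length = n := by simp [seg]

theorem seg_zero (ω : ℕ → α) (s : ℕ) : seg ω s 0 = [] := by simp [seg]

theorem seg_succ (ω : ℕ → α) (s n : ℕ) : seg ω s (n + 1) = seg ω s n ++ [ω (s + n)] := by
  simp [seg, List.range_succ]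

theorem seg_add (ω : ℕ → α) (s m n : ℕ) :
    seg ω s (m + n) = seg ω s m ++ seg ω (s + m) n := by
  induction n with
  | zero => simp [seg_zero]
  | succ n ih => rw [← add_assoc, seg_succ, seg_succ, ih, List.append_assoc, add_assoc]

theorem seg_getElem? (ω : ℕ → α) (s n i : ℕ) :
    (seg ω s n)[i]? = if i < n then some (ω (s + i)) else none := by
  unfold seg
  split_ifs with h
  · simp [h]
  · simp [h]

theorem seg_take (ω : ℕ → α) (s n k : ℕ) (h : k ≤ n) : (seg ω s n).take k = seg ω s k := by
  obtain ⟨m, rfl⟩ := Nat.exists_eq_add_of_le h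
  rw [seg_add, List.take_left' (seg_length _ _ _)]

theorem seg_drop (ω : ℕ → α) (s n k : ℕ) : (seg ω s n).drop k = seg ω (s + k) (n - k) := by
  by_cases h : k ≤ n
  · obtain ⟨m, rfl⟩ := Nat.exists_eq_add_of_le h
    rw [seg_add, List.drop_left' (seg_length _ _ _), Nat.add_sub_cancel_left]
  · have h' : n - k = 0 := by omega
    rw [h', seg_zero, List.drop_eq_nil_iff, seg_length]; omega

/-- Every word is an initial factor of a sequence. -/
theorem exists_seg (a0 : α) (w : List α) : ∃ ω : ℕ → α, seg ω 0 w.length = w := by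
  refine ⟨fun i => w.getD i a0, ?_⟩
  apply List.ext_getElem?
  intro i
  rw [seg_getElem?]
  split_ifs with h
  · simp [List.getD_eq_getElem?_getD, List.getElem?_eq_getElem h]
  · rw [List.getElem?_eq_none (by omega)]

/-- The window of length `L` at position `t`. -/
def win (z : List α) (t L : ℕ) : List α := (z.drop t).take L

/-- No period at most `D`. -/
def Good (D : ℕ) (u : List α) : Prop :=
  ∀ d, 1 ≤ d → d ≤ D → ¬ ∀ i, i + d < u.length → u[i]? = u[i + d]?

/-- The word `z` starts with a mark of scale `D`. -/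
def Mk (cd : List α → ℕ) (D : ℕ) (z : List α) : Prop :=
  5 * D ≤ z.length ∧ Good D (win z D (3 * D)) ∧
    ∀ c, c ≤ 2 * D → Good D (win z c (3 * D)) → cd (win z D (3 * D)) ≤ cd (win z c (3 * D))

/-- Mark at position `t` of a sequence. -/
def MkAt (cd : List α → ℕ) (D : ℕ) (ω : ℕ → α) (t : ℕ) : Prop := Mk cd D (seg ω t (5 * D))

/-- Covering radius of marks over an alphabet with `n` letters. -/
def Sg (n D : ℕ) : ℕ := D * n ^ (3 * D) + 6 * D

/-- Number of marks inside a word. -/
noncomputable def cnt (cd : List α → ℕ) (D : ℕ) (u : List α) : ℕ :=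
  ((Finset.range u.length).filter fun t => Mk cd D (u.drop t)).card

/-- Minimal window among the `D` positions starting from `Lh`. -/
def IsMin (cd : List α → ℕ) (D Lh : ℕ) (z : List α) (t : ℕ) : Prop :=
  Lh ≤ t ∧ t < Lh + D ∧
    ∀ t', Lh ≤ t' → t' < Lh + D → cd (win z t (3 * D)) ≤ cd (win z t' (3 * D))

/-- The event position in a buffer. -/
noncomputable def ev (cd : List α → ℕ) (D Lh : ℕ) (z : List α) : ℕ :=
  if h : ∃ t, Mk cd D (z.drop t) then Nat.find h
  else if h' : ∃ t, IsMin cd D Lh z t then Nat.find h' else 0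

end Vale.Agent.P329
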