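import Vale.Agent.P329.Mach
import Vale.Agent.P329.Cls
import Vale.Agent.P329.ExtA
import Vale.Agent.P329.ExtC

namespace Vale.Agent.P329

open Classical

theorem prob_union {ι X : Type} [Finite X] (I : Finset ι) (A : ι → X → Prop) (B : ℝ)
    (h : ∀ i ∈ I, ({x | A i x}.ncard : ℝ) ≤ B) :
    ({x | ∃ i ∈ I, A i x}.ncard : ℝ) ≤ I.card * B := by
  induction I using Finset.induction_on with
  | empty => simp
  | insert a I ha ih =>
    have e : {x | ∃ i ∈ insert a I, A i x} = {x | A a x} ∪ {x | ∃ i ∈ I, A i x} := by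
      ext x
      simp
    have h1 : (({x | A a x} ∪ {x | ∃ i ∈ I, A i x}).ncard : ℝ) ≤
        {x | A a x}.ncard + {x | ∃ i ∈ I, A i x}.ncard := by
      exact_mod_cast Set.ncard_union_le _ _
    have h2 := h a (Finset.mem_insert_self _ _)
    have h3 := ih fun i hi => h i (Finset.mem_insert_of_mem hi)
    rw [e, Finset.card_insert_of_notMem ha]
    push_cast
    linarith

theorem prob_three {X : Type} [Fintype X] [Nonempty X] (A B C : Set X) (N a b c : ℝ)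
    (hN : N = Fintype.card X) (hA : (A.ncard : ℝ) ≤ N * a) (hB : (B.ncard : ℝ) ≤ N * b)
    (hC : (C.ncard : ℝ) ≤ N * c) (ha : 3 * a < 1) (hb : 3 * b < 1) (hc : 3 * c < 1) :
    ∃ x, x ∉ A ∧ x ∉ B ∧ x ∉ C := by
  by_contra h
  have e : (Set.univ : Set X) = A ∪ B ∪ C := by
    ext x
    have := not_exists.1 h x
    simp only [Set.mem_univ, Set.mem_union, true_iff]
    tauto
  have h1 : Fintype.card X ≤ A.ncard + B.ncard + C.ncard := by
    rw [← Nat.card_eq_fintype_card, ← Set.ncard_univ, e]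
    exact (Set.ncard_union_le _ _).trans (Nat.add_le_add_right (Set.ncard_union_le _ _) _)
  have h2 : N ≤ A.ncard + B.ncard + C.ncard := by
    rw [hN]
    exact_mod_cast h1
  have h3 : 0 < N := by
    rw [hN]
    exact_mod_cast Fintype.card_pos
  nlinarith

theorem no_sys {S V G R H Dl : Type} [Fintype S] [Nonempty S] [AddCommGroup V] [Fintype V]
    [Fintype R] [Fintype H] [Nonempty H] [Fintype Dl] (act : G → V → V) (K M E' : ℕ)
    (SkF : Finset (S → Option (Fin K × R × G))) (EnF : Finset (S → Option H))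
    (RtF : Finset (Dl → R)) (L' ρ0 β0 s1 E'' g U amb : ℕ) (a1 a2 b c : ℝ)
    (hL : 1 ≤ L') (hK : 1 ≤ K) (hM : 1 ≤ M)
    (h1 : 4 * K * β0 ≤ E' * M) (h2 : 8 * ρ0 * s1 ≤ E' * M) (h3 : 2 * E'' ≤ E')
    (hU : E'' * L' * (K - s1) ^ g ≤ U * K ^ g)
    (hc0 : 0 < c) (hc1 : c ≤ 1) (hb0 : 0 < b) (hb1 : b ≤ 1) (ha10 : 0 ≤ a1) (ha11 : a1 ≤ 1)
    (ha20 : 0 ≤ a2) (ha21 : a2 ≤ 1)
    (hsk : ∀ sk ∈ SkF, ∀ ρ, {x | ∃ j g, sk x = some (j, ρ, g)}.ncard ≤ 2)
    (hen : ∀ en ∈ EnF, {x | en x = none}.ncard ≤ amb)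
    (hst1 : ((M * Fintype.card Dl + K * (ρ0 * (2 * L'))) * Fintype.card H * Fintype.card V
      * K ^ (1 + 1) : ℕ) * c ^ (2 * L') ≤ a1)
    (hst2 : ((M * Fintype.card Dl + K * (E'' * L')) * Fintype.card H * Fintype.card V
      * K ^ (1 + s1) : ℕ) * c ^ L' ≤ a2)
    (hm1 : (1 - 1 / (Fintype.card V : ℝ)) *
        (1 + (amb * Fintype.card H : ℕ) / (Fintype.card S : ℝ))
      + (2 * K * (M * Fintype.card Dl + K * (ρ0 * (2 * L'))) : ℕ) / (Fintype.card S : ℝ)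
        / (c ^ (2 * L') * b) ≤ c)
    (hm2 : (1 - 1 / (Fintype.card V : ℝ)) *
        (1 + (amb * Fintype.card H : ℕ) / (Fintype.card S : ℝ))
      + (2 * K * (M * Fintype.card Dl + K * (E'' * L')) : ℕ) / (Fintype.card S : ℝ)
        / (c ^ L' * b) ≤ c)
    (hA : 3 * ((SkF.card ^ K * RtF.card ^ M * EnF.card ^ K : ℕ) * a1 ^ ρ0) < 1)
    (hB : 3 * ((SkF.card ^ K * RtF.card ^ M * EnF.card ^ K : ℕ) * b ^ β0) < 1)
    (hC : 3 * ((SkF.card ^ K * RtF.card ^ M * (K * EnF.card) ^ g : ℕ) *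
      (a2 ^ E'' * (Fintype.card H : ℝ) ^ U)) < 1) :
    ∃ tb : R × H → S × V, IsEmpty (Sys act K M E' (4 * L') SkF EnF RtF tb) := by
  obtain ⟨N, hN⟩ : ∃ N : ℝ, N = (Fintype.card (S × V) : ℝ) ^ Fintype.card (R × H) := ⟨_, rfl⟩
  obtain ⟨IA, hIA⟩ : ∃ IA, IA = (Fintype.piFinset fun _ : Fin K => SkF) ×ˢ
    (Fintype.piFinset fun _ : Fin M => RtF) ×ˢ (Fintype.piFinset fun _ : Fin K => EnF) := ⟨_, rfl⟩
  obtain ⟨IC, hIC⟩ : ∃ IC, IC = (Fintype.piFinset fun _ : Fin K => SkF) ×ˢ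
    (Fintype.piFinset fun _ : Fin M => RtF) ×ˢ (Finset.univ : Finset (Fin g → Fin K)) ×ˢ
      (Fintype.piFinset fun _ : Fin g => EnF) := ⟨_, rfl⟩
  have cA : IA.card = SkF.card ^ K * RtF.card ^ M * EnF.card ^ K := by
    simp only [hIA, Finset.card_product, Fintype.card_piFinset_const, mul_assoc]
  have cC : IC.card = SkF.card ^ K * RtF.card ^ M * (K * EnF.card) ^ g := by
    simp only [hIC, Finset.card_product, Fintype.card_piFinset_const, mul_assoc, mul_pow,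
      Finset.card_univ, Fintype.card_fun, Fintype.card_fin]
  have mA : ∀ (ρ β : ℕ), ∀ d ∈ IA, ({tb : R × H → S × V |
      (⟨d.1, d.2.1, fun i => some (d.2.2 i)⟩ : Dat S G R H Dl K M).Acc act 1 (2 * L')
        (ρ0 * (2 * L')) ρ β 0 tb}.ncard : ℝ) ≤ N * (a1 ^ ρ * b ^ β) := by
    intro ρ β d hd
    simp only [hIA, Finset.mem_product, Fintype.mem_piFinset] at hd
    have := mach_bound (⟨d.1, d.2.1, fun i => some (d.2.2 i)⟩ : Dat S G R H Dl K M) act 1 (2 * L')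
      (ρ0 * (2 * L')) ρ β 0 amb a1 b c hc0 hc1 hb0 hb1 ha10 ha11 (fun i => hsk _ (hd.1 i))
      (fun i en he => hen _ (Option.some.inj he ▸ hd.2.2 i)) hst1 hm1
    rwa [pow_zero, mul_one, ← hN] at this
  have mC : ∀ d ∈ IC, ({tb : R × H → S × V |
      (⟨d.1, d.2.1, dicOf d.2.2.1 d.2.2.2⟩ : Dat S G R H Dl K M).Acc act s1 L'
        (E'' * L') E'' 0 U tb}.ncard : ℝ) ≤ N * (a2 ^ E'' * (Fintype.card H : ℝ) ^ U) := by
    intro d hd
    simp only [hIC, Finset.mem_product, Fintype.mem_piFinset] at hd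
    have := mach_bound (⟨d.1, d.2.1, dicOf d.2.2.1 d.2.2.2⟩ : Dat S G R H Dl K M) act s1 L'
      (E'' * L') E'' 0 U amb a2 b c hc0 hc1 hb0 hb1 ha20 ha21 (fun i => hsk _ (hd.1 i))
      (fun i en he => hen _ ?_) hst2 hm2
    · rwa [pow_zero, mul_one, ← hN] at this
    · simp only [dicOf] at he
      split_ifs at he
      exact Option.some.inj he ▸ hd.2.2.2 _
  have uA := prob_union IA _ _ (mA ρ0 0)
  have uB := prob_union IA _ _ (mA 0 β0)
  have uC := prob_union IC _ _ mC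
  rw [cA, pow_zero, mul_one, mul_left_comm _ N] at uA
  rw [cA, pow_zero, one_mul, mul_left_comm _ N] at uB
  rw [cC, mul_left_comm _ N] at uC
  obtain ⟨tb, nA, nB, nC⟩ := prob_three _ _ _ N _ _ _
    (by rw [hN, Fintype.card_fun]; push_cast; rfl) uA uB uC hA hB hC
  refine ⟨tb, ⟨fun Y => ?_⟩⟩
  have yA : (Y.sk, Y.rt, Y.en) ∈ IA := by
    simp only [hIA, Finset.mem_product, Fintype.mem_piFinset]
    exact ⟨Y.hsk, Y.hrt, Y.hen⟩
  rcases Y.explore (2 * L') ρ0 β0 (by omega) (by omega) with h | h | ⟨Q, Bd, hG, q1, q2, q3⟩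
  · exact nA ⟨_, yA, h⟩
  · exact nB ⟨_, yA, h⟩
  · obtain ⟨k, ι, mem, hι, hmem, hinj⟩ :=
      Y.classes _ Q Bd hG L' ρ0 β0 s1 E'' (by omega) q3 q1 q2 hM h1 h2 h3
    obtain ⟨Jt, h⟩ := Y.explore2 L' s1 E'' g U hL (by omega) hK k ι mem hι hmem hinj hU
    refine nC ⟨(Y.sk, Y.rt, Jt, fun j => Y.en (Jt j)), ?_, h⟩
    simp only [hIC, Finset.mem_product, Fintype.mem_piFinset]
    exact ⟨Y.hsk, Y.hrt, Finset.mem_univ _, fun j => Y.hen _⟩

end Vale.Agent.P329
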