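import Vale.Agent.P329.ReadD

namespace Vale.Agent.P329

theorem Qs_pos (u : ℕ) {om : ℕ} (hom : 1 ≤ om) (j : ℕ) : 1 ≤ Qs u om j := by
  cases j with
  | zero => exact le_rfl
  | succ j => exact Nat.mul_pos (Nat.factorial_pos _) hom

theorem Qs_step (u : ℕ) {om : ℕ} (hom : 1 ≤ om) (j : ℕ) :
    2 ^ (u + 2) * Qs u om j ≤ Qs u om (j + 1) :=
  (Nat.self_le_factorial _).trans (Nat.le_mul_of_pos_right _ hom)

theorem read_single {J : ℕ} (f : Fin J → ℕ) (j : Fin J) :
    (∑ i : Fin J, if (i : ℕ) = j then f i else 0) = f j := by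
  simp [Fin.val_inj]

/-- The part of the value below scale `k` is smaller than the scale. -/
theorem low_lt (u : ℕ) {om : ℕ} (hom : 1 ≤ om) {J : ℕ} (x : Sx u J) (k : ℕ) :
    (∑ j : Fin J, if (j : ℕ) < k then 2 * (x j : ℕ) * Qs u om j else 0) < Qs u om k := by
  induction k with
  | zero => simp [Qs]
  | succ k ih =>
    have h1 : (∑ j : Fin J, if (j : ℕ) < k + 1 then 2 * (x j : ℕ) * Qs u om j else 0) =
        (∑ j : Fin J, if (j : ℕ) < k then 2 * (x j : ℕ) * Qs u om j else 0) +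
          ∑ j : Fin J, if (j : ℕ) = k then 2 * (x j : ℕ) * Qs u om j else 0 := by
      rw [← Finset.sum_add_distrib]
      refine Finset.sum_congr rfl fun j _ => ?_
      split_ifs <;> first | rfl | omega
    have h2 : (∑ j : Fin J, if (j : ℕ) = k then 2 * (x j : ℕ) * Qs u om j else 0) ≤
        2 * 2 ^ u * Qs u om k := by
      by_cases hk : k < J
      · refine (read_single (fun j => 2 * (x j : ℕ) * Qs u om j) ⟨k, hk⟩).trans_le ?_
        exact Nat.mul_le_mul_right _ (Nat.mul_le_mul_left _ (x _).2.le)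
      · rw [Finset.sum_eq_zero fun j _ => if_neg (by omega)]
        exact Nat.zero_le _
    have h3 := Qs_step u hom k
    have h4 : Qs u om k ≤ 2 ^ u * Qs u om k := Nat.le_mul_of_pos_left _ (by positivity)
    have h5 : 2 ^ (u + 2) * Qs u om k = 4 * (2 ^ u * Qs u om k) := by ring
    have h6 : 2 * 2 ^ u * Qs u om k = 2 * (2 ^ u * Qs u om k) := by ring
    omega

theorem val_lt (u : ℕ) {om : ℕ} (hom : 1 ≤ om) {J : ℕ} (x : Sx u J) :
    val u om x < Qs u om J := by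
  simpa [val] using low_lt u hom x J

theorem dvd_Qs (u om j d : ℕ) (hd : 1 ≤ d) (h : d ≤ 2 ^ (u + 2) * Qs u om j) :
    d * om ∣ Qs u om (j + 1) :=
  Nat.mul_dvd_mul_right (Nat.dvd_factorial hd h) om

theorem read_sc_pos (u : ℕ) {om : ℕ} (hom : 1 ≤ om) (J : ℕ) {D2 : ℕ} (hD : 1 ≤ D2)
    (j : Option (Fin J)) : 0 < sc u om J D2 j := by
  cases j with
  | none => exact hD
  | some j => exact Qs_pos u hom j

theorem Qm_pos (u : ℕ) {om : ℕ} (hom : 1 ≤ om) (J : ℕ) {D2 : ℕ} (hD : 1 ≤ D2) :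
    1 ≤ Qm u om J D2 :=
  Nat.mul_pos (by positivity) (Finset.prod_pos fun j _ => read_sc_pos u hom J hD j)

theorem rdZ_mod (u : ℕ) {om : ℕ} (hom : 1 ≤ om) (J : ℕ) {D2 : ℕ} (hD : 1 ≤ D2) (l : ℕ) :
    rdZ u om J D2 ((l % Qm u om J D2 : ℕ) : ℤ) = rdZ u om J D2 (l : ℤ) := by
  funext j
  obtain ⟨r, hr⟩ := Finset.dvd_prod_of_mem (sc u om J D2) (Finset.mem_univ j)
  have h0 : (sc u om J D2 j : ℤ) ≠ 0 := by exact_mod_cast (read_sc_pos u hom J hD j).ne'
  have h1 : l = l % Qm u om J D2 + 2 ^ (u + 2) * (r * (l / Qm u om J D2)) * sc u om J D2 j := by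
    have h2 := Nat.mod_add_div l (Qm u om J D2)
    have h3 : Qm u om J D2 * (l / Qm u om J D2) =
        2 ^ (u + 2) * (r * (l / Qm u om J D2)) * sc u om J D2 j := by
      generalize l / Qm u om J D2 = k
      rw [Qm, hr]
      ring
    omega
  generalize l % Qm u om J D2 = a at h1
  generalize r * (l / Qm u om J D2) = b at h1
  subst h1
  simp only [rdZ]
  rw [Nat.cast_add, Nat.cast_mul, Int.add_mul_ediv_right _ _ h0, Int.cast_add, Int.cast_natCast,
    Nat.cast_mul, ZMod.natCast_self, zero_mul, add_zero]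

theorem read_ne {B : ℕ} {q m l D : ℤ} (hq : 0 < q) (h1 : q ≤ D) (h2 : D ≤ m * q) (h3 : m < B) :
    (((l + D) / q : ℤ) : ZMod B) ≠ ((l / q : ℤ) : ZMod B) := by
  intro h
  have h4 := (ZMod.intCast_eq_intCast_iff_dvd_sub _ _ _).1 h.symm
  have h5 : (l + 1 * q) / q ≤ (l + D) / q := Int.ediv_le_ediv hq (by linarith)
  have h6 : (l + D) / q ≤ (l + m * q) / q := Int.ediv_le_ediv hq (by linarith)
  rw [Int.add_mul_ediv_right _ _ hq.ne'] at h5 h6
  have h7 := Int.le_of_dvd (by linarith) h4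
  linarith

theorem read_split (u om : ℕ) {J : ℕ} (x : Sx u J) (j : Fin J) :
    val u om x = (∑ i : Fin J, if (i : ℕ) < j then 2 * (x i : ℕ) * Qs u om i else 0) +
      2 * (x j : ℕ) * Qs u om j +
      ∑ i : Fin J, if j < i then 2 * (x i : ℕ) * Qs u om i else 0 := by
  rw [← read_single (fun i => 2 * (x i : ℕ) * Qs u om i) j, ← Finset.sum_add_distrib,
    ← Finset.sum_add_distrib]
  refine Finset.sum_congr rfl fun i _ => ?_
  simp only [Fin.lt_def]
  split_ifs <;> omega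

theorem read_top (u : ℕ) {om : ℕ} (hom : 1 ≤ om) (J D2 : ℕ) (γ : ℤ) (x y : Sx u J) (j : Fin J)
    (h1 : x j < y j) (h2 : ∀ i, j < i → x i = y i) :
    rdZ u om J D2 (γ - val u om x) ≠ rdZ u om J D2 (γ - val u om y) := by
  intro h
  have h3 := read_split u om x j
  have h4 := read_split u om y j
  have h5 : (∑ i : Fin J, if j < i then 2 * (x i : ℕ) * Qs u om i else 0) =
      ∑ i : Fin J, if j < i then 2 * (y i : ℕ) * Qs u om i else 0 :=
    Finset.sum_congr rfl fun i _ => by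
      split_ifs with hi
      · rw [h2 i hi]
      · rfl
  have h6 := low_lt u hom x j
  have h7 := low_lt u hom y j
  have h8 : 2 * ((x j : ℕ) + 1) * Qs u om j ≤ 2 * (y j : ℕ) * Qs u om j :=
    Nat.mul_le_mul_right _ (Nat.mul_le_mul_left _ h1)
  have h9 : 2 * ((y j : ℕ) + 1) * Qs u om j ≤ 2 * 2 ^ u * Qs u om j :=
    Nat.mul_le_mul_right _ (Nat.mul_le_mul_left _ (y j).2)
  rw [mul_add, add_mul] at h8 h9
  have h10 : val u om x + Qs u om j ≤ val u om y := by omega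
  have h11 : val u om y ≤ val u om x + 2 * 2 ^ u * Qs u om j := by omega
  have h12 := congrFun h (some j)
  have h13 : γ - val u om x = γ - val u om y + ((val u om y : ℤ) - val u om x) := by ring
  rw [h13] at h12
  have h14 : (0 : ℤ) < (Qs u om j : ℕ) := by exact_mod_cast Qs_pos u hom j
  refine read_ne (m := 2 * 2 ^ u) h14 ?_ ?_ ?_ h12
  · zify at h10
    linarith
  · zify at h11
    linarith
  · have : (0 : ℤ) < 2 ^ u := by positivity
    push_cast
    rw [pow_add]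
    linarith

theorem rdZ_val_inj (u : ℕ) {om : ℕ} (hom : 1 ≤ om) (J D2 : ℕ) (γ : ℤ) (x y : Sx u J)
    (h : rdZ u om J D2 (γ - val u om x) = rdZ u om J D2 (γ - val u om y)) : x = y := by
  by_contra hne
  obtain ⟨i0, hi0⟩ := Function.ne_iff.1 hne
  obtain ⟨j, hj, hmax⟩ := Finset.exists_max_image (Finset.univ.filter fun i => x i ≠ y i) id
    ⟨i0, by simpa using hi0⟩
  have h1 : ∀ i, j < i → x i = y i := fun i hi => by
    by_contra h2
    exact absurd (hmax i (by simpa using h2)) (not_le.2 hi)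
  rcases lt_or_gt_of_ne (Finset.mem_filter.1 hj).2 with h2 | h2
  · exact read_top u hom J D2 γ x y j h2 h1 h
  · exact read_top u hom J D2 γ y x j h2 (fun i hi => (h1 i hi).symm) h.symm

theorem rdZ_top (u om J : ℕ) {D2 : ℕ} (hD : 1 ≤ D2) (hu : 1 ≤ u) (l Δ : ℤ)
    (h1 : (D2 : ℤ) ≤ Δ) (h2 : Δ ≤ 7 * D2) : rdZ u om J D2 (l + Δ) ≠ rdZ u om J D2 l := by
  intro h
  have h3 : 2 ^ 3 ≤ 2 ^ (u + 2) := Nat.pow_le_pow_right (by norm_num) (by omega)
  refine read_ne (m := 7) (by exact_mod_cast hD) h1 h2 ?_ (congrFun h none)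
  exact_mod_cast h3

theorem rdZ_low (u om : ℕ) {J : ℕ} (hJ : 1 ≤ J) (D2 : ℕ) (l l' : ℤ)
    (h : rdZ u om J D2 l = rdZ u om J D2 l') : (2 : ℤ) ^ (u + 2) ∣ l - l' := by
  have h1 := (ZMod.intCast_eq_intCast_iff_dvd_sub _ _ _).1 (congrFun h (some ⟨0, hJ⟩)).symm
  simpa [sc, Qs] using h1

theorem read_sub {q : ℤ} (hq : 0 < q) (g o : ℤ) :
    (g - o) / q = g / q - o / q - if g % q < o % q then 1 else 0 := by
  have h1 := Int.emod_add_mul_ediv g q
  have h2 := Int.emod_add_mul_ediv o q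
  have h3 := Int.emod_nonneg g hq.ne'
  have h4 := Int.emod_nonneg o hq.ne'
  have h5 := Int.emod_lt_of_pos g hq
  have h6 := Int.emod_lt_of_pos o hq
  split_ifs with h
  · refine ((Int.ediv_emod_unique (r := g % q - o % q + q) hq).2 ⟨?_, ?_, ?_⟩).1
    · linear_combination h1 - h2
    · linarith
    · linarith
  · refine ((Int.ediv_emod_unique (r := g % q - o % q) hq).2 ⟨?_, ?_, ?_⟩).1
    · linear_combination h1 - h2
    · linarith
    · linarith

theorem read_thr {X : Type} [Fintype X] (f : X → ℤ) (g : ℤ) :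
    ∃ z : Option X, ∀ x, (∃ x0, z = some x0 ∧ f x0 ≤ f x) ↔ g < f x := by
  classical
  rcases (Finset.univ.filter fun x => g < f x).eq_empty_or_nonempty with h | h
  · refine ⟨none, fun x => ⟨fun ⟨_, h1, _⟩ => by simp at h1, fun h1 => ?_⟩⟩
    exact absurd h1 (Finset.filter_eq_empty_iff.1 h (Finset.mem_univ x))
  · obtain ⟨x0, h1, h2⟩ := Finset.exists_min_image _ f h
    refine ⟨some x0, fun x => ⟨fun ⟨x1, h3, h4⟩ => ?_, fun h3 => ⟨x0, rfl, h2 x (by simpa)⟩⟩⟩
    rw [← Option.some.inj h3] at h4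
    exact (Finset.mem_filter.1 h1).2.trans_le h4

theorem rd_family (u : ℕ) {om : ℕ} (hom : 1 ≤ om) (J : ℕ) {D2 : ℕ} (hD : 1 ≤ D2)
    (X : Type) [Fintype X] (o : X → ℕ) :
    ∃ F : Finset (X → Rd u J), F.card ≤ (2 ^ (u + 2) * (Fintype.card X + 1)) ^ (J + 1) ∧
      ∀ γ : ℤ, (fun x => rdZ u om J D2 (γ - o x)) ∈ F := by
  classical
  refine ⟨Finset.univ.image fun (p : Option (Fin J) → ZMod (2 ^ (u + 2)) × Option X) x j =>
    (p j).1 - (((o x : ℤ) / (sc u om J D2 j : ℤ) : ℤ) : ZMod (2 ^ (u + 2))) -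
      if ∃ x0, (p j).2 = some x0 ∧ (o x0 : ℤ) % sc u om J D2 j ≤ (o x : ℤ) % sc u om J D2 j
      then 1 else 0, Finset.card_image_le.trans_eq (by simp), fun γ => ?_⟩
  choose z hz using fun j : Option (Fin J) =>
    read_thr (fun x => (o x : ℤ) % sc u om J D2 j) (γ % sc u om J D2 j)
  refine Finset.mem_image.2 ⟨fun j => (((γ / (sc u om J D2 j : ℤ) : ℤ) : ZMod (2 ^ (u + 2))), z j),
    Finset.mem_univ _, ?_⟩
  funext x j
  have h0 : (0 : ℤ) < sc u om J D2 j := by exact_mod_cast read_sc_pos u hom J hD j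
  simp only [rdZ, hz j x, read_sub h0, Int.cast_sub, Int.cast_ite, Int.cast_one, Int.cast_zero]

theorem sid_le {Z k : ℕ} (hk : k < Z) : sid Z k < 2 * Z ^ 3 := by
  have h1 : 2 * Z * (k + 1) ^ 2 ≤ 2 * Z * Z ^ 2 :=
    Nat.mul_le_mul_left _ (Nat.pow_le_pow_left hk 2)
  unfold sid
  nlinarith [Nat.zero_le (Z * k)]

theorem sid_inj {Z a b : ℕ} (h : sid Z a = sid Z b) : a = b := by
  have h1 : StrictMono (sid Z) := fun a b hab =>
    Nat.add_lt_add_of_lt_of_le hab (Nat.mul_le_mul_left _ (Nat.pow_le_pow_left hab.le 2))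
  exact h1.injective h

theorem sid_sidon {Z a b c d : ℕ} (ha : a < Z) (hb : b < Z) (hc : c < Z) (hd : d < Z)
    (h : sid Z a + sid Z d = sid Z c + sid Z b) : a = b ∨ a = c := by
  have h1 : a + d + 2 * Z * (a ^ 2 + d ^ 2) = c + b + 2 * Z * (c ^ 2 + b ^ 2) := by
    unfold sid at h
    linarith
  have h2 := congrArg (· % (2 * Z)) h1
  simp only [Nat.add_mul_mod_self_left] at h2
  rw [Nat.mod_eq_of_lt (by omega), Nat.mod_eq_of_lt (by omega)] at h2
  rw [h2] at h1
  have h3 := Nat.eq_of_mul_eq_mul_left (by omega) (Nat.add_left_cancel h1)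
  zify at h2 h3 ⊢
  have h4 : ((a : ℤ) - b) * (a - c) = 0 := by
    have h5 : (d : ℤ) = c + b - a := by linarith
    rw [h5] at h3
    linarith
  rcases mul_eq_zero.1 h4 with h5 | h5
  · left
    linarith
  · right
    linarith

end Vale.Agent.P329
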