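import Vale.Agent.P329.Defer

namespace Vale.Agent.P329

open Classical

variable {S V G R H Dl : Type} {K M : ℕ}

theorem Dat.P_trans [AddCommGroup V] [Fintype V] [Fintype R] [Fintype H]
    {Θ : Dat S G R H Dl K M} {act : G → V → V} {s1 L Nt : ℕ} {tb : R × H → S × V}
    {ρ β U ρ' β' U' ρ'' β'' U'' : ℕ} {Q Q' Q'' : Finset (R × H)}
    (h : Θ.P act s1 L Nt tb ρ β U Q ρ' β' U' Q')
    (h' : Θ.P act s1 L Nt tb ρ' β' U' Q' ρ'' β'' U'' Q'') :
    Θ.P act s1 L Nt tb ρ β U Q ρ'' β'' U'' Q'' := Path.trans h h'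

theorem Dat.gd_empty (Θ : Dat S G R H Dl K M) (tb : R × H → S × V) : Θ.Gd tb ∅ ∅ := by
  constructor <;> simp

theorem run_query {St Ent Val : Type} {q : St → Option Ent} {tr : St → Val → Finset St}
    {nd : St → Finset St} {tb : Ent → Val} {s s1 s' : St} {e : Ent} {Q Q1 Q' : Finset Ent}
    (hq : q s = some e) (he : e ∉ Q) (hs : s1 ∈ tr s (tb e)) (hQ1 : ∀ f, f ∈ Q1 ↔ f = e ∨ f ∈ Q)
    (h : Path q tr nd tb s1 Q1 s' Q') : Path q tr nd tb s Q s' Q' := by
  have h1 : Q1 = insert e Q := by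
    ext f
    rw [hQ1, Finset.mem_insert]
  rw [h1] at h
  exact Path.query s s1 s' e Q Q' hq he hs h

theorem run_known_mono (Θ : Dat S G R H Dl K M) {Xs Ys : Finset S} (h : Xs ⊆ Ys) {r : R}
    (hk : Θ.Known Xs r) : Θ.Known Ys r := by
  rcases hk with hk | ⟨i, x, hx, j, g, hk⟩
  · exact Or.inl hk
  · exact Or.inr ⟨i, x, h hx, j, g, hk⟩

theorem run_image (tb : R × H → S × V) (e : R × H) (Q : Finset (R × H)) :
    ((insert e Q).image fun e => (tb e).1) = insert (tb e).1 (Q.image fun e => (tb e).1) :=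
  Finset.image_insert _ _ _

theorem run_known_insert {Θ : Dat S G R H Dl K M} {tb : R × H → S × V} {Q Bd : Finset (R × H)}
    (hG : Θ.Gd tb Q Bd) {e : R × H} (hk : Θ.Known (Q.image fun e => (tb e).1) e.1) :
    ∀ f ∈ insert e Q, Θ.Known (Q.image fun e => (tb e).1) f.1 := by
  intro f hf
  rcases Finset.mem_insert.1 hf with rfl | hf
  · exact hk
  · exact hG.known f hf

theorem run_gd_bad {Θ : Dat S G R H Dl K M} {tb : R × H → S × V} {Q Bd : Finset (R × H)}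
    (hG : Θ.Gd tb Q Bd) {e : R × H} (hk : Θ.Known (Q.image fun e => (tb e).1) e.1) :
    Θ.Gd tb (insert e Q) (insert e Bd) := by
  have hm : ∀ f ∈ insert e Q, f ∉ insert e Bd → f ∈ Q ∧ f ∉ Bd := by
    intro f hf hb
    rw [Finset.mem_insert, not_or] at hb
    exact ⟨(Finset.mem_insert.1 hf).resolve_left hb.1, hb.2⟩
  refine ⟨Finset.insert_subset_insert _ hG.sub, fun f hf => ?_, fun f hf f' hf' hb hb' => ?_,
    fun f hf hb => ?_⟩
  · exact run_known_mono Θ (Finset.image_subset_image (Finset.subset_insert _ _))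
      (run_known_insert hG hk f hf)
  · exact hG.uniq f (hm f hf hb).1 f' (hm f' hf' hb').1 (hm f hf hb).2 (hm f' hf' hb').2
  · exact hG.root f (hm f hf hb).1 (hm f hf hb).2

theorem run_gd_ok {Θ : Dat S G R H Dl K M} {tb : R × H → S × V} {Q Bd : Finset (R × H)}
    (hG : Θ.Gd tb Q Bd) {e : R × H} (hk : Θ.Known (Q.image fun e => (tb e).1) e.1)
    (hb : ¬ Θ.Bad (Q.image fun e => (tb e).1) (tb e).1) : Θ.Gd tb (insert e Q) Bd := by
  refine ⟨hG.sub.trans (Finset.subset_insert _ _), fun f hf => ?_,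
    fun f hf f' hf' h1 h2 i j r g i' j' g' a1 a2 => ?_, fun f hf h1 i j r g a1 hr => ?_⟩
  · exact run_known_mono Θ (Finset.image_subset_image (Finset.subset_insert _ _))
      (run_known_insert hG hk f hf)
  · rcases Finset.mem_insert.1 hf with c | c <;> rcases Finset.mem_insert.1 hf' with c' | c'
    · rw [c, c']
    · rw [c] at a1
      exact absurd ⟨i, j, r, g, a1,
        Or.inr ⟨i', _, Finset.mem_image_of_mem _ c', j', g', a2⟩⟩ hb
    · rw [c'] at a2
      exact absurd ⟨i', j', r, g', a2,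
        Or.inr ⟨i, _, Finset.mem_image_of_mem _ c, j, g, a1⟩⟩ hb
    · exact hG.uniq f c f' c' h1 h2 i j r g i' j' g' a1 a2
  · rcases Finset.mem_insert.1 hf with rfl | hf
    · exact hb ⟨i, j, r, g, a1, Or.inl hr⟩
    · exact hG.root f hf h1 i j r g a1 hr

theorem run_tr_bad [AddCommGroup V] [Fintype H] (Θ : Dat S G R H Dl K M) (act : G → V → V)
    {s1 L Nt : ℕ} {Xs : Finset S} {ρ β U l : ℕ} {e : R × H} {u : V} {i : Fin K}
    {ms : Fin s1 → Fin K} {p : S × V} (h : Xs.card ≤ Nt ∧ 1 ≤ l ∧ l ≤ L ∧ u + p.2 ≠ 0)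
    (hb : Θ.Bad Xs p.1) : MS.idle (insert p.1 Xs) ρ (β + 1) U ∈
      Θ.tr act s1 L Nt (MS.run Xs ρ β U l e u i ms) p := by
  obtain ⟨x, y⟩ := p
  simp only [Dat.tr]
  rw [if_pos h, if_pos hb]
  exact Finset.mem_singleton_self _

theorem run_tr_one [AddCommGroup V] [Fintype H] (Θ : Dat S G R H Dl K M) (act : G → V → V)
    {s1 L Nt : ℕ} {Xs : Finset S} {ρ β U l : ℕ} {e : R × H} {u : V} {i : Fin K}
    {ms : Fin s1 → Fin K} {p : S × V} (h : Xs.card ≤ Nt ∧ 1 ≤ l ∧ l ≤ L ∧ u + p.2 ≠ 0)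
    (hb : ¬ Θ.Bad Xs p.1) (hl : l = 1) : MS.idle (insert p.1 Xs) ρ β U ∈
      Θ.tr act s1 L Nt (MS.run Xs ρ β U l e u i ms) p := by
  obtain ⟨x, y⟩ := p
  simp only [Dat.tr]
  rw [if_pos h, if_neg hb, if_pos hl]
  exact Finset.mem_singleton_self _

theorem run_tr_next [AddCommGroup V] [Fintype H] (Θ : Dat S G R H Dl K M) (act : G → V → V)
    {s1 L Nt : ℕ} {Xs : Finset S} {ρ β U l : ℕ} {e : R × H} {u : V} {i : Fin K}
    {ms : Fin s1 → Fin K} {p : S × V} (h : Xs.card ≤ Nt ∧ 1 ≤ l ∧ l ≤ L ∧ u + p.2 ≠ 0)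
    (hb : ¬ Θ.Bad Xs p.1) (hl : l ≠ 1) {j : Fin K} {r : R} {g : G}
    (hs : Θ.sk i p.1 = some (j, r, g)) {z : H × ℕ} (hz : z ∈ Θ.opts ms p.1 U) :
    MS.run (insert p.1 Xs) ρ β z.2 (l - 1) (r, z.1) (act g (u + p.2)) j (Θ.move ms p.1) ∈
      Θ.tr act s1 L Nt (MS.run Xs ρ β U l e u i ms) p := by
  obtain ⟨x, y⟩ := p
  simp only [Dat.tr]
  rw [if_pos h, if_neg hb, if_neg hl]
  simp only at hs
  rw [hs]
  exact Finset.mem_image.2 ⟨z, hz, rfl⟩

theorem run_opts [Fintype H] (Θ : Dat S G R H Dl K M) {s1 : ℕ} (ms : Fin s1 → Fin K) (x : S)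
    (U : ℕ) (h : H) (hh : ∀ a en h', Θ.dic (ms a) = some en → en x = some h' → h = h') :
    (h, U) ∈ Θ.opts ms x U ∨
      ((∀ a, Θ.dic (ms a) = none) ∧ (U ≠ 0 → (h, U - 1) ∈ Θ.opts ms x U)) := by
  by_cases hex : ∃ a, Θ.dic (ms a) ≠ none
  · left
    obtain ⟨en, hen⟩ := Option.ne_none_iff_exists'.1 hex.choose_spec
    have hl : Θ.look ms = some en := by
      unfold Dat.look
      rw [dif_pos hex, hen]
    unfold Dat.opts
    rw [hl]
    simp only
    cases hx : en x with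
    | none => exact Finset.mem_image.2 ⟨h, Finset.mem_univ _, rfl⟩
    | some h' =>
      rw [hh _ en h' hen hx]
      exact Finset.mem_singleton_self _
  · right
    have hl : Θ.look ms = none := by
      unfold Dat.look
      rw [dif_neg hex]
    refine ⟨fun a => by_contra fun ha => hex ⟨a, ha⟩, fun hU => ?_⟩
    unfold Dat.opts
    rw [hl]
    simp only
    rw [if_neg hU]
    exact Finset.mem_image.2 ⟨h, Finset.mem_univ _, rfl⟩

theorem run_aux [AddCommGroup V] [Fintype V] [Fintype R] [Fintype H]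
    (Θ : Dat S G R H Dl K M) (act : G → V → V) (s1 L Nt : ℕ)
    (tb : R × H → S × V) (ρ : ℕ) (ent : ℕ → R × H) (sl : ℕ → Fin K) (uu : ℕ → V)
    (ms : ℕ → Fin s1 → Fin K)
    (hstep : ∀ t, t < L → ∃ g, Θ.sk (sl t) (tb (ent t)).1 = some (sl (t + 1), (ent (t + 1)).1, g) ∧
      uu (t + 1) = act g (uu t + (tb (ent t)).2))
    (hsurv : ∀ t, t < L → uu t + (tb (ent t)).2 ≠ 0)
    (hms : ∀ t, t < L → ∀ a, ∃ r g, Θ.sk (ms t a) (tb (ent t)).1 = some (ms (t + 1) a, r, g))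
    (hh : ∀ t, t < L → ∀ a en h, Θ.dic (ms t a) = some en → en (tb (ent t)).1 = some h →
      (ent (t + 1)).2 = h) (l : ℕ) :
    ∀ (t : ℕ) (Q Bd : Finset (R × H)) (U un : ℕ), 1 ≤ l → t + l = L → Θ.Gd tb Q Bd →
      Q.card + l ≤ Nt → ent t ∉ Q → Θ.Known (Q.image fun e => (tb e).1) (ent t).1 →
      ((Finset.Ico t L).filter fun t => ∀ a, Θ.dic (ms t a) = none).card ≤ un → un ≤ U →
      ∃ Q' Bd' : Finset (R × H), ∃ U', Path mq (Θ.tr act s1 L Nt) (Θ.nd s1 L Nt) tb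
          (MS.run (Q.image fun e => (tb e).1) ρ Bd.card U l (ent t) (uu t) (sl t) (ms t)) Q
          (MS.idle (Q'.image fun e => (tb e).1) ρ Bd'.card U') Q' ∧ U ≤ U' + un ∧
        Q ⊆ Q' ∧ ent t ∈ Q' ∧ Q'.card ≤ Q.card + l ∧ Θ.Gd tb Q' Bd' ∧
        ∀ e ∈ Q', e ∈ Q ∨ e = ent t ∨ ¬ Θ.Root e.1 := by
  induction l with
  | zero => intro t Q Bd U un h; omega
  | succ l ih =>
    intro t Q Bd U un _ htl hG hQ h0 hk hun hU
    have ht : t < L := by omega
    have hc : (Q.image fun e => (tb e).1).card ≤ Nt ∧ 1 ≤ l + 1 ∧ l + 1 ≤ L ∧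
        uu t + (tb (ent t)).2 ≠ 0 :=
      ⟨Finset.card_image_le.trans (by omega), by omega, by omega, hsurv t ht⟩
    have hcard : (insert (ent t) Q).card = Q.card + 1 := Finset.card_insert_of_notMem h0
    have hins : ∀ e ∈ insert (ent t) Q, e ∈ Q ∨ e = ent t ∨ ¬ Θ.Root e.1 := fun e he =>
      (Finset.mem_insert.1 he).elim (fun h => Or.inr (Or.inl h)) Or.inl
    by_cases hb : Θ.Bad (Q.image fun e => (tb e).1) (tb (ent t)).1
    · refine ⟨insert (ent t) Q, insert (ent t) Bd, U, ?_, by omega, Finset.subset_insert _ _,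
        Finset.mem_insert_self _ _, by omega, run_gd_bad hG hk, hins⟩
      refine run_query rfl h0 (run_tr_bad Θ act hc hb) (fun f => Finset.mem_insert) ?_
      rw [run_image, Finset.card_insert_of_notMem fun h => h0 (hG.sub h)]
      exact Path.refl _ _
    have hG1 := run_gd_ok hG hk hb
    by_cases hl : l = 0
    · refine ⟨insert (ent t) Q, Bd, U, ?_, by omega, Finset.subset_insert _ _,
        Finset.mem_insert_self _ _, by omega, hG1, hins⟩
      refine run_query rfl h0 (run_tr_one Θ act hc hb (by omega)) (fun f => Finset.mem_insert) ?_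
      rw [run_image]
      exact Path.refl _ _
    obtain ⟨g, hs, hu⟩ := hstep t ht
    have hnk : ¬ Θ.Known (Q.image fun e => (tb e).1) (ent (t + 1)).1 := fun h =>
      hb ⟨_, _, _, _, hs, h⟩
    have h1 : ent (t + 1) ∉ insert (ent t) Q := fun h => hnk (run_known_insert hG hk _ h)
    have hk1 : Θ.Known ((insert (ent t) Q).image fun e => (tb e).1) (ent (t + 1)).1 :=
      Or.inr ⟨_, _, Finset.mem_image_of_mem _ (Finset.mem_insert_self _ _), _, _, hs⟩
    have hmv : Θ.move (ms t) (tb (ent t)).1 = ms (t + 1) := by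
      funext a
      obtain ⟨r, g', h⟩ := hms t ht a
      unfold Dat.move
      rw [h]
      rfl
    have hsub : ((Finset.Ico (t + 1) L).filter fun t => ∀ a, Θ.dic (ms t a) = none) ⊆
        ((Finset.Ico t L).filter fun t => ∀ a, Θ.dic (ms t a) = none) :=
      Finset.filter_subset_filter _ (Finset.Ico_subset_Ico (Nat.le_succ t) le_rfl)
    obtain ⟨U1, un1, hz, a1, a2, a3⟩ : ∃ U1 un1, ((ent (t + 1)).2, U1) ∈
        Θ.opts (ms t) (tb (ent t)).1 U ∧
        ((Finset.Ico (t + 1) L).filter fun t => ∀ a, Θ.dic (ms t a) = none).card ≤ un1 ∧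
        un1 ≤ U1 ∧ U + un1 ≤ U1 + un := by
      rcases run_opts Θ (ms t) (tb (ent t)).1 U (ent (t + 1)).2 (hh t ht) with h | ⟨h, h'⟩
      · exact ⟨U, un, h, (Finset.card_le_card hsub).trans hun, hU, le_rfl⟩
      · have hlt : ((Finset.Ico (t + 1) L).filter fun t => ∀ a, Θ.dic (ms t a) = none).card <
            ((Finset.Ico t L).filter fun t => ∀ a, Θ.dic (ms t a) = none).card := by
          refine Finset.card_lt_card (Finset.ssubset_iff_of_subset hsub |>.2 ⟨t, ?_, ?_⟩)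
          · exact Finset.mem_filter.2 ⟨Finset.mem_Ico.2 ⟨le_rfl, ht⟩, h⟩
          · intro hm
            have := (Finset.mem_Ico.1 (Finset.mem_filter.1 hm).1).1
            omega
        exact ⟨U - 1, un - 1, h' (by omega), by omega, by omega, by omega⟩
    obtain ⟨Q', Bd', U', hp, b1, b2, b3, b4, b5, b6⟩ := ih (t + 1) (insert (ent t) Q) Bd U1 un1
      (by omega) (by omega) hG1 (by omega) h1 hk1 a1 a2
    refine ⟨Q', Bd', U', ?_, by omega, (Finset.subset_insert _ _).trans b2,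
      b2 (Finset.mem_insert_self _ _), by omega, b5, fun e he => ?_⟩
    · refine run_query rfl h0 (run_tr_next Θ act hc hb (by omega) hs hz)
        (fun f => Finset.mem_insert) ?_
      rw [run_image, hu, ← hmv] at hp
      exact hp
    · rcases b6 e he with h | h | h
      · exact hins e h
      · exact Or.inr (Or.inr fun hr => hnk (Or.inl (h ▸ hr)))
      · exact Or.inr (Or.inr h)

/-- One run of the machine along a surviving path. -/
theorem Dat.run_lemma [AddCommGroup V] [Fintype V] [Fintype R] [Fintype H]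
    (Θ : Dat S G R H Dl K M) (act : G → V → V) (s1 L Nt : ℕ) (hL : 1 ≤ L)
    (tb : R × H → S × V) (Q Bd : Finset (R × H)) (hG : Θ.Gd tb Q Bd) (hQ : Q.card + L ≤ Nt)
    (ρ U : ℕ) (ent : ℕ → R × H) (sl : ℕ → Fin K) (uu : ℕ → V) (ms : ℕ → Fin s1 → Fin K)
    (hstep : ∀ t, t < L → ∃ g, Θ.sk (sl t) (tb (ent t)).1 = some (sl (t + 1), (ent (t + 1)).1, g) ∧
      uu (t + 1) = act g (uu t + (tb (ent t)).2))
    (hsurv : ∀ t, t < L → uu t + (tb (ent t)).2 ≠ 0)
    (hms : ∀ t, t < L → ∀ a, ∃ r g, Θ.sk (ms t a) (tb (ent t)).1 = some (ms (t + 1) a, r, g))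
    (hh : ∀ t, t < L → ∀ a en h, Θ.dic (ms t a) = some en → en (tb (ent t)).1 = some h →
      (ent (t + 1)).2 = h)
    (h0 : ent 0 ∉ Q) (hk : Θ.Known (Q.image fun e => (tb e).1) (ent 0).1)
    (un : ℕ) (hun : {t | t < L ∧ ∀ a, Θ.dic (ms t a) = none}.ncard ≤ un) (hU : un ≤ U) :
    ∃ Q' Bd' U', Θ.P act s1 L Nt tb ρ Bd.card U Q (ρ + 1) Bd'.card U' Q' ∧ U ≤ U' + un ∧
      Q ⊆ Q' ∧ ent 0 ∈ Q' ∧ Q'.card ≤ Q.card + L ∧ Θ.Gd tb Q' Bd' ∧
      ∀ e ∈ Q', e ∈ Q ∨ e = ent 0 ∨ ¬ Θ.Root e.1 := by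
  have hfin : {t | t < L ∧ ∀ a, Θ.dic (ms t a) = none} =
      ↑((Finset.Ico 0 L).filter fun t => ∀ a, Θ.dic (ms t a) = none) := by
    ext t
    simp
  rw [hfin, Set.ncard_coe_finset] at hun
  obtain ⟨Q', Bd', U', hp, h⟩ := run_aux Θ act s1 L Nt tb (ρ + 1) ent sl uu ms hstep hsurv hms hh
    L 0 Q Bd U un hL (Nat.zero_add L) hG hQ h0 hk hun hU
  refine ⟨Q', Bd', U', ?_, h⟩
  refine Path.free _ _ _ _ _ rfl ?_ hp
  have hc : (Q.image fun e => (tb e).1).card ≤ Nt :=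
    Finset.card_image_le.trans (le_trans (Nat.le_add_right _ _) hQ)
  simp only [Dat.nd]
  rw [if_pos hc]
  exact Finset.mem_image.2 ⟨(ent 0, uu 0, sl 0, ms 0),
    Finset.mem_filter.2 ⟨Finset.mem_univ _, hk⟩, rfl⟩

end Vale.Agent.P329
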