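import Vale.Agent.P329.Defs

namespace Vale.Agent.P329

variable {α : Type}

/-- The set of words `L` has generalized star height at most `k`. -/
def SH (k : ℕ) (L : Set (List α)) : Prop := ∃ E : GRE α, E.lang = L ∧ E.sh ≤ k

theorem SH.mono {k l : ℕ} {L : Set (List α)} (h : SH k L) (hkl : k ≤ l) : SH l L := by
  obtain ⟨E, a, b⟩ := h
  exact ⟨E, a, b.trans hkl⟩

theorem SH.congr {k : ℕ} {L L' : Set (List α)} (h : SH k L) (e : ∀ w, w ∈ L ↔ w ∈ L') :
    SH k L' := by
  have : L = L' := Set.ext e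
  exact this ▸ h

theorem SH.empty (k : ℕ) : SH k (∅ : Set (List α)) := ⟨.zero, rfl, Nat.zero_le _⟩

theorem SH.union {k : ℕ} {L L' : Set (List α)} (h : SH k L) (h' : SH k L') : SH k (L ∪ L') := by
  obtain ⟨E, rfl, b⟩ := h
  obtain ⟨E', rfl, b'⟩ := h'
  exact ⟨.add E E', rfl, max_le b b'⟩

theorem SH.compl {k : ℕ} {L : Set (List α)} (h : SH k L) : SH k Lᶜ := by
  obtain ⟨E, rfl, b⟩ := h
  exact ⟨.compl E, rfl, b⟩

theorem SH.univ (k : ℕ) : SH k (Set.univ : Set (List α)) :=
  (SH.empty k).compl.congr (by simp)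

theorem SH.inter {k : ℕ} {L L' : Set (List α)} (h : SH k L) (h' : SH k L') : SH k (L ∩ L') :=
  (h.compl.union h'.compl).compl.congr fun w => by
    simp only [Set.mem_compl_iff, Set.mem_union, Set.mem_inter_iff]
    tauto

theorem SH.diff {k : ℕ} {L L' : Set (List α)} (h : SH k L) (h' : SH k L') : SH k (L \ L') :=
  h.inter h'.compl

theorem SH.mul {k : ℕ} {L L' : Set (List α)} (h : SH k L) (h' : SH k L') :
    SH k {w | ∃ u ∈ L, ∃ v ∈ L', w = u ++ v} := by
  obtain ⟨E, rfl, b⟩ := h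
  obtain ⟨E', rfl, b'⟩ := h'
  refine ⟨.mul E E', Set.ext fun w => Language.mem_mul.trans ?_, max_le b b'⟩
  exact ⟨fun ⟨u, hu, v, hv, h⟩ => ⟨u, hu, v, hv, h.symm⟩,
    fun ⟨u, hu, v, hv, h⟩ => ⟨u, hu, v, hv, h.symm⟩⟩

theorem SH.star {k : ℕ} {L : Set (List α)} (h : SH k L) :
    SH (k + 1) {w | ∃ l : List (List α), (∀ u ∈ l, u ∈ L) ∧ w = l.flatten} := by
  obtain ⟨E, rfl, b⟩ := h
  refine ⟨.star E, Set.ext fun w => Language.mem_kstar.trans ?_, Nat.succ_le_succ b⟩
  exact ⟨fun ⟨l, h1, h2⟩ => ⟨l, h2, h1⟩, fun ⟨l, h1, h2⟩ => ⟨l, h2, h1⟩⟩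

theorem SH.single (k : ℕ) (w : List α) : SH k {w} := by
  induction w with
  | nil => exact ⟨.one, rfl, Nat.zero_le _⟩
  | cons a u ih =>
    have h1 : SH k ({[a]} : Set (List α)) := ⟨.char a, rfl, Nat.zero_le _⟩
    refine (h1.mul ih).congr fun w => ⟨?_, ?_⟩
    · rintro ⟨_, rfl, _, rfl, rfl⟩; rfl
    · rintro rfl; exact ⟨_, rfl, _, rfl, rfl⟩

theorem SH.nonempty (k : ℕ) : SH k {w : List α | w ≠ []} := (SH.single k []).compl

theorem SH.biUnion {ι : Type} {k : ℕ} {s : Set ι} (hs : s.Finite) {f : ι → Set (List α)}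
    (h : ∀ i ∈ s, SH k (f i)) : SH k {w | ∃ i ∈ s, w ∈ f i} := by
  induction s, hs using Set.Finite.induction_on with
  | empty => exact (SH.empty k).congr (by simp)
  | insert _ _ ih =>
    refine ((h _ (Set.mem_insert _ _)).union
      (ih fun i hi => h i (Set.mem_insert_of_mem _ hi))).congr fun w => ?_
    simp

theorem SH.iUnion {ι : Type} [Finite ι] {k : ℕ} {f : ι → Set (List α)}
    (h : ∀ i, SH k (f i)) : SH k {w | ∃ i, w ∈ f i} :=
  (SH.biUnion Set.finite_univ fun i _ => h i).congr (by simp)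

/-- Concatenations of at most `N` powers of words of length at most `D`. -/
def Simple (D N : ℕ) (w : List α) : Prop :=
  ∃ bl : List (List α × ℕ), bl.length ≤ N ∧ (∀ b ∈ bl, b.1.length ≤ D) ∧
    w = (bl.map fun b => (List.replicate b.2 b.1).flatten).flatten

theorem Simple.mono {D N N' : ℕ} {w : List α} (h : Simple D N w) (hN : N ≤ N') :
    Simple D N' w := by
  obtain ⟨bl, a, b, c⟩ := h
  exact ⟨bl, a.trans hN, b, c⟩

theorem Simple.append {D N N' : ℕ} {u v : List α} (h : Simple D N u) (h' : Simple D N' v) :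
    Simple D (N + N') (u ++ v) := by
  obtain ⟨bl, a, b, c⟩ := h
  obtain ⟨bl', a', b', c'⟩ := h'
  refine ⟨bl ++ bl', by rw [List.length_append]; omega, fun x hx => ?_, ?_⟩
  · rcases List.mem_append.1 hx with h | h
    · exact b x h
    · exact b' x h
  · rw [List.map_append, List.flatten_append, ← c, ← c']

theorem Simple.pow {D : ℕ} {y : List α} (hy : y.length ≤ D) (i : ℕ) :
    Simple D 1 (List.replicate i y).flatten :=
  ⟨[(y, i)], le_rfl, by simpa using hy, by simp⟩

theorem Simple.of_length {D : ℕ} (hD : 1 ≤ D) (w : List α) : Simple D w.length w := by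
  induction w with
  | nil => exact ⟨[], le_rfl, by simp, rfl⟩
  | cons a w ih =>
    have h1 := (Simple.pow (D := D) (y := [a]) hD 1).append ih
    rw [List.length_cons, add_comm]
    simpa using h1

theorem sh_fold_pow {Q : Type} (δ : Q → α → Q) (y : List α) (i : ℕ) (s : Q) :
    (List.replicate i y).flatten.foldl δ s = (fun q => y.foldl δ q)^[i] s := by
  induction i generalizing s with
  | zero => rfl
  | succ i ih => rw [List.replicate_succ, List.flatten_cons, List.foldl_append, ih]; rfl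

theorem sh_pow_add (y : List α) (i j : ℕ) :
    (List.replicate (i + j) y).flatten
      = (List.replicate i y).flatten ++ (List.replicate j y).flatten := by
  rw [List.replicate_add, List.flatten_append]

theorem sh_pow_mul (y : List α) (p m : ℕ) :
    (List.replicate m (List.replicate p y).flatten).flatten = (List.replicate (p * m) y).flatten := by
  induction m with
  | zero => rfl
  | succ m ih => rw [List.replicate_succ, List.flatten_cons, ih, mul_add_one, add_comm, sh_pow_add]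

theorem sh_period {Q : Type} [Finite Q] (g : Q → Q) (s : Q) :
    ∃ a p, 0 < p ∧ ∀ j m, g^[a + j + p * m] s = g^[a + j] s := by
  have key : ∀ a b, a < b → g^[a] s = g^[b] s →
      ∃ a p, 0 < p ∧ ∀ j m, g^[a + j + p * m] s = g^[a + j] s := by
    intro a b hab he
    refine ⟨a, b - a, by omega, fun j m => ?_⟩
    induction m with
    | zero => rfl
    | succ m ih =>
      rw [show a + j + (b - a) * (m + 1) = (j + (b - a) * m) + b by
        rw [mul_add_one]; omega, Function.iterate_add_apply, ← he, ← Function.iterate_add_apply,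
        ← ih]
      congr 1
      omega
  obtain ⟨a, b, hab, he⟩ := Finite.exists_ne_map_eq_of_infinite fun i : ℕ => g^[i] s
  rcases lt_or_gt_of_ne hab with h | h
  · exact key a b h he
  · exact key b a h he.symm

theorem sh_power {Q : Type} [Finite Q] (δ : Q → α → Q) (y : List α) (s t : Q) :
    SH 1 {w | (∃ i, w = (List.replicate i y).flatten) ∧ w.foldl δ s = t} := by
  obtain ⟨a, p, hp, hper⟩ := sh_period (fun q => y.foldl δ q) s
  have f1 : {i | i < a ∧ (fun q => y.foldl δ q)^[i] s = t}.Finite :=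
    (Set.finite_lt_nat a).subset fun i hi => hi.1
  have f2 : {j | j < p ∧ (fun q => y.foldl δ q)^[a + j] s = t}.Finite :=
    (Set.finite_lt_nat p).subset fun i hi => hi.1
  refine ((SH.biUnion f1 fun i _ => SH.single 1 (List.replicate i y).flatten).union
    (SH.biUnion f2 fun j _ => (SH.single 1 (List.replicate (a + j) y).flatten).mul
      (SH.single 0 (List.replicate p y).flatten).star)).congr fun w => ⟨?_, ?_⟩
  · rintro (⟨i, ⟨-, hi⟩, rfl⟩ | ⟨j, ⟨-, hj⟩, _, rfl, _, ⟨l, hl, rfl⟩, rfl⟩)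
    · exact ⟨⟨i, rfl⟩, by rw [sh_fold_pow]; exact hi⟩
    · have h1 : l = List.replicate l.length (List.replicate p y).flatten :=
        List.eq_replicate_iff.2 ⟨rfl, hl⟩
      rw [h1, sh_pow_mul, ← sh_pow_add]
      exact ⟨⟨_, rfl⟩, by rw [sh_fold_pow, hper]; exact hj⟩
  · rintro ⟨⟨i, rfl⟩, hi⟩
    rw [sh_fold_pow] at hi
    by_cases hia : i < a
    · exact Or.inl ⟨i, ⟨hia, hi⟩, rfl⟩
    · have h1 : i = a + (i - a) % p + p * ((i - a) / p) := by
        have := Nat.mod_add_div (i - a) p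
        omega
      refine Or.inr ⟨(i - a) % p, ⟨Nat.mod_lt _ hp, ?_⟩, _, rfl, _,
        ⟨List.replicate ((i - a) / p) (List.replicate p y).flatten,
          fun u hu => List.eq_of_mem_replicate hu, rfl⟩, ?_⟩
      · rw [← hper _ ((i - a) / p), ← h1]; exact hi
      · rw [sh_pow_mul, ← sh_pow_add, ← h1]

theorem sh_simple [Fintype α] {Q : Type} [Finite Q] (δ : Q → α → Q) (D N : ℕ) (s t : Q) :
    SH 1 {w | Simple D N w ∧ w.foldl δ s = t} := by
  induction N generalizing s with
  | zero =>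
    by_cases hst : s = t
    · refine (SH.single 1 []).congr fun w => ⟨?_, ?_⟩
      · rintro rfl
        exact ⟨⟨[], le_rfl, by simp, rfl⟩, hst⟩
      · rintro ⟨⟨bl, a, -, rfl⟩, -⟩
        rw [List.length_eq_zero_iff.1 (Nat.le_zero.1 a)]
        rfl
    · refine (SH.empty 1).congr fun w => ⟨fun h => h.elim, ?_⟩
      rintro ⟨⟨bl, a, -, rfl⟩, h⟩
      rw [List.length_eq_zero_iff.1 (Nat.le_zero.1 a)] at h
      exact hst h
  | succ N ih =>
    refine ((ih s).union (SH.biUnion (List.finite_length_le α D) fun y _ =>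
      SH.iUnion fun m : Q => (sh_power δ y s m).mul (ih m))).congr fun w => ⟨?_, ?_⟩
    · rintro (⟨h1, h2⟩ | ⟨y, hy, m, _, ⟨⟨i, rfl⟩, h1⟩, v, ⟨h2, h3⟩, rfl⟩)
      · exact ⟨h1.mono (Nat.le_succ N), h2⟩
      · refine ⟨((Simple.pow hy i).append h2).mono (by omega), ?_⟩
        rw [List.foldl_append, h1, h3]
    · rintro ⟨⟨bl, a, b, rfl⟩, h⟩
      cases bl with
      | nil => exact Or.inl ⟨⟨[], Nat.zero_le _, by simp, rfl⟩, h⟩
      | cons x bl =>
        rw [List.map_cons, List.flatten_cons] at h ⊢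
        rw [List.foldl_append] at h
        exact Or.inr ⟨x.1, b x List.mem_cons_self, _, _, ⟨⟨x.2, rfl⟩, rfl⟩, _,
          ⟨⟨bl, by simpa using a, fun z hz => b z (List.mem_cons_of_mem _ hz), rfl⟩, h⟩, rfl⟩

theorem sh_simple_pred [Fintype α] {Q : Type} [Finite Q] (δ : Q → α → Q) (D N : ℕ)
    (P : (Q → Q) → Prop) : SH 1 {w | Simple D N w ∧ P (fun q => w.foldl δ q)} := by
  have key : ∀ (w : List α) (g : Q → Q),
      w.foldl (fun (g : Q → Q) a q => δ (g q) a) g = fun q => w.foldl δ (g q) := by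
    intro w
    induction w with
    | nil => intro g; rfl
    | cons a w ih => intro g; rw [List.foldl_cons, ih]; rfl
  refine (SH.biUnion (Set.toFinite {g : Q → Q | P g}) fun g _ =>
    sh_simple (fun (g : Q → Q) a q => δ (g q) a) D N id g).congr fun w => ⟨?_, ?_⟩
  · rintro ⟨g, hg, h1, h2⟩
    rw [key] at h2
    exact ⟨h1, by rw [← h2] at hg; exact hg⟩
  · rintro ⟨h1, h2⟩
    exact ⟨_, h2, h1, key w id⟩

end Vale.Agent.P329
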