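import Vale.Agent.P329.FitD
import Vale.Agent.P329.Read
import Vale.Agent.P329.Mark

namespace Vale.Agent.P329

open Classical

variable {α M H : Type} [Monoid M] [AddCommGroup H]

theorem Enum.gap {cd : List α → ℕ} (hcd : Function.Injective cd) {D K : ℕ} {ω : ℕ → α}
    {mu : Fin K → ℕ} (h : Enum cd D ω mu) (i j : Fin K) (n : ℕ) (hn : (i : ℕ) + n ≤ j) :
    mu i + n * (D + 1) ≤ mu j := by
  induction n generalizing j with
  | zero => simpa using h.mono.monotone (show i ≤ j from hn)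
  | succ n ih =>
    have hj := j.2
    have h1 := ih ⟨j - 1, by omega⟩ (show (i : ℕ) + n ≤ j - 1 by omega)
    have h2 := mkAt_sep hcd (h.mark ⟨j - 1, by omega⟩) (h.mark j)
      (h.mono (show (j : ℕ) - 1 < j by omega))
    rw [Nat.succ_mul]
    omega

theorem skel_ex {cd : List α → ℕ} {D : ℕ} {ω : ℕ → α} {s t : ℕ} (h1 : s ≤ t)
    (h2 : MkAt cd D ω t) : ∃ m, First cd D ω s m := by
  have he : ∃ m, s ≤ m ∧ MkAt cd D ω m := ⟨t, h1, h2⟩
  exact ⟨Nat.find he, (Nat.find_spec he).1, (Nat.find_spec he).2,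
    fun t a b c => Nat.find_min he b ⟨a, c⟩⟩

theorem Enum.first {cd : List α → ℕ} {D K : ℕ} {ω : ℕ → α} {mu : Fin K → ℕ}
    (h : Enum cd D ω mu) (i j : Fin K) (s : ℕ) (h1 : mu i ≤ s) (h2 : s ≤ mu j) :
    ∃ l, i ≤ l ∧ l ≤ j ∧ First cd D ω s (mu l) := by
  obtain ⟨m, hm⟩ := skel_ex h2 (h.mark j)
  have h3 : m ≤ mu j := not_lt.1 fun h3 => hm.2.2 _ h2 h3 (h.mark j)
  obtain ⟨l, rfl⟩ := h.all m hm.2.1 i j (h1.trans hm.1) h3
  exact ⟨l, h.mono.le_iff_le.1 (h1.trans hm.1), h.mono.le_iff_le.1 h3, hm⟩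

theorem First.unique {cd : List α → ℕ} {D : ℕ} {ω : ℕ → α} {s μ μ' : ℕ}
    (h : First cd D ω s μ) (h' : First cd D ω s μ') : μ = μ' := by
  exact le_antisymm (not_lt.1 fun h1 => h.2.2 _ h'.1 h1 h'.2.1)
    (not_lt.1 fun h1 => h'.2.2 _ h.1 h1 h.2.1)

theorem skf_eq {u J K : ℕ} (P : Par α M H (Rd u J)) (om : ℕ) (ω : ℕ → α) {mu : Fin K → ℕ}
    (h : Enum P.cd P.D2 ω mu) (i j : Fin K) (x : Sx u J)
    (hf : First P.cd P.D2 ω (P.nxt (mu i) (val u om x)) (mu j)) :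
    skf P om ω mu i x =
      some (j, rdZ u om J P.D2 ((mu j : ℤ) - (P.nxt (mu i) (val u om x) : ℕ)),
        ph P.f (seg ω (mu i + 5 * P.D2) (mu j - mu i))) := by
  have he : ∃ j, First P.cd P.D2 ω (P.nxt (mu i) (val u om x)) (mu j) := ⟨j, hf⟩
  have e : he.choose = j := h.mono.injective (he.choose_spec.unique hf)
  unfold skf
  rw [dif_pos he, e]

theorem skel_of {u J K : ℕ} {P : Par α M H (Rd u J)} {om : ℕ} {ω : ℕ → α} {mu : Fin K → ℕ}
    {i j : Fin K} {x : Sx u J} {ρ : Rd u J} {g : M} (h : skf P om ω mu i x = some (j, ρ, g)) :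
    First P.cd P.D2 ω (P.nxt (mu i) (val u om x)) (mu j) ∧
      ρ = rdZ u om J P.D2 ((mu j : ℤ) - (P.nxt (mu i) (val u om x) : ℕ)) := by
  unfold skf at h
  split_ifs at h with he
  simp only [Option.some.injEq, Prod.mk.injEq] at h
  obtain ⟨h1, h2, -⟩ := h
  exact h1 ▸ ⟨he.choose_spec, h2.symm⟩

theorem skel_ne {u J K : ℕ} (P : Par α M H (Rd u J)) (hP : P.Ok) {om : ℕ} (hom : 1 ≤ om)
    (hu : 1 ≤ u) (hD : P.F + Qs u om J + 1 ≤ P.D2) {ω : ℕ → α} {mu : Fin K → ℕ}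
    (h : Enum P.cd P.D2 ω mu) {i i' j : Fin K} (hi : i < i') {x : Sx u J}
    (f1 : First P.cd P.D2 ω (P.nxt (mu i) (val u om x)) (mu j))
    (f2 : First P.cd P.D2 ω (P.nxt (mu i') (val u om x)) (mu j)) :
    rdZ u om J P.D2 ((mu j : ℤ) - (P.nxt (mu i) (val u om x) : ℕ)) ≠
      rdZ u om J P.D2 ((mu j : ℤ) - (P.nxt (mu i') (val u om x) : ℕ)) := by
  have h1 := mkAt_sep hP.hcd (h.mark i) (h.mark i') (h.mono hi)
  have h2 := val_lt u hom x
  have h3 := f2.1
  have h4 : mu i' < P.nxt (mu i) (val u om x) := not_le.1 fun h4 =>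
    f1.2.2 _ h4 (by unfold Par.nxt at h3; omega) (h.mark i')
  have e : (mu j : ℤ) - (P.nxt (mu i) (val u om x) : ℕ) =
      (mu j : ℤ) - (P.nxt (mu i') (val u om x) : ℕ) + ((mu i' : ℤ) - mu i) := by
    unfold Par.nxt
    omega
  rw [e]
  unfold Par.nxt at h4
  exact rdZ_top u om J hP.hD2 hu _ _ (by omega) (by omega)

theorem skf_cross {u J K : ℕ} (P : Par α M H (Rd u J)) (hP : P.Ok) {om : ℕ} (hom : 1 ≤ om)
    (hu : 1 ≤ u) (hD : P.F + Qs u om J + 1 ≤ P.D2) (ω : ℕ → α) {mu : Fin K → ℕ}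
    (h : Enum P.cd P.D2 ω mu) (i i' : Fin K) (x : Sx u J) (j : Fin K) (ρ : Rd u J) (g g' : M)
    (h1 : skf P om ω mu i x = some (j, ρ, g)) (h2 : skf P om ω mu i' x = some (j, ρ, g')) :
    i = i' := by
  obtain ⟨f1, r1⟩ := skel_of h1
  obtain ⟨f2, r2⟩ := skel_of h2
  rcases lt_trichotomy i i' with h3 | h3 | h3
  · exact absurd (r1.symm.trans r2) (skel_ne P hP hom hu hD h h3 f1 f2)
  · exact h3
  · exact absurd (r2.symm.trans r1) (skel_ne P hP hom hu hD h h3 f2 f1)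

/-- The map given by a triple of parameters. -/
def skelA {S I R : Type} (t : Option I × (S → R) × M) (x : S) : Option (I × R × M) :=
  t.1.map fun j => (j, t.2.1 x, t.2.2)

/-- The map given by a threshold and two triples. -/
noncomputable def skelG {u J : ℕ} {I R : Type} (om : ℕ)
    (p : Option (Sx u J) × (Option I × (Sx u J → R) × M) × (Option I × (Sx u J → R) × M))
    (x : Sx u J) : Option (I × R × M) :=
  if ∃ y, p.1 = some y ∧ val u om x ≤ val u om y then skelA p.2.1 x else skelA p.2.2 x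

omit [Monoid M] in
theorem skelA_eq {S I R : Type} {t : Option I × (S → R) × M} {x : S} {j : I} {ρ : R} {g : M}
    (h : skelA t x = some (j, ρ, g)) : t.2.1 x = ρ := by
  obtain ⟨j', -, h2⟩ := Option.map_eq_some_iff.1 h
  exact congrArg (fun p => p.2.1) h2

omit [Monoid M] in
theorem skelG_two {u J : ℕ} {I R : Type} (om : ℕ)
    (p : Option (Sx u J) × (Option I × (Sx u J → R) × M) × (Option I × (Sx u J → R) × M))
    (h1 : Function.Injective p.2.1.2.1) (h2 : Function.Injective p.2.2.2.1) (ρ : R) :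
    {x | ∃ j g, skelG om p x = some (j, ρ, g)}.ncard ≤ 2 := by
  have hs : {x | ∃ j g, skelG om p x = some (j, ρ, g)} ⊆
      {x | p.2.1.2.1 x = ρ} ∪ {x | p.2.2.2.1 x = ρ} := by
    rintro x ⟨j, g, h⟩
    unfold skelG at h
    split_ifs at h
    · exact Or.inl (skelA_eq h)
    · exact Or.inr (skelA_eq h)
  refine (Set.ncard_le_ncard hs).trans ((Set.ncard_union_le _ _).trans ?_)
  exact add_le_add ((Set.ncard_le_one_iff (Set.toFinite _)).2 fun a b => h1 (a.trans b.symm))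
    ((Set.ncard_le_one_iff (Set.toFinite _)).2 fun a b => h2 (a.trans b.symm))

theorem skel_thr {u J : ℕ} (om c : ℕ) : ∃ θ : Option (Sx u J), ∀ x : Sx u J,
    (∃ y, θ = some y ∧ val u om x ≤ val u om y) ↔ val u om x ≤ c := by
  by_cases h : (Finset.univ.filter fun x : Sx u J => val u om x ≤ c).Nonempty
  · obtain ⟨y, h1, h2⟩ := Finset.exists_max_image _ (val u om) h
    refine ⟨some y, fun x => ⟨?_, fun hx =>
      ⟨y, rfl, h2 x (Finset.mem_filter.2 ⟨Finset.mem_univ _, hx⟩)⟩⟩⟩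
    rintro ⟨y', e, h3⟩
    rw [← Option.some.inj e] at h3
    exact h3.trans (Finset.mem_filter.1 h1).2
  · exact ⟨none, fun x => ⟨fun ⟨_, e, _⟩ => absurd e (by simp),
      fun hx => absurd ⟨x, Finset.mem_filter.2 ⟨Finset.mem_univ _, hx⟩⟩ h⟩⟩

theorem skel_trip {u J K : ℕ} (P : Par α M H (Rd u J)) (om : ℕ) {ω : ℕ → α} {mu : Fin K → ℕ}
    (h : Enum P.cd P.D2 ω mu) (i : Fin K) (s0 : ℕ) :
    ∃ t : Option (Fin K) × (Sx u J → Rd u J) × M,
      (∃ γ : ℤ, t.2.1 = fun x => rdZ u om J P.D2 (γ - val u om x)) ∧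
      ∀ x, (∀ m, First P.cd P.D2 ω (P.nxt (mu i) 0 + val u om x) m ↔ First P.cd P.D2 ω s0 m) →
        skf P om ω mu i x = skelA t x := by
  have e : ∀ v, P.nxt (mu i) v = P.nxt (mu i) 0 + v := fun v => by unfold Par.nxt; omega
  by_cases hj : ∃ j, First P.cd P.D2 ω s0 (mu j)
  · obtain ⟨j, hj⟩ := hj
    refine ⟨(some j, fun x => rdZ u om J P.D2 ((mu j : ℤ) - (P.nxt (mu i) 0 : ℕ) - val u om x),
      ph P.f (seg ω (mu i + 5 * P.D2) (mu j - mu i))), ⟨_, rfl⟩, fun x hx => ?_⟩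
    rw [skf_eq P om ω h i j x (by rw [e]; exact (hx _).2 hj), e, Nat.cast_add, ← sub_sub]
    rfl
  · refine ⟨(none, fun x => rdZ u om J P.D2 (0 - val u om x), 1), ⟨_, rfl⟩, fun x hx => ?_⟩
    unfold skf
    rw [dif_neg fun ⟨j, a⟩ => hj ⟨j, (hx _).1 (e _ ▸ a)⟩]
    rfl

theorem skel_family [Fintype M] (u J K D2 : ℕ) {om : ℕ} (hom : 1 ≤ om) (hD : Qs u om J ≤ D2) :
    ∃ F : Finset (Sx u J → Option (Fin K × Rd u J × M)),
      F.card ≤ (2 ^ (u * J) + 1) *
        ((K + 1) * (2 ^ (u + 2) * (2 ^ (u * J) + 1)) ^ (J + 1) * Fintype.card M) ^ 2 ∧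
      (∀ sk ∈ F, ∀ ρ, {x | ∃ j g, sk x = some (j, ρ, g)}.ncard ≤ 2) ∧
      ∀ (P : Par α M H (Rd u J)), P.Ok → P.D2 = D2 → ∀ (ω : ℕ → α) (mu : Fin K → ℕ),
        Enum P.cd P.D2 ω mu → ∀ i, skf P om ω mu i ∈ F := by
  have hD1 : 1 ≤ D2 := (Qs_pos u hom J).trans hD
  obtain ⟨RF, hc, hR⟩ := rd_family u hom J hD1 (Sx u J) (val u om)
  have hS : Fintype.card (Sx u J) = 2 ^ (u * J) := by simp [pow_mul]
  rw [hS] at hc
  let T : Finset (Option (Fin K) × (Sx u J → Rd u J) × M) :=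
    Finset.univ ×ˢ RF.filter Function.Injective ×ˢ Finset.univ
  have hT : T.card ≤ (K + 1) * (2 ^ (u + 2) * (2 ^ (u * J) + 1)) ^ (J + 1) * Fintype.card M := by
    rw [Finset.card_product, Finset.card_product, Finset.card_univ, Finset.card_univ,
      Fintype.card_option, Fintype.card_fin, mul_assoc]
    exact Nat.mul_le_mul_left _
      (Nat.mul_le_mul_right _ ((Finset.card_filter_le _ _).trans hc))
  refine ⟨(Finset.univ ×ˢ T ×ˢ T).image (skelG om), ?_, ?_, ?_⟩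
  · refine Finset.card_image_le.trans ?_
    rw [Finset.card_product, Finset.card_product, Finset.card_univ, Fintype.card_option, hS, sq]
    exact Nat.mul_le_mul_left _ (Nat.mul_le_mul hT hT)
  · intro sk hsk ρ
    obtain ⟨p, hp, rfl⟩ := Finset.mem_image.1 hsk
    obtain ⟨-, hp⟩ := Finset.mem_product.1 hp
    obtain ⟨h1, h2⟩ := Finset.mem_product.1 hp
    exact skelG_two om p
      (Finset.mem_filter.1 (Finset.mem_product.1 (Finset.mem_product.1 h1).2).1).2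
      (Finset.mem_filter.1 (Finset.mem_product.1 (Finset.mem_product.1 h2).2).1).2 ρ
  · rintro P hP rfl ω mu h i
    have key : ∀ s0, ∃ t ∈ T, ∀ x, (∀ m, First P.cd P.D2 ω (P.nxt (mu i) 0 + val u om x) m ↔
        First P.cd P.D2 ω s0 m) → skf P om ω mu i x = skelA t x := by
      intro s0
      obtain ⟨t, ⟨γ, h1⟩, h2⟩ := skel_trip P om h i s0
      refine ⟨t, Finset.mem_product.2 ⟨Finset.mem_univ _, Finset.mem_product.2
        ⟨Finset.mem_filter.2 ?_, Finset.mem_univ _⟩⟩, h2⟩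
      rw [h1]
      exact ⟨hR γ, fun x y e => rdZ_val_inj u hom J _ γ x y e⟩
    obtain ⟨t1, m1, k1⟩ := key (P.nxt (mu i) 0)
    by_cases hm : ∃ ma, First P.cd P.D2 ω (P.nxt (mu i) 0) ma
    · obtain ⟨ma, hm⟩ := hm
      obtain ⟨t2, m2, k2⟩ := key (ma + 1)
      obtain ⟨θ, hθ⟩ := skel_thr (u := u) (J := J) om (ma - P.nxt (mu i) 0)
      refine Finset.mem_image.2 ⟨(θ, t1, t2), Finset.mem_product.2
        ⟨Finset.mem_univ _, Finset.mem_product.2 ⟨m1, m2⟩⟩, funext fun x => ?_⟩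
      have h1 := hm.1
      have h2 := (val_lt u hom x).trans_le hD
      unfold skelG
      split_ifs with h3
      · have h4 := (hθ x).1 h3
        have h5 : First P.cd P.D2 ω (P.nxt (mu i) 0 + val u om x) ma :=
          ⟨by omega, hm.2.1, fun t a b => hm.2.2 t (by omega) b⟩
        exact (k1 x fun m => ⟨fun a => a.unique h5 ▸ hm, fun a => a.unique hm ▸ h5⟩).symm
      · have h4 := mt (hθ x).2 h3
        refine (k2 x fun m => ⟨fun a => ⟨?_, a.2.1, fun t b c d => ?_⟩,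
          fun a => ⟨?_, a.2.1, fun t b c => a.2.2 t (by omega) c⟩⟩).symm
        · have := a.1
          omega
        · have := mkAt_sep hP.hcd hm.2.1 d b
          exact a.2.2 t (by omega) c d
        · have := mkAt_sep hP.hcd hm.2.1 a.2.1 a.1
          omega
    · refine Finset.mem_image.2 ⟨(none, t1, t1), Finset.mem_product.2
        ⟨Finset.mem_univ _, Finset.mem_product.2 ⟨m1, m1⟩⟩, funext fun x => ?_⟩
      unfold skelG
      rw [ite_self]
      exact (k1 x fun m => ⟨fun a => absurd (skel_ex ((Nat.le_add_right _ _).trans a.1) a.2.1) hm,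
        fun a => absurd ⟨m, a⟩ hm⟩).symm

end Vale.Agent.P329
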